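import Vale.Agent.Lib.P310.Mach.Term

/-!
# The running time of terms is polynomial, with a degree that does not depend on the parameters
-/

set_option linter.unusedSimpArgs false

namespace Vale.Agent.Lib.P310.Mach

/-- The degree of a term, given the degrees of its variables; it does not depend on the parameters. -/
def Tm.deg : Tm → List ℕ → ℕ
  | .var i, Γ => Γ.getD i 0
  | .lit _, _ => 0
  | .par _, _ => 0
  | .len, _ => 1
  | .inp a, Γ => deg a Γ
  | .add a b, Γ => deg a Γ + deg b Γ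
  | .sub a b, Γ => deg a Γ + deg b Γ
  | .mul a b, Γ => deg a Γ + deg b Γ
  | .ite c a b, Γ => deg c Γ + deg a Γ + deg b Γ
  | .iter n c a b, Γ => deg n Γ + deg c Γ + deg a Γ + deg b (deg n Γ :: deg c Γ :: Γ)
  | .app b a₁ a₂ a₃ a₄, Γ =>
      deg a₁ Γ + deg a₂ Γ + deg a₃ Γ + deg a₄ Γ + deg b [deg a₁ Γ, deg a₂ Γ, deg a₃ Γ, deg a₄ Γ]

lemma pow_mono_aux {x : ℕ} (hx : 1 ≤ x) {C y d D : ℕ} (h : y ≤ C * x ^ d) (hd : d ≤ D) :
    y ≤ C * x ^ D :=
  h.trans (Nat.mul_le_mul_left _ (Nat.pow_le_pow_right hx hd))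

/-- Values and numbers of steps of a term are bounded by a power of `x ≥ |w| + 1`. -/
theorem term_bound (π : ℕ → ℕ) : ∀ (e : Tm) (Γ : List ℕ) (C₀ : ℕ), ∃ C, ∀ (w : List Bool) (x : ℕ)
    (env : List ℕ), w.length + 1 ≤ x → (∀ i, env.getD i 0 ≤ C₀ * x ^ (Γ.getD i 0)) →
    eval π w e env ≤ C * x ^ e.deg Γ ∧ ops π w e env ≤ C * x ^ e.deg Γ := by
  intro e
  induction e with
  | var i =>
    intro Γ C₀
    refine ⟨10 * C₀ + 5, fun w x env hx henv => ?_⟩
    have hx1 : 1 ≤ x := by omega
    have h1 := henv i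
    have h2 : 1 ≤ x ^ Γ.getD i 0 := Nat.one_le_pow _ _ hx1
    simp only [eval, ops, Tm.deg]
    have h3 : (10 * C₀ + 5) * x ^ Γ.getD i 0 =
        10 * (C₀ * x ^ Γ.getD i 0) + 5 * x ^ Γ.getD i 0 := by ring
    omega
  | lit n =>
    intro Γ C₀
    refine ⟨2 * n + 2, fun w x env hx henv => ?_⟩
    simp only [eval, ops, Tm.deg, pow_zero]
    omega
  | par i =>
    intro Γ C₀
    refine ⟨2 * π i + 2, fun w x env hx henv => ?_⟩
    simp only [eval, ops, Tm.deg, pow_zero]
    omega
  | len =>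
    intro Γ C₀
    refine ⟨15, fun w x env hx henv => ?_⟩
    simp only [eval, ops, Tm.deg, pow_one]
    omega
  | inp a ih =>
    intro Γ C₀
    obtain ⟨Ca, hCa⟩ := ih Γ C₀
    refine ⟨3 * Ca + 21, fun w x env hx henv => ?_⟩
    obtain ⟨h1, h2⟩ := hCa w x env hx henv
    have hx1 : 1 ≤ x := by omega
    simp only [eval, ops, Tm.deg]
    have h3 : 1 ≤ x ^ a.deg Γ := Nat.one_le_pow _ _ hx1
    have h4 : (3 * Ca + 21) * x ^ a.deg Γ = 3 * (Ca * x ^ a.deg Γ) + 21 * x ^ a.deg Γ := by ring
    constructor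
    · split_ifs <;> omega
    · omega
  | add a b iha ihb =>
    intro Γ C₀
    obtain ⟨Ca, hCa⟩ := iha Γ C₀
    obtain ⟨Cb, hCb⟩ := ihb Γ C₀
    refine ⟨Ca + 5 * Cb + 10, fun w x env hx henv => ?_⟩
    have hx1 : 1 ≤ x := by omega
    obtain ⟨h1, h2⟩ := hCa w x env hx henv
    obtain ⟨h3, h4⟩ := hCb w x env hx henv
    simp only [eval, ops, Tm.deg]
    set D := a.deg Γ + b.deg Γ
    have h5 := pow_mono_aux hx1 h1 (show a.deg Γ ≤ D by omega)
    have h6 := pow_mono_aux hx1 h2 (show a.deg Γ ≤ D by omega)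
    have h7 := pow_mono_aux hx1 h3 (show b.deg Γ ≤ D by omega)
    have h8 := pow_mono_aux hx1 h4 (show b.deg Γ ≤ D by omega)
    have h9 : 1 ≤ x ^ D := Nat.one_le_pow _ _ hx1
    have h10 : (Ca + 5 * Cb + 10) * x ^ D = Ca * x ^ D + 5 * (Cb * x ^ D) + 10 * x ^ D := by ring
    omega
  | sub a b iha ihb =>
    intro Γ C₀
    obtain ⟨Ca, hCa⟩ := iha Γ C₀
    obtain ⟨Cb, hCb⟩ := ihb Γ C₀
    refine ⟨Ca + 5 * Cb + 10, fun w x env hx henv => ?_⟩
    have hx1 : 1 ≤ x := by omega
    obtain ⟨h1, h2⟩ := hCa w x env hx henv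
    obtain ⟨h3, h4⟩ := hCb w x env hx henv
    simp only [eval, ops, Tm.deg]
    set D := a.deg Γ + b.deg Γ
    have h5 := pow_mono_aux hx1 h1 (show a.deg Γ ≤ D by omega)
    have h6 := pow_mono_aux hx1 h2 (show a.deg Γ ≤ D by omega)
    have h7 := pow_mono_aux hx1 h3 (show b.deg Γ ≤ D by omega)
    have h8 := pow_mono_aux hx1 h4 (show b.deg Γ ≤ D by omega)
    have h9 : 1 ≤ x ^ D := Nat.one_le_pow _ _ hx1
    have h10 : (Ca + 5 * Cb + 10) * x ^ D = Ca * x ^ D + 5 * (Cb * x ^ D) + 10 * x ^ D := by ring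
    omega
  | mul a b iha ihb =>
    intro Γ C₀
    obtain ⟨Ca, hCa⟩ := iha Γ C₀
    obtain ⟨Cb, hCb⟩ := ihb Γ C₀
    refine ⟨11 * Ca + 3 * Cb + 10 * (Ca * Cb) + Ca * Cb + 20, fun w x env hx henv => ?_⟩
    have hx1 : 1 ≤ x := by omega
    obtain ⟨h1, h2⟩ := hCa w x env hx henv
    obtain ⟨h3, h4⟩ := hCb w x env hx henv
    simp only [eval, ops, Tm.deg]
    set D := a.deg Γ + b.deg Γ with hD
    have h5 := pow_mono_aux hx1 h1 (show a.deg Γ ≤ D by omega)
    have h6 := pow_mono_aux hx1 h2 (show a.deg Γ ≤ D by omega)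
    have h7 := pow_mono_aux hx1 h3 (show b.deg Γ ≤ D by omega)
    have h8 := pow_mono_aux hx1 h4 (show b.deg Γ ≤ D by omega)
    have h9 : 1 ≤ x ^ D := Nat.one_le_pow _ _ hx1
    have h11 : eval π w a env * eval π w b env ≤ Ca * Cb * x ^ D := by
      calc eval π w a env * eval π w b env
          ≤ (Ca * x ^ a.deg Γ) * (Cb * x ^ b.deg Γ) := Nat.mul_le_mul h1 h3
        _ = Ca * Cb * x ^ D := by rw [hD, pow_add]; ring
    have h10 : (11 * Ca + 3 * Cb + 10 * (Ca * Cb) + Ca * Cb + 20) * x ^ D =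
        11 * (Ca * x ^ D) + 3 * (Cb * x ^ D) + 11 * (Ca * Cb * x ^ D) + 20 * x ^ D := by ring
    have h12 : eval π w a env * (10 * eval π w b env + 10) =
        10 * (eval π w a env * eval π w b env) + 10 * eval π w a env := by ring
    omega
  | ite c a b ihc iha ihb =>
    intro Γ C₀
    obtain ⟨Cc, hCc⟩ := ihc Γ C₀
    obtain ⟨Ca, hCa⟩ := iha Γ C₀
    obtain ⟨Cb, hCb⟩ := ihb Γ C₀
    refine ⟨3 * Cc + Ca + Cb + 10, fun w x env hx henv => ?_⟩
    have hx1 : 1 ≤ x := by omega
    obtain ⟨h1, h2⟩ := hCa w x env hx henv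
    obtain ⟨h3, h4⟩ := hCb w x env hx henv
    obtain ⟨h13, h14⟩ := hCc w x env hx henv
    simp only [eval, ops, Tm.deg]
    set D := c.deg Γ + a.deg Γ + b.deg Γ with hD
    have h5 := pow_mono_aux hx1 h1 (show a.deg Γ ≤ D by omega)
    have h6 := pow_mono_aux hx1 h2 (show a.deg Γ ≤ D by omega)
    have h7 := pow_mono_aux hx1 h3 (show b.deg Γ ≤ D by omega)
    have h8 := pow_mono_aux hx1 h4 (show b.deg Γ ≤ D by omega)
    have h15 := pow_mono_aux hx1 h13 (show c.deg Γ ≤ D by omega)
    have h16 := pow_mono_aux hx1 h14 (show c.deg Γ ≤ D by omega)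
    have h9 : 1 ≤ x ^ D := Nat.one_le_pow _ _ hx1
    have h10 : (3 * Cc + Ca + Cb + 10) * x ^ D =
        3 * (Cc * x ^ D) + Ca * x ^ D + Cb * x ^ D + 10 * x ^ D := by ring
    constructor <;> split_ifs <;> omega
  | iter n c a b ihn ihc iha ihb =>
    intro Γ C₀
    obtain ⟨Cn, hCn⟩ := ihn Γ C₀
    obtain ⟨Cc, hCc⟩ := ihc Γ C₀
    obtain ⟨Ca, hCa⟩ := iha Γ C₀
    obtain ⟨Cb, hCb⟩ := ihb (n.deg Γ :: c.deg Γ :: Γ) (C₀ + Cn + Cc)
    refine ⟨3 * Cn + 42 * Cc + 41 * Ca + Cn * (11 * Cb + 40 * Cc + 40) + 100,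
      fun w x env hx henv => ?_⟩
    have hx1 : 1 ≤ x := by omega
    obtain ⟨h1, h2⟩ := hCn w x env hx henv
    obtain ⟨h3, h4⟩ := hCc w x env hx henv
    obtain ⟨h5, h6⟩ := hCa w x env hx henv
    simp only [eval, ops, Tm.deg]
    set dn := n.deg Γ with hdn
    set dc := c.deg Γ with hdc
    set da := a.deg Γ with hda
    set db := b.deg (dn :: dc :: Γ) with hdb
    set D := dn + dc + da + db with hD
    set nv := eval π w n env
    set cv := eval π w c env
    set av := eval π w a env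
    set acc : ℕ → ℕ := fun i => recVal (fun i acc => eval π w b (i :: acc :: env)) cv av i with hacc
    have hacc_le : ∀ i, acc i ≤ cv := recVal_le _ _ _
    have hb : ∀ j, j < nv → eval π w b (j :: acc j :: env) ≤ Cb * x ^ db ∧
        ops π w b (j :: acc j :: env) ≤ Cb * x ^ db := by
      intro j hj
      refine hCb w x _ hx fun i => ?_
      match i with
      | 0 =>
        simp only [List.getD_cons_zero]
        calc j ≤ nv := by omega
          _ ≤ Cn * x ^ dn := h1
          _ ≤ (C₀ + Cn + Cc) * x ^ dn := Nat.mul_le_mul_right _ (by omega)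
      | 1 =>
        simp only [List.getD_cons_succ, List.getD_cons_zero]
        calc acc j ≤ cv := hacc_le j
          _ ≤ Cc * x ^ dc := h3
          _ ≤ (C₀ + Cn + Cc) * x ^ dc := Nat.mul_le_mul_right _ (by omega)
      | i + 2 =>
        simp only [List.getD_cons_succ]
        calc env.getD i 0 ≤ C₀ * x ^ Γ.getD i 0 := henv i
          _ ≤ (C₀ + Cn + Cc) * x ^ Γ.getD i 0 := Nat.mul_le_mul_right _ (by omega)
    have h9 : 1 ≤ x ^ D := Nat.one_le_pow _ _ hx1
    have h9b : 1 ≤ x ^ (db + dc) := Nat.one_le_pow _ _ hx1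
    have hsum : ∑ i ∈ Finset.range nv, (ops π w b (i :: acc i :: env) +
        10 * eval π w b (i :: acc i :: env) + 40 * cv + 40) ≤
        Cn * (11 * Cb + 40 * Cc + 40) * x ^ D := by
      have h20 : ∀ i ∈ Finset.range nv, (ops π w b (i :: acc i :: env) +
          10 * eval π w b (i :: acc i :: env) + 40 * cv + 40) ≤
          (11 * Cb + 40 * Cc + 40) * x ^ (db + dc) := by
        intro i hi
        obtain ⟨h21, h22⟩ := hb i (Finset.mem_range.mp hi)
        have h23 := pow_mono_aux hx1 h21 (show db ≤ db + dc by omega)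
        have h24 := pow_mono_aux hx1 h22 (show db ≤ db + dc by omega)
        have h25 := pow_mono_aux hx1 h3 (show dc ≤ db + dc by omega)
        have h26 : (11 * Cb + 40 * Cc + 40) * x ^ (db + dc) =
            11 * (Cb * x ^ (db + dc)) + 40 * (Cc * x ^ (db + dc)) + 40 * x ^ (db + dc) := by ring
        omega
      have h27 := Finset.sum_le_card_nsmul _ _ _ h20
      rw [Finset.card_range, smul_eq_mul] at h27
      refine h27.trans ?_
      calc nv * ((11 * Cb + 40 * Cc + 40) * x ^ (db + dc))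
          ≤ (Cn * x ^ dn) * ((11 * Cb + 40 * Cc + 40) * x ^ (db + dc)) := Nat.mul_le_mul_right _ h1
        _ = Cn * (11 * Cb + 40 * Cc + 40) * (x ^ dn * x ^ (db + dc)) := by ring
        _ = Cn * (11 * Cb + 40 * Cc + 40) * x ^ (dn + (db + dc)) := by rw [pow_add x dn (db + dc)]
        _ ≤ Cn * (11 * Cb + 40 * Cc + 40) * x ^ D :=
            Nat.mul_le_mul_left _ (Nat.pow_le_pow_right hx1 (by omega))
    have h31 := pow_mono_aux hx1 h1 (show dn ≤ D by omega)
    have h32 := pow_mono_aux hx1 h2 (show dn ≤ D by omega)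
    have h33 := pow_mono_aux hx1 h3 (show dc ≤ D by omega)
    have h34 := pow_mono_aux hx1 h4 (show dc ≤ D by omega)
    have h35 := pow_mono_aux hx1 h5 (show da ≤ D by omega)
    have h36 := pow_mono_aux hx1 h6 (show da ≤ D by omega)
    have h37 : (3 * Cn + 42 * Cc + 41 * Ca + Cn * (11 * Cb + 40 * Cc + 40) + 100) * x ^ D =
        3 * (Cn * x ^ D) + 42 * (Cc * x ^ D) + 41 * (Ca * x ^ D) +
          Cn * (11 * Cb + 40 * Cc + 40) * x ^ D + 100 * x ^ D := by ring
    have h38 := hacc_le nv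
    have h39 : recVal (fun i acc => eval π w b (i :: acc :: env)) cv av nv = acc nv := rfl
    rw [h39]
    refine ⟨by omega, ?_⟩
    have h40 : ∑ i ∈ Finset.range nv, (ops π w b (i :: recVal (fun i acc =>
        eval π w b (i :: acc :: env)) cv av i :: env) + 10 * eval π w b (i :: recVal (fun i acc =>
        eval π w b (i :: acc :: env)) cv av i :: env) + 40 * cv + 40) =
        ∑ i ∈ Finset.range nv, (ops π w b (i :: acc i :: env) +
        10 * eval π w b (i :: acc i :: env) + 40 * cv + 40) := rfl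
    rw [h40]
    omega
  | app b a₁ a₂ a₃ a₄ ihb ih₁ ih₂ ih₃ ih₄ =>
    intro Γ C₀
    obtain ⟨C₁, hC₁⟩ := ih₁ Γ C₀
    obtain ⟨C₂, hC₂⟩ := ih₂ Γ C₀
    obtain ⟨C₃, hC₃⟩ := ih₃ Γ C₀
    obtain ⟨C₄, hC₄⟩ := ih₄ Γ C₀
    obtain ⟨Cb, hCb⟩ := ihb [a₁.deg Γ, a₂.deg Γ, a₃.deg Γ, a₄.deg Γ] (C₁ + C₂ + C₃ + C₄)
    refine ⟨3 * C₁ + 3 * C₂ + 3 * C₃ + 3 * C₄ + 5 * Cb + 30, fun w x env hx henv => ?_⟩
    have hx1 : 1 ≤ x := by omega
    obtain ⟨h1, h2⟩ := hC₁ w x env hx henv
    obtain ⟨h3, h4⟩ := hC₂ w x env hx henv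
    obtain ⟨h5, h6⟩ := hC₃ w x env hx henv
    obtain ⟨h7, h8⟩ := hC₄ w x env hx henv
    simp only [eval, ops, Tm.deg]
    set d₁ := a₁.deg Γ
    set d₂ := a₂.deg Γ
    set d₃ := a₃.deg Γ
    set d₄ := a₄.deg Γ
    set db := b.deg [d₁, d₂, d₃, d₄]
    set D := d₁ + d₂ + d₃ + d₄ + db
    set v₁ := eval π w a₁ env
    set v₂ := eval π w a₂ env
    set v₃ := eval π w a₃ env
    set v₄ := eval π w a₄ env
    obtain ⟨h9, h10⟩ := hCb w x [v₁, v₂, v₃, v₄] hx (fun i => by
      match i with
      | 0 =>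
        simp only [List.getD_cons_zero]
        exact h1.trans (Nat.mul_le_mul_right _ (by omega))
      | 1 =>
        simp only [List.getD_cons_succ, List.getD_cons_zero]
        exact h3.trans (Nat.mul_le_mul_right _ (by omega))
      | 2 =>
        simp only [List.getD_cons_succ, List.getD_cons_zero]
        exact h5.trans (Nat.mul_le_mul_right _ (by omega))
      | 3 =>
        simp only [List.getD_cons_succ, List.getD_cons_zero]
        exact h7.trans (Nat.mul_le_mul_right _ (by omega))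
      | i + 4 =>
        simp)
    have h11 := pow_mono_aux hx1 h1 (show d₁ ≤ D by omega)
    have h12 := pow_mono_aux hx1 h2 (show d₁ ≤ D by omega)
    have h13 := pow_mono_aux hx1 h3 (show d₂ ≤ D by omega)
    have h14 := pow_mono_aux hx1 h4 (show d₂ ≤ D by omega)
    have h15 := pow_mono_aux hx1 h5 (show d₃ ≤ D by omega)
    have h16 := pow_mono_aux hx1 h6 (show d₃ ≤ D by omega)
    have h17 := pow_mono_aux hx1 h7 (show d₄ ≤ D by omega)
    have h18 := pow_mono_aux hx1 h8 (show d₄ ≤ D by omega)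
    have h19 := pow_mono_aux hx1 h9 (show db ≤ D by omega)
    have h20 := pow_mono_aux hx1 h10 (show db ≤ D by omega)
    have h21 : 1 ≤ x ^ D := Nat.one_le_pow _ _ hx1
    have h22 : (3 * C₁ + 3 * C₂ + 3 * C₃ + 3 * C₄ + 5 * Cb + 30) * x ^ D =
        3 * (C₁ * x ^ D) + 3 * (C₂ * x ^ D) + 3 * (C₃ * x ^ D) + 3 * (C₄ * x ^ D) +
          5 * (Cb * x ^ D) + 30 * x ^ D := by ring
    omega

/-- The program that writes the bits of a term: first the number of bits is computed, and bit `i`
is true if the second term is not zero on the environment `[i]`. -/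
def outProg (π : ℕ → ℕ) (sizeT bitT : Tm) : Stmt :=
  .seq (compile π sizeT [] 1) (.loop 1 (.seq (.dec 1) (.seq (compile π bitT [2] 3)
    (.seq (.ifz 3 (.emit false) (.seq (.emit true) (clr 3))) (.inc 2)))))

/-- The word written by the program `outProg`. -/
def outWord (π : ℕ → ℕ) (w : List Bool) (sizeT bitT : Tm) : List Bool :=
  (List.range (eval π w sizeT [])).map fun i => decide (eval π w bitT [i] ≠ 0)

/-- The run of the program `outProg`, with a polynomial bound whose degree does not depend on the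
parameters. -/
theorem outProg_spec (sizeT bitT : Tm) : ∃ D, ∀ π : ℕ → ℕ, ∃ C, ∀ w : List Bool,
    ∃ (t : ℕ) (s' : St), (sstep w)^[t] ([outProg π sizeT bitT], St.init w) = ([], s') ∧
      s'.out = outWord π w sizeT bitT ∧ t ≤ C * (w.length + 1) ^ D := by
  refine ⟨sizeT.deg [] + bitT.deg [sizeT.deg []], fun π => ?_⟩
  obtain ⟨Cs, hCs⟩ := term_bound π sizeT [] 0
  obtain ⟨Cb, hCb⟩ := term_bound π bitT [sizeT.deg []] Cs
  refine ⟨Cs + Cs * (3 * Cb + 20) + 10, fun w => ?_⟩
  set x := w.length + 1 with hx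
  have hx1 : 1 ≤ x := by omega
  set L := eval π w sizeT [] with hL
  set b : ℕ → ℕ := fun i => eval π w bitT [i] with hb
  -- the store at the head of the loop
  set τ : ℕ → St := fun i =>
    ⟨fun r => if r = 0 then w.length else if r = 1 then L - i else if r = 2 then i else 0,
      (List.range i).map fun j => decide (b j ≠ 0)⟩ with hτ
  set body : Stmt := .seq (.dec 1) (.seq (compile π bitT [2] 3)
    (.seq (.ifz 3 (.emit false) (.seq (.emit true) (clr 3))) (.inc 2))) with hbody
  have hstart : Good w [] 1 (St.init w) := by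
    refine ⟨by simp, by omega, by simp [St.init], ?_⟩
    intro r hr
    simp only [St.init]
    rw [if_neg (by omega)]
  have h0 := compile_spec π w sizeT [] 1 (St.init w) [.loop 1 body] hstart
  simp only [List.map_nil] at h0
  rw [← hL] at h0
  have hτ0 : (St.init w).set 1 L = τ 0 := by
    ext1
    · funext r
      simp only [St.set_regs, Function.update_apply, hτ, St.init, Nat.sub_zero]
      by_cases h1 : r = 0
      · simp [h1]
      · by_cases h2 : r = 1
        · simp [h2]
        · by_cases h3 : r = 2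
          · simp [h3]
          · simp [h1, h2, h3]
    · simp [hτ, St.init]
  rw [hτ0] at h0
  have hround : ∀ i, i < L → Runs w (.loop 1 body :: [], τ i) (.loop 1 body :: [], τ (i + 1))
      (ops π w bitT [i] + 2 * b i + 20) := by
    intro i hi
    have h1 := compile_spec π w bitT [2] 3 ((τ i).set 1 ((τ i).regs 1 - 1))
      (.seq (.ifz 3 (.emit false) (.seq (.emit true) (clr 3))) (.inc 2) :: .loop 1 body :: []) (by
        refine ⟨by simp, by omega, by simp [hτ], ?_⟩
        intro r hr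
        rw [St.set_same_ne _ _ (by omega)]
        simp only [hτ]
        rw [if_neg (by omega), if_neg (by omega), if_neg (by omega)])
    have h2 : [2].map ((τ i).set 1 ((τ i).regs 1 - 1)).regs = [i] := by
      simp [hτ]
    rw [h2] at h1
    have hdec := runs_dec (w := w) (k := .seq (compile π bitT [2] 3)
      (.seq (.ifz 3 (.emit false) (.seq (.emit true) (clr 3))) (.inc 2)) :: .loop 1 body :: [])
      (s := τ i) 1
    set s₁ := ((τ i).set 1 ((τ i).regs 1 - 1)).set 3 (eval π w bitT [i]) with hs₁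
    have hr3 : s₁.regs 3 = b i := by simp [hs₁, hb]
    have hrest : Runs w (.seq (.ifz 3 (.emit false) (.seq (.emit true) (clr 3))) (.inc 2) ::
        .loop 1 body :: [], s₁) (.loop 1 body :: [], τ (i + 1)) (2 * b i + 8) := by
      have hout : s₁.out = (List.range i).map fun j => decide (b j ≠ 0) := by
        simp [hs₁, hτ]
      have hreg : ∀ r, r ≠ 3 → s₁.regs r = if r = 0 then w.length else if r = 1 then L - i - 1
          else if r = 2 then i else 0 := by
        intro r hr
        simp only [hs₁, St.set_regs, Function.update_apply, hτ]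
        rw [if_neg hr]
        by_cases h1 : r = 1
        · simp [h1]
        · simp [h1]
      by_cases hbi : b i = 0
      · have h3 := runs_inc (w := w) (k := [.loop 1 body]) (s := ⟨s₁.regs, s₁.out ++ [false]⟩) 2
        refine Runs.fin (runs_seq ((runs_ifz_zero (by rw [hr3, hbi]) (runs_emit false)).trans h3)) ?_
          (by omega)
        ext1
        · funext r
          simp only [St.set_regs, Function.update_apply, hτ]
          by_cases h4 : r = 2
          · subst h4
            simp [hreg 2 (by omega)]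
          · by_cases h5 : r = 3
            · subst h5
              simp [hr3, hbi]
            · rw [if_neg h4, hreg r h5]
              have h6 : L - i - 1 = L - (i + 1) := by omega
              simp [h4, h6]
        · simp [hτ, hout, List.range_succ, hbi]
      · have h3 := runs_clr (w := w) (k := .inc 2 :: [.loop 1 body]) 3 ⟨s₁.regs, s₁.out ++ [true]⟩
        set s₂ : St := St.set ⟨s₁.regs, s₁.out ++ [true]⟩ 3 0 with hs₂
        have h4 := runs_inc (w := w) (k := [.loop 1 body]) (s := s₂) 2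
        have h5 : (⟨s₁.regs, s₁.out ++ [true]⟩ : St).regs 3 = b i := hr3
        rw [h5] at h3
        refine Runs.fin (runs_seq ((runs_ifz_ne (by rw [hr3]; exact hbi) (runs_seq ((runs_emit true).trans
          (h3.trans h4)))))) ?_ (by omega)
        ext1
        · funext r
          simp only [St.set_regs, Function.update_apply, hτ, hs₂]
          by_cases h4 : r = 2
          · subst h4
            simp [hreg 2 (by omega)]
          · by_cases h5 : r = 3
            · subst h5
              simp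
            · rw [if_neg h4, if_neg h5, hreg r h5]
              have h6 : L - i - 1 = L - (i + 1) := by omega
              simp [h4, h6]
        · simp [hτ, hs₂, hout, List.range_succ, hbi]
    refine (runs_loop_ne ?_ (runs_seq (hdec.trans (runs_seq (h1.trans hrest))))).mono ?_
    · simp only [hτ]
      simp
      omega
    · show _ ≤ ops π w bitT [i] + 2 * b i + 20
      omega
  have hall : ∀ i, i ≤ L → Runs w (.loop 1 body :: [], τ 0) (.loop 1 body :: [], τ i)
      (∑ j ∈ Finset.range i, (ops π w bitT [j] + 2 * b j + 20)) := by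
    intro i
    induction i with
    | zero => intro _; exact Runs.refl _ _
    | succ i ih =>
      intro hi
      rw [Finset.sum_range_succ]
      exact (ih (by omega)).trans (hround i (by omega))
  have hexit : Runs w (.loop 1 body :: [], τ L) ([], τ L) 1 :=
    runs_loop_zero (by simp [hτ])
  have hrun := runs_seq (h0.trans ((hall L le_rfl).trans hexit))
  obtain ⟨t, ht, hite⟩ := hrun
  refine ⟨t, τ L, hite, ?_, ht.trans ?_⟩
  · simp [hτ, outWord, hb, hL]
  -- the bound
  obtain ⟨h1, h2⟩ := hCs w x [] (by omega) (by simp)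
  have hbd : ∀ i ∈ Finset.range L, ops π w bitT [i] + 2 * b i + 20 ≤
      (3 * Cb + 20) * x ^ bitT.deg [sizeT.deg []] := by
    intro i hi
    have hi' := Finset.mem_range.mp hi
    obtain ⟨h3, h4⟩ := hCb w x [i] (by omega) (fun j => by
      match j with
      | 0 =>
        simp only [List.getD_cons_zero]
        have : i ≤ L := by omega
        exact this.trans h1
      | j + 1 => simp)
    have h5 : 1 ≤ x ^ bitT.deg [sizeT.deg []] := Nat.one_le_pow _ _ hx1
    have h6 : (3 * Cb + 20) * x ^ bitT.deg [sizeT.deg []] =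
        3 * (Cb * x ^ bitT.deg [sizeT.deg []]) + 20 * x ^ bitT.deg [sizeT.deg []] := by ring
    simp only [hb]
    omega
  have h7 := Finset.sum_le_card_nsmul _ _ _ hbd
  rw [Finset.card_range, smul_eq_mul] at h7
  set D := sizeT.deg [] + bitT.deg [sizeT.deg []] with hD
  have h8 : L * ((3 * Cb + 20) * x ^ bitT.deg [sizeT.deg []]) ≤ Cs * (3 * Cb + 20) * x ^ D := by
    calc L * ((3 * Cb + 20) * x ^ bitT.deg [sizeT.deg []])
        ≤ (Cs * x ^ sizeT.deg []) * ((3 * Cb + 20) * x ^ bitT.deg [sizeT.deg []]) :=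
          Nat.mul_le_mul_right _ h1
      _ = Cs * (3 * Cb + 20) * x ^ D := by rw [hD, pow_add]; ring
  have h9 := pow_mono_aux hx1 h2 (show sizeT.deg [] ≤ D by omega)
  have h10 : 1 ≤ x ^ D := Nat.one_le_pow _ _ hx1
  have h11 : (Cs + Cs * (3 * Cb + 20) + 10) * x ^ D =
      Cs * x ^ D + Cs * (3 * Cb + 20) * x ^ D + 10 * x ^ D := by ring
  rw [h11]
  omega

end Vale.Agent.Lib.P310.Mach
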