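import Vale.Agent.Lib.P310.Mach.Term

/-!
# A small library of terms

Truth values are the numbers `0` and `1`. Division, remainder and capped powers are written with
capped iteration. The evaluation lemmas have two stages: first the evaluation is pushed to the
leaves (with the functions `iteN, leN, ...` on numbers, which have no decidability instances in
dependent positions), then these functions are unfolded.
-/

set_option linter.unusedSimpArgs false

namespace Vale.Agent.Lib.P310.Mach

variable {π : ℕ → ℕ} {w : List Bool} {env : List ℕ}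

/-- Conditional on numbers. -/
def iteN (c a b : ℕ) : ℕ := if c = 0 then b else a
/-- Truth value: the argument is zero. -/
def notN (a : ℕ) : ℕ := if a = 0 then 1 else 0
/-- Truth value: `a ≤ b`. -/
def leN (a b : ℕ) : ℕ := if a ≤ b then 1 else 0
/-- Truth value: `a < b`. -/
def ltN (a b : ℕ) : ℕ := if a < b then 1 else 0
/-- Truth value: `a = b`. -/
def eqN (a b : ℕ) : ℕ := if a = b then 1 else 0
/-- Truth value: both arguments are not zero. -/
def andN (a b : ℕ) : ℕ := if a ≠ 0 ∧ b ≠ 0 then 1 else 0
/-- Truth value: one of the arguments is not zero. -/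
def orN (a b : ℕ) : ℕ := if a ≠ 0 ∨ b ≠ 0 then 1 else 0
/-- Truth value: `a ≠ b`. -/
def neN (a b : ℕ) : ℕ := if a ≠ b then 1 else 0
/-- A truth value as a number. -/
def boolN (b : Bool) : ℕ := if b = true then 1 else 0
/-- The input bit as a number. -/
def bitN (w : List Bool) (a : ℕ) : ℕ := if inBit w a = true then 1 else 0

@[simp] lemma eval_var (i : ℕ) : eval π w (.var i) env = env.getD i 0 := rfl
@[simp] lemma eval_lit (n : ℕ) : eval π w (.lit n) env = n := rfl
@[simp] lemma eval_par (i : ℕ) : eval π w (.par i) env = π i := rfl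
@[simp] lemma eval_len : eval π w .len env = w.length := rfl
@[simp] lemma eval_inp (a : Tm) : eval π w (.inp a) env = bitN w (eval π w a env) := rfl
@[simp] lemma eval_add (a b : Tm) : eval π w (.add a b) env = eval π w a env + eval π w b env := rfl
@[simp] lemma eval_sub (a b : Tm) : eval π w (.sub a b) env = eval π w a env - eval π w b env := rfl
@[simp] lemma eval_mul (a b : Tm) : eval π w (.mul a b) env = eval π w a env * eval π w b env := rfl
@[simp] lemma eval_ite (c a b : Tm) : eval π w (.ite c a b) env =
    iteN (eval π w c env) (eval π w a env) (eval π w b env) := rfl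
@[simp] lemma eval_iter (n c a b : Tm) : eval π w (.iter n c a b) env =
    recVal (fun i acc => eval π w b (i :: acc :: env)) (eval π w c env) (eval π w a env)
      (eval π w n env) := rfl
@[simp] lemma eval_app (b a₁ a₂ a₃ a₄ : Tm) : eval π w (.app b a₁ a₂ a₃ a₄) env =
    eval π w b [eval π w a₁ env, eval π w a₂ env, eval π w a₃ env, eval π w a₄ env] := rfl

lemma iteN_ltN (a b x y : ℕ) : iteN (ltN a b) x y = if a < b then x else y := by
  by_cases h : a < b <;> simp [iteN, ltN, h]
lemma iteN_leN (a b x y : ℕ) : iteN (leN a b) x y = if a ≤ b then x else y := by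
  by_cases h : a ≤ b <;> simp [iteN, leN, h]
lemma iteN_eqN (a b x y : ℕ) : iteN (eqN a b) x y = if a = b then x else y := by
  by_cases h : a = b <;> simp [iteN, eqN, h]
lemma iteN_notN (a x y : ℕ) : iteN (notN a) x y = if a = 0 then x else y := by
  by_cases h : a = 0 <;> simp [iteN, notN, h]
lemma iteN_andN (a b x y : ℕ) : iteN (andN a b) x y = if a ≠ 0 ∧ b ≠ 0 then x else y := by
  by_cases h1 : a = 0 <;> by_cases h2 : b = 0 <;> simp [iteN, andN, h1, h2]
lemma iteN_orN (a b x y : ℕ) : iteN (orN a b) x y = if a ≠ 0 ∨ b ≠ 0 then x else y := by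
  by_cases h1 : a = 0 <;> by_cases h2 : b = 0 <;> simp [iteN, orN, h1, h2]
lemma iteN_bitN (a x y : ℕ) : iteN (bitN w a) x y = if inBit w a = true then x else y := by
  by_cases h : inBit w a = true <;> simp [iteN, bitN, h]
lemma iteN_neN (a b x y : ℕ) : iteN (neN a b) x y = if a ≠ b then x else y := by
  by_cases h : a = b <;> simp [iteN, neN, h]
lemma iteN_boolN (b : Bool) (x y : ℕ) : iteN (boolN b) x y = if b = true then x else y := by
  cases b <;> simp [iteN, boolN]
lemma notN_boolN (b : Bool) : notN (boolN b) = boolN (!b) := by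
  cases b <;> simp [notN, boolN]
lemma andN_boolN (a b : Bool) : andN (boolN a) (boolN b) = boolN (a && b) := by
  cases a <;> cases b <;> simp [andN, boolN]
lemma ltN_boolN (a b : ℕ) : ltN a b = boolN (decide (a < b)) := by
  simp [ltN, boolN]
lemma leN_boolN (a b : ℕ) : leN a b = boolN (decide (a ≤ b)) := by
  simp [leN, boolN]
lemma neN_boolN (a b : ℕ) : neN a b = boolN (decide (a ≠ b)) := by
  simp [neN, boolN]
lemma eqN_boolN (a b : ℕ) : eqN a b = boolN (decide (a = b)) := by
  simp [eqN, boolN]
lemma neN_ne (a b : ℕ) : neN a b ≠ 0 ↔ a ≠ b := by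
  by_cases h : a = b <;> simp [neN, h]
lemma boolN_ne (b : Bool) : boolN b ≠ 0 ↔ b = true := by
  cases b <;> simp [boolN]
lemma ltN_ne (a b : ℕ) : ltN a b ≠ 0 ↔ a < b := by
  by_cases h : a < b <;> simp [ltN, h]
lemma leN_ne (a b : ℕ) : leN a b ≠ 0 ↔ a ≤ b := by
  by_cases h : a ≤ b <;> simp [leN, h]
lemma eqN_ne (a b : ℕ) : eqN a b ≠ 0 ↔ a = b := by
  by_cases h : a = b <;> simp [eqN, h]
lemma notN_ne (a : ℕ) : notN a ≠ 0 ↔ a = 0 := by
  by_cases h : a = 0 <;> simp [notN, h]
lemma andN_ne (a b : ℕ) : andN a b ≠ 0 ↔ a ≠ 0 ∧ b ≠ 0 := by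
  by_cases h1 : a = 0 <;> by_cases h2 : b = 0 <;> simp [andN, h1, h2]
lemma orN_ne (a b : ℕ) : orN a b ≠ 0 ↔ a ≠ 0 ∨ b ≠ 0 := by
  by_cases h1 : a = 0 <;> by_cases h2 : b = 0 <;> simp [orN, h1, h2]
lemma bitN_ne (a : ℕ) : bitN w a ≠ 0 ↔ inBit w a = true := by
  by_cases h : inBit w a = true <;> simp [bitN, h]

namespace Tm

/-- Truth value: the argument is zero. -/
def notT (a : Tm) : Tm := .ite a (.lit 0) (.lit 1)
/-- Truth value: `a ≤ b`. -/
def leT (a b : Tm) : Tm := notT (.sub a b)
/-- Truth value: `a < b`. -/
def ltT (a b : Tm) : Tm := leT (.add a (.lit 1)) b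
/-- Truth value: `a = b`. -/
def eqT (a b : Tm) : Tm := .ite (leT a b) (leT b a) (.lit 0)
/-- Truth value: `a ≠ b`. -/
def neT (a b : Tm) : Tm := .ite (eqT a b) (.lit 0) (.lit 1)
/-- Truth value: both arguments are not zero. -/
def andT (a b : Tm) : Tm := .ite a (.ite b (.lit 1) (.lit 0)) (.lit 0)
/-- Truth value: one of the arguments is not zero. -/
def orT (a b : Tm) : Tm := .ite a (.lit 1) (.ite b (.lit 1) (.lit 0))

@[simp] lemma eval_notT (a : Tm) : eval π w (notT a) env = notN (eval π w a env) := by
  simp [notT, iteN, notN]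

@[simp] lemma eval_leT (a b : Tm) :
    eval π w (leT a b) env = leN (eval π w a env) (eval π w b env) := by
  simp [leT, notN, leN, Nat.sub_eq_zero_iff_le]

@[simp] lemma eval_ltT (a b : Tm) :
    eval π w (ltT a b) env = ltN (eval π w a env) (eval π w b env) := by
  simp [ltT, leN, ltN, Nat.succ_le_iff]

@[simp] lemma eval_eqT (a b : Tm) :
    eval π w (eqT a b) env = eqN (eval π w a env) (eval π w b env) := by
  simp only [eqT, eval_ite, eval_leT, eval_lit, iteN_leN, iteN, leN, eqN]
  by_cases h1 : eval π w a env ≤ eval π w b env <;> by_cases h2 : eval π w b env ≤ eval π w a env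
  · simp [h1, h2, le_antisymm h1 h2]
  · simp [h1, h2, show eval π w a env ≠ eval π w b env by omega]
  · simp [h1, h2, show eval π w a env ≠ eval π w b env by omega]
  · omega

@[simp] lemma eval_neT (a b : Tm) :
    eval π w (neT a b) env = neN (eval π w a env) (eval π w b env) := by
  simp only [neT, eval_ite, eval_eqT, eval_lit, iteN_eqN, neN]
  by_cases h : eval π w a env = eval π w b env <;> simp [h]

@[simp] lemma eval_andT (a b : Tm) :
    eval π w (andT a b) env = andN (eval π w a env) (eval π w b env) := by
  simp only [andT, eval_ite, eval_lit, iteN, andN]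
  by_cases h1 : eval π w a env = 0 <;> by_cases h2 : eval π w b env = 0 <;> simp [h1, h2]

@[simp] lemma eval_orT (a b : Tm) :
    eval π w (orT a b) env = orN (eval π w a env) (eval π w b env) := by
  simp only [orT, eval_ite, eval_lit, iteN, orN]
  by_cases h1 : eval π w a env = 0 <;> by_cases h2 : eval π w b env = 0 <;> simp [h1, h2]

/-- The body of division: the environment holds `a, b`. -/
def divB : Tm :=
  .ite (.var 1)
    (.iter (.var 0) (.var 0) (.lit 0)
      (.ite (leT (.mul (.add (.var 0) (.lit 1)) (.var 3)) (.var 2)) (.add (.var 0) (.lit 1)) (.var 1)))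
    (.lit 0)

/-- Division. -/
def divT (a b : Tm) : Tm := .app divB a b (.lit 0) (.lit 0)

lemma recVal_div (a b : ℕ) (hb : b ≠ 0) : ∀ i,
    recVal (fun i acc => if (i + 1) * b ≤ a then i + 1 else acc) a 0 i = min i (a / b) := by
  intro i
  induction i with
  | zero => simp [recVal]
  | succ i ih =>
    have hb' : 0 < b := Nat.pos_of_ne_zero hb
    have hlea : a / b ≤ a := Nat.div_le_self a b
    simp only [recVal, ih]
    by_cases h : (i + 1) * b ≤ a
    · have h1 : i + 1 ≤ a / b := (Nat.le_div_iff_mul_le hb').mpr h
      simp only [h, if_true]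
      omega
    · have h1 : ¬ i + 1 ≤ a / b := fun h2 => h ((Nat.le_div_iff_mul_le hb').mp h2)
      simp only [h, if_false]
      omega

@[simp] lemma eval_divT (a b : Tm) :
    eval π w (divT a b) env = eval π w a env / eval π w b env := by
  simp only [divT, eval_app, divB, eval_ite, eval_var, eval_iter, eval_lit, eval_leT, eval_mul,
    eval_add, iteN_leN, List.getD_cons_zero, List.getD_cons_succ]
  simp only [iteN]
  set A := eval π w a env
  set B := eval π w b env
  by_cases hB : B = 0
  · simp [hB]
  · rw [if_neg hB]
    have h := recVal_div A B hB A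
    rw [h]
    have := Nat.div_le_self A B
    omega

/-- The body of the remainder. -/
def modB : Tm := .sub (.var 0) (.mul (divT (.var 0) (.var 1)) (.var 1))

/-- The remainder. -/
def modT (a b : Tm) : Tm := .app modB a b (.lit 0) (.lit 0)

@[simp] lemma eval_modT (a b : Tm) :
    eval π w (modT a b) env = eval π w a env % eval π w b env := by
  simp only [modT, eval_app, modB, eval_sub, eval_mul, eval_divT, eval_var, List.getD_cons_zero,
    List.getD_cons_succ]
  rw [Nat.mod_def, Nat.mul_comm]

/-- The minimum. -/
def minT (a b : Tm) : Tm := .sub a (.sub a b)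

@[simp] lemma eval_minT (a b : Tm) :
    eval π w (minT a b) env = min (eval π w a env) (eval π w b env) := by
  simp only [minT, eval_sub]
  omega

/-- The body of the capped power: the environment holds the cap, the base and the exponent. -/
def powB : Tm :=
  .iter (.var 2) (.var 0) (.lit 1) (.mul (.var 1) (.var 3))

/-- The capped power: the minimum of `b ^ e` and the cap `c`, if `c` is not zero and `b` is not
zero. -/
def powT (c b e : Tm) : Tm := .app powB c b e (.lit 0)

lemma recVal_pow (c b : ℕ) : ∀ e,
    recVal (fun _ acc => acc * b) c 1 e = min (b ^ e) c := by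
  intro e
  induction e with
  | zero => simp [recVal]
  | succ e ih =>
    simp only [recVal, ih]
    rw [pow_succ]
    by_cases h : b ^ e ≤ c
    · rw [min_eq_left h]
    · have h1 : c < b ^ e := by omega
      rw [min_eq_right h1.le]
      rcases Nat.eq_zero_or_pos b with hb | hb
      · simp [hb]
      · have h2 : c ≤ c * b := Nat.le_mul_of_pos_right _ hb
        have h3 : c ≤ b ^ e * b := (h1.le.trans (Nat.le_mul_of_pos_right _ hb))
        rw [min_eq_right h2, min_eq_right h3]

@[simp] lemma eval_powT (c b e : Tm) :
    eval π w (powT c b e) env = min (eval π w b env ^ eval π w e env) (eval π w c env) := by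
  simp only [powT, eval_app, powB, eval_iter, eval_var, eval_lit, eval_mul, List.getD_cons_zero,
    List.getD_cons_succ]
  exact recVal_pow _ _ _

/-- The digit with a given index of a number in a given base, with a bound `c` on the powers of
the base that occur: the environment holds the cap, the base, the number and the index. -/
def digitB : Tm := modT (divT (.var 2) (powT (.var 0) (.var 1) (.var 3))) (.var 1)

/-- The digit `a / b ^ i % b`, if `1 ≤ b` and the cap is larger than `a`. -/
def digitT (c b a i : Tm) : Tm := .app digitB c b a i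

lemma div_min_cap {a p c : ℕ} (hc : a < c) : a / min p c = a / p := by
  by_cases h : p ≤ c
  · rw [min_eq_left h]
  · rw [min_eq_right (by omega), Nat.div_eq_of_lt hc, Nat.div_eq_of_lt (by omega)]

lemma eval_digitT (c b a i : Tm) (hc : eval π w a env < eval π w c env) :
    eval π w (digitT c b a i) env =
      eval π w a env / eval π w b env ^ eval π w i env % eval π w b env := by
  simp only [digitT, eval_app, digitB, eval_modT, eval_divT, eval_var, List.getD_cons_zero,
    List.getD_cons_succ]
  simp only [eval_powT, eval_var, List.getD_cons_zero, List.getD_cons_succ]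
  rw [div_min_cap hc]

end Tm

end Vale.Agent.Lib.P310.Mach
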