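import Vale.Agent.Lib.P310.Mach.Sim

/-!
# Turing machines with several tapes, on one tape

A machine with finitely many tapes, each infinite to the right; the head of a tape moves left,
moves right or stays, a left move at cell `0` stays at cell `0`. The input is on one of the tapes.
Such a machine is simulated on one tape with quadratic overhead: a cell of the one tape holds the
cells of all tapes, each with a mark for the head, and a mark for cell `0`.
-/

namespace Vale.Agent.Lib.P310.Mach

/-- The move of a head. -/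
inductive Dir : Type
  | left
  | right
  | stay

/-- The new position of a head. -/
def Dir.apply : Dir → ℕ → ℕ
  | .left, h => h - 1
  | .right, h => h + 1
  | .stay, h => h

instance : Finite Dir := by
  refine Finite.of_injective (fun d : Dir => match d with
    | .left => (0 : Fin 3)
    | .right => 1
    | .stay => 2) ?_
  intro a b hab
  cases a <;> cases b <;> simp_all

/-- A deterministic Turing machine with tapes numbered by `τ`. The transition function sees the
symbols under all heads; it gives the new state, the symbols written and the moves of the heads. -/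
structure MTM (τ Q Γ : Type) where
  blank : Γ
  bit : Bool → Γ
  start : Q
  acc : Q
  rej : Q
  acc_ne_rej : acc ≠ rej
  inp : τ
  δ : Q → (τ → Γ) → Q × (τ → Γ) × (τ → Dir)

/-- A configuration of a machine with several tapes. -/
structure MCfg (τ Q Γ : Type) where
  q : Q
  tape : τ → ℕ → Γ
  head : τ → ℕ

namespace MTM

variable {τ Q Γ : Type} (M : MTM τ Q Γ)

open Classical in
/-- One step of the machine; a configuration in state `acc` or `rej` does not change any more. -/
noncomputable def step (c : MCfg τ Q Γ) : MCfg τ Q Γ :=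
  if c.q = M.acc ∨ c.q = M.rej then c
  else
    ⟨(M.δ c.q fun i => c.tape i (c.head i)).1,
      fun i => Function.update (c.tape i) (c.head i)
        ((M.δ c.q fun i => c.tape i (c.head i)).2.1 i),
      fun i => ((M.δ c.q fun i => c.tape i (c.head i)).2.2 i).apply (c.head i)⟩

open Classical in
/-- The initial configuration on an input word: the word is on the input tape, everything else is
blank and all heads are on cell `0`. -/
noncomputable def init (w : List Bool) : MCfg τ Q Γ :=
  ⟨M.start, fun i j => if i = M.inp then (w[j]?).elim M.blank M.bit else M.blank, fun _ => 0⟩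

/-- The configuration after `t` steps on input `w`. -/
noncomputable def run (w : List Bool) (t : ℕ) : MCfg τ Q Γ := (M.step)^[t] (M.init w)

/-- The machine has stopped on input `w` after at most `t` steps. -/
def HaltsWithin (w : List Bool) (t : ℕ) : Prop :=
  (M.run w t).q = M.acc ∨ (M.run w t).q = M.rej

end MTM

/-- The machine decides `k`-WL equivalence of pairs of graphs with the same number of vertices. -/
def MDecidesWL {τ Q Γ : Type} (k : ℕ) (M : MTM τ Q Γ) : Prop :=
  ∀ (n : ℕ) (G H : SimpleGraph (Fin n)),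
    (WLEquiv k G H → ∃ t, (M.run (encPair G H) t).q = M.acc) ∧
      (¬ WLEquiv k G H → ∃ t, (M.run (encPair G H) t).q = M.rej)

/-- The running time of the machine is at most `C * n ^ e` on all pairs of graphs with `n ≥ n₀`
vertices. -/
def MTimeBigO {τ Q Γ : Type} (M : MTM τ Q Γ) (e : ℕ) : Prop :=
  ∃ C n₀ : ℕ, ∀ n, n₀ ≤ n → ∀ G H : SimpleGraph (Fin n),
    M.HaltsWithin (encPair G H) (C * n ^ e)

namespace MSim

/-- A cell of the one tape: the cells of all tapes with a mark for the head, and a mark for cell `0`. -/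
abbrev MSym (τ Γ : Type) : Type := (τ → Γ × Bool) × Bool

/-- The phases of the simulation with the head on cell `0` at their start. The lists are the tapes
still to be handled. -/
inductive Ph₀ (τ Q Γ : Type) : Type
  | home (q : Q)
  | scan (q : Q) (l : List τ) (rd : τ → Γ)
  | wscan (q : Q) (l : List τ) (wr : τ → Γ) (mv : τ → Dir)
  | setM (i : τ) (q : Q) (l : List τ) (wr : τ → Γ) (mv : τ → Dir)

/-- The states of the simulation: mark the start, run a phase, or walk home and then run a phase. -/
inductive Ph (τ Q Γ : Type) : Type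
  | init
  | run (s : Ph₀ τ Q Γ)
  | back (s : Ph₀ τ Q Γ)

variable {τ Q Γ : Type} [DecidableEq τ]

/-- The transitions of the simulation; `L` lists the tapes. -/
def rawδ (M : MTM τ Q Γ) (L : List τ) (p : Ph τ Q Γ) (x : MSym τ Γ) :
    Ph τ Q Γ × MSym τ Γ × Bool :=
  match p with
  | .init => (.run (.home M.start), (fun i => ((x.1 i).1, true), true), false)
  | .back s => if x.2 then (.run s, x, false) else (.back s, x, false)
  | .run (.home q) => (.run (.scan q L fun _ => M.blank), x, false)
  | .run (.scan q [] rd) =>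
    (.run (.wscan (M.δ q rd).1 L (M.δ q rd).2.1 (M.δ q rd).2.2), x, false)
  | .run (.scan q (i :: l) rd) =>
    if (x.1 i).2 then (.back (.scan q l (Function.update rd i (x.1 i).1)), x, false)
    else (.run (.scan q (i :: l) rd), x, true)
  | .run (.wscan q [] _ _) => (.run (.home q), x, false)
  | .run (.wscan q (i :: l) wr mv) =>
    if (x.1 i).2 then
      match mv i with
      | .stay => (.back (.wscan q l wr mv), (Function.update x.1 i (wr i, true), x.2), false)
      | .left => (.run (.setM i q l wr mv), (Function.update x.1 i (wr i, false), x.2), false)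
      | .right => (.run (.setM i q l wr mv), (Function.update x.1 i (wr i, false), x.2), true)
    else (.run (.wscan q (i :: l) wr mv), x, true)
  | .run (.setM i q l wr mv) =>
    (.back (.wscan q l wr mv), (Function.update x.1 i ((x.1 i).1, true), x.2), false)

/-- The one-tape machine with infinitely many states. -/
def raw (M : MTM τ Q Γ) (L : List τ) : TM (Ph τ Q Γ) (MSym τ Γ) where
  blank := (fun _ => (M.blank, false), false)
  bit b := (fun i => (if i = M.inp then M.bit b else M.blank, false), false)
  start := .init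
  acc := .run (.home M.acc)
  rej := .run (.home M.rej)
  acc_ne_rej := fun h => M.acc_ne_rej (by
    have := Ph.run.inj h
    exact Ph₀.home.inj this)
  δ := rawδ M L

/-- The one-tape cell of a configuration. -/
def cell (c : MCfg τ Q Γ) (j : ℕ) : MSym τ Γ :=
  (fun i => (c.tape i j, decide (c.head i = j)), decide (j = 0))

variable (M : MTM τ Q Γ) (L : List τ)

lemma run_ne_acc {s : Ph₀ τ Q Γ} (hs : ∀ q, s = .home q → q ≠ M.acc) :
    (Ph.run s : Ph τ Q Γ) ≠ (raw M L).acc := by
  intro h
  exact hs _ (Ph.run.inj h) rfl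

lemma run_ne_rej {s : Ph₀ τ Q Γ} (hs : ∀ q, s = .home q → q ≠ M.rej) :
    (Ph.run s : Ph τ Q Γ) ≠ (raw M L).rej := by
  intro h
  exact hs _ (Ph.run.inj h) rfl

lemma back_ne_acc (s : Ph₀ τ Q Γ) : (Ph.back s : Ph τ Q Γ) ≠ (raw M L).acc := by
  intro h
  cases h

lemma back_ne_rej (s : Ph₀ τ Q Γ) : (Ph.back s : Ph τ Q Γ) ≠ (raw M L).rej := by
  intro h
  cases h

/-- The way home. -/
lemma back_run (c : MCfg τ Q Γ) (s : Ph₀ τ Q Γ) (h : ℕ) :
    (raw M L).Reach ⟨.back s, cell c, h⟩ ⟨.run s, cell c, 0⟩ (h + 1) := by
  refine (TM.walk_left (M := raw M L) _ h (back_ne_acc M L s) (back_ne_rej M L s) ?_).trans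
    (TM.Reach.one ?_)
  · intro i hi _
    change rawδ M L (.back s) (cell c i) = _
    have : (cell c i).2 = false := decide_eq_false (by omega)
    simp only [rawδ, this, if_false, Bool.false_eq_true]
  · rw [TM.step_of _ _ _ (back_ne_acc M L s) (back_ne_rej M L s)]
    have h1 : (raw M L).δ (.back s) (cell c 0) = (.run s, cell c 0, false) := by
      change rawδ M L (.back s) (cell c 0) = _
      have : (cell c 0).2 = true := by simp [cell]
      simp only [rawδ, this, if_true]
    simp only [h1, Function.update_eq_self, Bool.false_eq_true, if_false]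

/-- Walking to the mark of a tape. -/
lemma scan_walk (c : MCfg τ Q Γ) (s : Ph₀ τ Q Γ) (i : τ)
    (hs1 : ∀ q, s = .home q → q ≠ M.acc) (hs2 : ∀ q, s = .home q → q ≠ M.rej)
    (H : ∀ x : MSym τ Γ, (x.1 i).2 = false → rawδ M L (.run s) x = (.run s, x, true)) :
    (raw M L).Reach ⟨.run s, cell c, 0⟩ ⟨.run s, cell c, c.head i⟩ (c.head i) := by
  have := TM.walk_right (M := raw M L) (cell c) 0 (c.head i) (run_ne_acc M L hs1)
    (run_ne_rej M L hs2) (q := .run s) ?_
  · simpa using this
  · intro j _ hj
    exact H _ (decide_eq_false (by omega))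

/-- Reading one tape. -/
lemma scan_one (c : MCfg τ Q Γ) (q : Q) (i : τ) (l : List τ) (rd : τ → Γ) :
    (raw M L).Reach ⟨.run (.scan q (i :: l) rd), cell c, 0⟩
      ⟨.run (.scan q l (Function.update rd i (c.tape i (c.head i)))), cell c, 0⟩
      (2 * c.head i + 2) := by
  have h0 : ∀ q', (Ph₀.scan q (i :: l) rd : Ph₀ τ Q Γ) = .home q' → q' ≠ M.acc := by
    intro q' h
    cases h
  have h0' : ∀ q', (Ph₀.scan q (i :: l) rd : Ph₀ τ Q Γ) = .home q' → q' ≠ M.rej := by
    intro q' h
    cases h
  have h1 := scan_walk M L c (.scan q (i :: l) rd) i h0 h0' (by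
    intro x hx
    simp only [rawδ, hx, if_false, Bool.false_eq_true])
  have h2 : (raw M L).step ⟨.run (.scan q (i :: l) rd), cell c, c.head i⟩ =
      ⟨.back (.scan q l (Function.update rd i (c.tape i (c.head i)))), cell c, c.head i - 1⟩ := by
    rw [TM.step_of _ _ _ (run_ne_acc M L h0) (run_ne_rej M L h0')]
    have h3 : (raw M L).δ (.run (.scan q (i :: l) rd)) (cell c (c.head i)) =
        (.back (.scan q l (Function.update rd i (c.tape i (c.head i)))), cell c (c.head i), false) := by
      have h4 : ((cell c (c.head i)).1 i).2 = true := by simp [cell]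
      simp only [raw, rawδ, h4, if_true]
      rfl
    simp only [h3, Function.update_eq_self, Bool.false_eq_true, if_false]
  refine (h1.trans ((TM.Reach.one h2).trans (back_run M L c _ _))).mono ?_
  omega

/-- Reading all tapes. -/
lemma scan_all (c : MCfg τ Q Γ) (q : Q) (H : ℕ) (hH : ∀ i, c.head i ≤ H) (l : List τ) (rd : τ → Γ)
    (hrd : ∀ j, j ∉ l → rd j = c.tape j (c.head j)) :
    (raw M L).Reach ⟨.run (.scan q l rd), cell c, 0⟩
      ⟨.run (.scan q [] fun j => c.tape j (c.head j)), cell c, 0⟩ (l.length * (2 * H + 2)) := by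
  induction l generalizing rd with
  | nil =>
    have : rd = fun j => c.tape j (c.head j) := by
      funext j
      exact hrd j (by simp)
    rw [this]
    exact TM.Reach.refl _ _
  | cons i l ih =>
    refine ((scan_one M L c q i l rd).trans (ih _ ?_)).mono ?_
    · intro j hj
      by_cases hji : j = i
      · subst hji
        simp
      · rw [Function.update_of_ne hji]
        exact hrd j (by simp [hji, hj])
    · have := hH i
      simp only [List.length_cons]
      nlinarith

/-- The configuration after a tape has been handled. -/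
def upd (c : MCfg τ Q Γ) (i : τ) (s : Γ) (d : Dir) : MCfg τ Q Γ :=
  ⟨c.q, Function.update c.tape i (Function.update (c.tape i) (c.head i) s),
    Function.update c.head i (d.apply (c.head i))⟩

/-- The tape after a write with a move of the mark: first the old cell, then the new cell. -/
lemma cell_upd_move (c : MCfg τ Q Γ) (i : τ) (s : Γ) (d : Dir) (h' : ℕ)
    (hd : d.apply (c.head i) = h') (τ₁ : ℕ → MSym τ Γ)
    (h1 : τ₁ = Function.update (cell c) (c.head i)
      (Function.update (cell c (c.head i)).1 i (s, false), (cell c (c.head i)).2)) :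
    Function.update τ₁ h' (Function.update (τ₁ h').1 i ((τ₁ h').1 i |>.1, true), (τ₁ h').2) =
      cell (upd c i s d) := by
  subst h1
  funext j
  refine Prod.ext (funext fun a => ?_) ?_
  · by_cases hj : j = h' <;> by_cases hj2 : j = c.head i <;> by_cases ha : a = i
    · subst hj
      subst hj2
      subst ha
      simp [cell, upd, hd]
    · subst hj
      subst hj2
      simp [cell, upd, ha]
    · subst hj
      subst ha
      simp [cell, upd, hd, hj2]
    · subst hj
      simp [cell, upd, hj2, ha]
    · subst hj2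
      subst ha
      simp [cell, upd, hd, hj, Ne.symm hj]
    · subst hj2
      simp [cell, upd, hj, ha]
    · subst ha
      simp [cell, upd, hd, hj, hj2, Ne.symm hj, Ne.symm hj2]
    · simp [cell, upd, hj, hj2, ha]
  · by_cases hj : j = h' <;> by_cases hj2 : j = c.head i
    · subst hj
      subst hj2
      simp [cell, upd]
    · subst hj
      simp [cell, upd, hj2]
    · subst hj2
      simp [cell, upd, hj]
    · simp [cell, upd, hj, hj2]

/-- The tape after a write without a move of the mark. -/
lemma cell_upd_stay (c : MCfg τ Q Γ) (i : τ) (s : Γ) :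
    Function.update (cell c) (c.head i)
      (Function.update (cell c (c.head i)).1 i (s, true), (cell c (c.head i)).2) =
      cell (upd c i s .stay) := by
  funext j
  refine Prod.ext (funext fun a => ?_) ?_
  · by_cases hj2 : j = c.head i <;> by_cases ha : a = i
    · subst hj2
      subst ha
      simp [cell, upd, Dir.apply]
    · subst hj2
      simp [cell, upd, ha]
    · subst ha
      simp [cell, upd, Dir.apply, hj2, Ne.symm hj2]
    · simp [cell, upd, hj2, ha]
  · by_cases hj2 : j = c.head i
    · subst hj2
      simp [cell, upd]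
    · simp [cell, upd, hj2]

/-- Writing on one tape. -/
lemma wscan_one (c : MCfg τ Q Γ) (q : Q) (i : τ) (l : List τ) (wr : τ → Γ) (mv : τ → Dir) :
    (raw M L).Reach ⟨.run (.wscan q (i :: l) wr mv), cell c, 0⟩
      ⟨.run (.wscan q l wr mv), cell (upd c i (wr i) (mv i)), 0⟩
      (2 * c.head i + 4) := by
  have h0 : ∀ q', (Ph₀.wscan q (i :: l) wr mv : Ph₀ τ Q Γ) = .home q' → q' ≠ M.acc := by
    intro q' h
    cases h
  have h0' : ∀ q', (Ph₀.wscan q (i :: l) wr mv : Ph₀ τ Q Γ) = .home q' → q' ≠ M.rej := by
    intro q' h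
    cases h
  have h1 := scan_walk M L c (.wscan q (i :: l) wr mv) i h0 h0' (by
    intro x hx
    simp only [rawδ, hx, if_false, Bool.false_eq_true])
  have h4 : ((cell c (c.head i)).1 i).2 = true := by simp [cell]
  have hmove : ∀ d : Dir, (d = .left ∨ d = .right) → mv i = d → (raw M L).Reach
      ⟨.run (.wscan q (i :: l) wr mv), cell c, c.head i⟩
      ⟨.run (.wscan q l wr mv), cell (upd c i (wr i) (mv i)), 0⟩
      (c.head i + 4) := by
    intro d hd hmv
    set τ₁ : ℕ → MSym τ Γ := Function.update (cell c) (c.head i)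
      (Function.update (cell c (c.head i)).1 i (wr i, false), (cell c (c.head i)).2) with hτ₁
    have hs : ∀ q', (Ph₀.setM i q l wr mv : Ph₀ τ Q Γ) = .home q' → q' ≠ M.acc := by
      intro q' h
      cases h
    have hs' : ∀ q', (Ph₀.setM i q l wr mv : Ph₀ τ Q Γ) = .home q' → q' ≠ M.rej := by
      intro q' h
      cases h
    have h2 : (raw M L).step ⟨.run (.wscan q (i :: l) wr mv), cell c, c.head i⟩ =
        ⟨.run (.setM i q l wr mv), τ₁, d.apply (c.head i)⟩ := by
      rw [TM.step_of _ _ _ (run_ne_acc M L h0) (run_ne_rej M L h0')]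
      rcases hd with rfl | rfl
      · have h3 : (raw M L).δ (.run (.wscan q (i :: l) wr mv)) (cell c (c.head i)) =
            (.run (.setM i q l wr mv),
              (Function.update (cell c (c.head i)).1 i (wr i, false), (cell c (c.head i)).2), false) := by
          simp only [raw, rawδ, h4, if_true, hmv]
        simp only [h3, Bool.false_eq_true, if_false, Dir.apply, hτ₁]
      · have h3 : (raw M L).δ (.run (.wscan q (i :: l) wr mv)) (cell c (c.head i)) =
            (.run (.setM i q l wr mv),
              (Function.update (cell c (c.head i)).1 i (wr i, false), (cell c (c.head i)).2), true) := by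
          simp only [raw, rawδ, h4, if_true, hmv]
        simp only [h3, if_true, Dir.apply, hτ₁]
    have h5 : (raw M L).step ⟨.run (.setM i q l wr mv), τ₁, d.apply (c.head i)⟩ =
        ⟨.back (.wscan q l wr mv), cell (upd c i (wr i) d), d.apply (c.head i) - 1⟩ := by
      rw [TM.step_of _ _ _ (run_ne_acc M L hs) (run_ne_rej M L hs'),
        ← cell_upd_move c i (wr i) d _ rfl τ₁ hτ₁]
      rfl
    rw [hmv]
    refine ((TM.Reach.one h2).trans ((TM.Reach.one h5).trans (back_run M L _ _ _))).mono ?_
    rcases hd with rfl | rfl <;> simp only [Dir.apply] <;> omega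
  have hstay : mv i = .stay → (raw M L).Reach
      ⟨.run (.wscan q (i :: l) wr mv), cell c, c.head i⟩
      ⟨.run (.wscan q l wr mv), cell (upd c i (wr i) (mv i)), 0⟩
      (c.head i + 4) := by
    intro hmv
    have h2 : (raw M L).step ⟨.run (.wscan q (i :: l) wr mv), cell c, c.head i⟩ =
        ⟨.back (.wscan q l wr mv), cell (upd c i (wr i) .stay), c.head i - 1⟩ := by
      rw [TM.step_of _ _ _ (run_ne_acc M L h0) (run_ne_rej M L h0')]
      have h3 : (raw M L).δ (.run (.wscan q (i :: l) wr mv)) (cell c (c.head i)) =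
          (.back (.wscan q l wr mv),
            (Function.update (cell c (c.head i)).1 i (wr i, true), (cell c (c.head i)).2), false) := by
        simp only [raw, rawδ, h4, if_true, hmv]
      simp only [h3, Bool.false_eq_true, if_false, cell_upd_stay]
    rw [hmv]
    refine ((TM.Reach.one h2).trans (back_run M L _ _ _)).mono ?_
    omega
  have h6 : (raw M L).Reach ⟨.run (.wscan q (i :: l) wr mv), cell c, c.head i⟩
      ⟨.run (.wscan q l wr mv), cell (upd c i (wr i) (mv i)), 0⟩ (c.head i + 4) := by
    cases hmv : mv i with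
    | left => 
      have := hmove .left (Or.inl rfl) hmv
      rwa [hmv] at this
    | right => 
      have := hmove .right (Or.inr rfl) hmv
      rwa [hmv] at this
    | stay => 
      have := hstay hmv
      rwa [hmv] at this
  refine (h1.trans h6).mono ?_
  omega

/-- The configuration after the tapes of a list have been handled. -/
def applyL (wr : τ → Γ) (mv : τ → Dir) : MCfg τ Q Γ → List τ → MCfg τ Q Γ
  | c, [] => c
  | c, i :: l => applyL wr mv (upd c i (wr i) (mv i)) l

/-- Writing on all tapes of a list. -/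
lemma wscan_all (q : Q) (wr : τ → Γ) (mv : τ → Dir) (l : List τ) (c : MCfg τ Q Γ) (H : ℕ)
    (hH : ∀ i, c.head i ≤ H) :
    (raw M L).Reach ⟨.run (.wscan q l wr mv), cell c, 0⟩
      ⟨.run (.wscan q [] wr mv), cell (applyL wr mv c l), 0⟩
      (l.length * (2 * (H + l.length) + 4)) := by
  induction l generalizing c H with
  | nil => exact TM.Reach.refl _ _
  | cons i l ih =>
    have hH' : ∀ j, (upd c i (wr i) (mv i)).head j ≤ H + 1 := by
      intro j
      by_cases hj : j = i
      · subst hj
        simp only [upd, Function.update_self]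
        have := hH j
        cases mv j <;> simp only [Dir.apply] <;> omega
      · simp only [upd, Function.update_of_ne hj]
        have := hH j
        omega
    refine ((wscan_one M L c q i l wr mv).trans (ih _ _ hH')).mono ?_
    have := hH i
    simp only [List.length_cons]
    nlinarith

lemma applyL_tape (wr : τ → Γ) (mv : τ → Dir) (l : List τ) (hl : l.Nodup) (c : MCfg τ Q Γ) (j : τ) :
    (applyL wr mv c l).tape j =
      if j ∈ l then Function.update (c.tape j) (c.head j) (wr j) else c.tape j := by
  induction l generalizing c with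
  | nil => simp [applyL]
  | cons i l ih =>
    rw [List.nodup_cons] at hl
    simp only [applyL]
    rw [ih hl.2]
    by_cases hj : j = i
    · subst hj
      simp [hl.1, upd]
    · simp [hj, upd]

lemma applyL_head (wr : τ → Γ) (mv : τ → Dir) (l : List τ) (hl : l.Nodup) (c : MCfg τ Q Γ) (j : τ) :
    (applyL wr mv c l).head j = if j ∈ l then (mv j).apply (c.head j) else c.head j := by
  induction l generalizing c with
  | nil => simp [applyL]
  | cons i l ih =>
    rw [List.nodup_cons] at hl
    simp only [applyL]
    rw [ih hl.2]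
    by_cases hj : j = i
    · subst hj
      simp [hl.1, upd]
    · simp [hj, upd]

/-- One step of the machine with several tapes. -/
lemma sim_step (hL : L.Nodup) (hall : ∀ i, i ∈ L) (c : MCfg τ Q Γ) (H : ℕ) (hH : ∀ i, c.head i ≤ H) :
    (raw M L).Reach ⟨.run (.home c.q), cell c, 0⟩ ⟨.run (.home (M.step c).q), cell (M.step c), 0⟩
      (3 + L.length * (4 * H + 2 * L.length + 6)) := by
  by_cases hh : c.q = M.acc ∨ c.q = M.rej
  · have h2 : M.step c = c := by
      unfold MTM.step
      rw [if_pos hh]
    rw [h2]
    exact TM.Reach.refl _ _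
  · have hn1 : (Ph.run (.home c.q) : Ph τ Q Γ) ≠ (raw M L).acc :=
      run_ne_acc M L (fun q h => by
        cases h
        exact fun h' => hh (Or.inl h'))
    have hn2 : (Ph.run (.home c.q) : Ph τ Q Γ) ≠ (raw M L).rej :=
      run_ne_rej M L (fun q h => by
        cases h
        exact fun h' => hh (Or.inr h'))
    set sym : τ → Γ := fun j => c.tape j (c.head j) with hsym
    have h1 : (raw M L).step ⟨.run (.home c.q), cell c, 0⟩ =
        ⟨.run (.scan c.q L fun _ => M.blank), cell c, 0⟩ := by
      rw [TM.step_of _ _ _ hn1 hn2]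
      have h3 : (raw M L).δ (.run (.home c.q)) (cell c 0) =
          (.run (.scan c.q L fun _ => M.blank), cell c 0, false) := rfl
      simp only [h3, Function.update_eq_self, Bool.false_eq_true, if_false]
    have h2 := scan_all M L c c.q H hH L (fun _ => M.blank) (fun j hj => absurd (hall j) hj)
    have h3 : (raw M L).step ⟨.run (.scan c.q [] sym), cell c, 0⟩ =
        ⟨.run (.wscan (M.δ c.q sym).1 L (M.δ c.q sym).2.1 (M.δ c.q sym).2.2), cell c, 0⟩ := by
      rw [TM.step_of _ _ _ (run_ne_acc M L (fun q h => by cases h))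
        (run_ne_rej M L (fun q h => by cases h))]
      have h3 : (raw M L).δ (.run (.scan c.q [] sym)) (cell c 0) =
          (.run (.wscan (M.δ c.q sym).1 L (M.δ c.q sym).2.1 (M.δ c.q sym).2.2), cell c 0, false) := rfl
      simp only [h3, Function.update_eq_self, Bool.false_eq_true, if_false]
    have h4 := wscan_all M L (M.δ c.q sym).1 (M.δ c.q sym).2.1 (M.δ c.q sym).2.2 L c H hH
    have h5 : (M.step c) = ⟨(M.δ c.q sym).1,
        fun i => Function.update (c.tape i) (c.head i) ((M.δ c.q sym).2.1 i),
        fun i => ((M.δ c.q sym).2.2 i).apply (c.head i)⟩ := by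
      unfold MTM.step
      rw [if_neg hh]
    have h6 : cell (applyL (M.δ c.q sym).2.1 (M.δ c.q sym).2.2 c L) = cell (M.step c) := by
      rw [h5]
      funext j
      refine Prod.ext (funext fun a => ?_) rfl
      simp only [cell, applyL_tape _ _ L hL, applyL_head _ _ L hL, hall a, if_true]
    have h7 : (raw M L).step ⟨.run (.wscan (M.δ c.q sym).1 [] (M.δ c.q sym).2.1 (M.δ c.q sym).2.2),
        cell (M.step c), 0⟩ = ⟨.run (.home (M.step c).q), cell (M.step c), 0⟩ := by
      rw [TM.step_of _ _ _ (run_ne_acc M L (fun q h => by cases h))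
        (run_ne_rej M L (fun q h => by cases h))]
      have h3 : (raw M L).δ (.run (.wscan (M.δ c.q sym).1 [] (M.δ c.q sym).2.1 (M.δ c.q sym).2.2))
          (cell (M.step c) 0) = (.run (.home (M.δ c.q sym).1), cell (M.step c) 0, false) := rfl
      simp only [h3, Function.update_eq_self, Bool.false_eq_true, if_false]
      rw [h5]
    rw [h6] at h4
    refine ((TM.Reach.one h1).trans (h2.trans ((TM.Reach.one h3).trans (h4.trans
      (TM.Reach.one h7))))).mono ?_
    nlinarith

omit [DecidableEq τ] in
/-- The heads move by at most one cell per step. -/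
lemma head_step (c : MCfg τ Q Γ) (i : τ) : (M.step c).head i ≤ c.head i + 1 := by
  unfold MTM.step
  split_ifs
  · omega
  · simp only
    cases (M.δ c.q fun i => c.tape i (c.head i)).2.2 i <;> simp only [Dir.apply] <;> omega

omit [DecidableEq τ] in
lemma head_run (w : List Bool) (t : ℕ) (i : τ) : (M.run w t).head i ≤ t := by
  induction t with
  | zero => exact Nat.zero_le _
  | succ t ih =>
    have : M.run w (t + 1) = M.step (M.run w t) := Function.iterate_succ_apply' _ _ _
    rw [this]
    exact (head_step M _ i).trans (by omega)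

/-- The start: cell `0` gets its marks. -/
lemma init_step (w : List Bool) :
    (raw M L).step ((raw M L).init w) = ⟨.run (.home M.start), cell (M.init w), 0⟩ := by
  have hn1 : (Ph.init : Ph τ Q Γ) ≠ (raw M L).acc := by
    intro h
    cases h
  have hn2 : (Ph.init : Ph τ Q Γ) ≠ (raw M L).rej := by
    intro h
    cases h
  have h0 : (raw M L).init w = ⟨.init, fun i => (w[i]?).elim (raw M L).blank (raw M L).bit, 0⟩ := rfl
  rw [h0, TM.step_of _ _ _ hn1 hn2]
  have hc : ∀ j i, (((w[j]?).elim (raw M L).blank (raw M L).bit : MSym τ Γ).1 i).1 =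
      (M.init w).tape i j := by
    intro j i
    simp only [MTM.init]
    by_cases hi : i = M.inp
    · subst hi
      cases w[j]? <;> simp [raw]
    · cases w[j]? <;> simp [raw, hi]
  have hm : ∀ j, j ≠ 0 → (w[j]?).elim (raw M L).blank (raw M L).bit = cell (M.init w) j := by
    intro j hj
    refine Prod.ext (funext fun a => Prod.ext ?_ ?_) ?_
    · rw [hc]
      rfl
    · have h0j : decide ((M.init w).head a = j) = false := decide_eq_false (fun h => hj h.symm)
      change _ = decide ((M.init w).head a = j)
      rw [h0j]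
      cases w[j]? <;> rfl
    · simp only [cell]
      rw [decide_eq_false hj]
      cases w[j]? <;> rfl
  have h3 : (raw M L).δ .init ((w[0]?).elim (raw M L).blank (raw M L).bit) =
      (.run (.home M.start), cell (M.init w) 0, false) := by
    have h4 : ∀ y : MSym τ Γ, (raw M L).δ .init y =
        (.run (.home M.start), (fun i => ((y.1 i).1, true), true), false) := fun y => rfl
    rw [h4]
    refine Prod.ext rfl (Prod.ext ?_ rfl)
    refine Prod.ext (funext fun a => Prod.ext ?_ ?_) ?_
    · exact hc 0 a
    · simp [cell, MTM.init]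
    · simp [cell]
  rw [h3]
  simp only [Bool.false_eq_true, if_false, zero_tsub, Cfg.mk.injEq, true_and, and_true]
  funext j
  by_cases hj : j = 0
  · subst hj
    simp
  · rw [Function.update_of_ne hj]
    exact hm j hj

/-- The state and the tape are right after any number of steps. -/
lemma sim_iter (hL : L.Nodup) (hall : ∀ i, i ∈ L) (w : List Bool) (t : ℕ) :
    (raw M L).Reach ((raw M L).init w) ⟨.run (.home (M.run w t).q), cell (M.run w t), 0⟩
      (1 + t * (3 + L.length * (4 * t + 2 * L.length + 6))) := by
  induction t with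
  | zero =>
    refine (TM.Reach.one (init_step M L w)).mono (by omega)
  | succ t ih =>
    have h1 : M.run w (t + 1) = M.step (M.run w t) := Function.iterate_succ_apply' _ _ _
    rw [h1]
    refine (ih.trans (sim_step M L hL hall _ t (fun i => head_run M w t i))).mono ?_
    have h2 : L.length * (4 * t + 2 * L.length + 6) ≤ L.length * (4 * (t + 1) + 2 * L.length + 6) :=
      Nat.mul_le_mul_left _ (by omega)
    have h3 : t * (3 + L.length * (4 * t + 2 * L.length + 6)) ≤
        t * (3 + L.length * (4 * (t + 1) + 2 * L.length + 6)) :=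
      Nat.mul_le_mul_left _ (by omega)
    nlinarith

/-! ### Finitely many states -/

variable (Q Γ) in
/-- The phases with a list that is a final piece of `L`. -/
def G (L : List τ) : Set (Ph₀ τ Q Γ) :=
  Set.range Ph₀.home ∪
    (fun x : Q × List τ × (τ → Γ) => Ph₀.scan x.1 x.2.1 x.2.2) ''
      (Set.univ ×ˢ {l | l <:+ L} ×ˢ Set.univ) ∪
    (fun x : Q × List τ × (τ → Γ) × (τ → Dir) => Ph₀.wscan x.1 x.2.1 x.2.2.1 x.2.2.2) ''
      (Set.univ ×ˢ {l | l <:+ L} ×ˢ Set.univ) ∪
    (fun x : τ × Q × List τ × (τ → Γ) × (τ → Dir) =>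
        Ph₀.setM x.1 x.2.1 x.2.2.1 x.2.2.2.1 x.2.2.2.2) ''
      (Set.univ ×ˢ Set.univ ×ˢ {l | l <:+ L} ×ˢ Set.univ)

variable (Q Γ) in
/-- The states used. -/
def SS (L : List τ) : Set (Ph τ Q Γ) :=
  {.init} ∪ Ph.run '' G Q Γ L ∪ Ph.back '' G Q Γ L

omit [DecidableEq τ] in
lemma tails_finite (L : List τ) : {l | l <:+ L}.Finite := by
  have : {l | l <:+ L} = {l | l ∈ L.tails} := by
    ext l
    simp
  rw [this]
  exact List.finite_toSet _

omit [DecidableEq τ] in
lemma G_finite [Finite τ] [Finite Q] [Finite Γ] (L : List τ) : (G Q Γ L).Finite := by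
  have hT := tails_finite L
  refine ((((Set.finite_range _).union ?_).union ?_).union ?_)
  · exact (Set.finite_univ.prod (hT.prod Set.finite_univ)).image _
  · exact (Set.finite_univ.prod (hT.prod Set.finite_univ)).image _
  · exact (Set.finite_univ.prod (Set.finite_univ.prod (hT.prod Set.finite_univ))).image _

omit [DecidableEq τ] in
lemma SS_finite [Finite τ] [Finite Q] [Finite Γ] (L : List τ) : (SS Q Γ L).Finite :=
  ((Set.finite_singleton _).union ((G_finite L).image _)).union ((G_finite L).image _)

omit [DecidableEq τ] in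
lemma G_home (q : Q) : (Ph₀.home q : Ph₀ τ Q Γ) ∈ G Q Γ L :=
  Or.inl (Or.inl (Or.inl ⟨q, rfl⟩))

omit [DecidableEq τ] in
lemma G_scan (q : Q) {l : List τ} (hl : l <:+ L) (rd : τ → Γ) : Ph₀.scan q l rd ∈ G Q Γ L :=
  Or.inl (Or.inl (Or.inr ⟨(q, l, rd), ⟨Set.mem_univ _, hl, Set.mem_univ _⟩, rfl⟩))

omit [DecidableEq τ] in
lemma G_wscan (q : Q) {l : List τ} (hl : l <:+ L) (wr : τ → Γ) (mv : τ → Dir) :
    Ph₀.wscan q l wr mv ∈ G Q Γ L :=
  Or.inl (Or.inr ⟨(q, l, wr, mv), ⟨Set.mem_univ _, hl, Set.mem_univ _⟩, rfl⟩)

omit [DecidableEq τ] in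
lemma G_setM (i : τ) (q : Q) {l : List τ} (hl : l <:+ L) (wr : τ → Γ) (mv : τ → Dir) :
    Ph₀.setM i q l wr mv ∈ G Q Γ L :=
  Or.inr ⟨(i, q, l, wr, mv), ⟨Set.mem_univ _, Set.mem_univ _, hl, Set.mem_univ _⟩, rfl⟩

omit [DecidableEq τ] in
lemma SS_run {s : Ph₀ τ Q Γ} (hs : s ∈ G Q Γ L) : Ph.run s ∈ SS Q Γ L :=
  Or.inl (Or.inr ⟨s, hs, rfl⟩)

omit [DecidableEq τ] in
lemma SS_back {s : Ph₀ τ Q Γ} (hs : s ∈ G Q Γ L) : Ph.back s ∈ SS Q Γ L :=
  Or.inr ⟨s, hs, rfl⟩

lemma SS_closed : ∀ p ∈ SS Q Γ L, ∀ x, ((raw M L).δ p x).1 ∈ SS Q Γ L := by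
  intro p hp x
  have hrun : ∀ s ∈ G Q Γ L, (rawδ M L (.run s) x).1 ∈ SS Q Γ L := by
    intro s hs
    rcases hs with (((⟨q, rfl⟩ | ⟨⟨q, l, rd⟩, ⟨_, hl, _⟩, rfl⟩) | ⟨⟨q, l, wr, mv⟩, ⟨_, hl, _⟩, rfl⟩) |
      ⟨⟨i, q, l, wr, mv⟩, ⟨_, _, hl, _⟩, rfl⟩)
    · exact SS_run L (G_scan L q List.suffix_rfl _)
    · cases l with
      | nil => exact SS_run L (G_wscan L _ List.suffix_rfl _ _)
      | cons i l =>
        have hl' : l <:+ L := (List.suffix_cons i l).trans hl
        simp only [rawδ]
        split_ifs
        · exact SS_back L (G_scan L q hl' _)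
        · exact SS_run L (G_scan L q hl _)
    · cases l with
      | nil => exact SS_run L (G_home L q)
      | cons i l =>
        have hl' : l <:+ L := (List.suffix_cons i l).trans hl
        simp only [rawδ]
        split_ifs
        · cases mv i with
          | left => exact SS_run L (G_setM L i q hl' _ _)
          | right => exact SS_run L (G_setM L i q hl' _ _)
          | stay => exact SS_back L (G_wscan L q hl' _ _)
        · exact SS_run L (G_wscan L q hl _ _)
    · exact SS_back L (G_wscan L q hl _ _)
  rcases hp with (hp | ⟨s, hs, rfl⟩) | ⟨s, hs, rfl⟩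
  · rw [Set.mem_singleton_iff] at hp
    subst hp
    exact SS_run L (G_home L _)
  · exact hrun s hs
  · change (rawδ M L (.back s) x).1 ∈ _
    simp only [rawδ]
    split_ifs
    · exact SS_run L hs
    · exact SS_back L hs

end MSim

open MSim in
/-- A machine with several tapes is simulated on one tape with quadratic overhead. -/
theorem exists_one_tape {τ Q Γ : Type} [Finite τ] [Finite Q] [Finite Γ] (M : MTM τ Q Γ) :
    ∃ (Q' Γ' : Type) (_ : Finite Q') (_ : Finite Γ') (B : TM Q' Γ') (c : ℕ),
      ∀ (w : List Bool) (t : ℕ), ∃ T ≤ c * (t + 1) ^ 2,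
        ((M.run w t).q = M.acc → (B.run w T).q = B.acc) ∧
        ((M.run w t).q = M.rej → (B.run w T).q = B.rej) := by
  classical
  have : Fintype τ := Fintype.ofFinite τ
  set L : List τ := (Finset.univ : Finset τ).toList with hLdef
  have hL : L.Nodup := Finset.nodup_toList _
  have hall : ∀ i, i ∈ L := fun i => by simp [hLdef]
  have hs : (raw M L).start ∈ SS Q Γ L := Or.inl (Or.inl rfl)
  have ha : (raw M L).acc ∈ SS Q Γ L := SS_run L (G_home L _)
  have hr : (raw M L).rej ∈ SS Q Γ L := SS_run L (G_home L _)
  have hfin : Finite ↥(SS Q Γ L) := (SS_finite L).to_subtype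
  refine ⟨_, _, hfin, inferInstance, (raw M L).restrict (SS Q Γ L) hs ha hr (SS_closed M L),
    1 + 3 + L.length * (4 + 2 * L.length + 6), ?_⟩
  intro w t
  obtain ⟨T, hT, h⟩ := sim_iter M L hL hall w t
  have hq : (((raw M L).restrict (SS Q Γ L) hs ha hr (SS_closed M L)).run w T).q.1 =
      .run (.home (M.run w t).q) := by
    have h1 := TM.run_restrict (M := raw M L) (hs := hs) (ha := ha) (hr := hr)
      (hc := SS_closed M L) w T
    have h2 : (raw M L).run w T = ⟨.run (.home (M.run w t).q), cell (M.run w t), 0⟩ := h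
    rw [h2] at h1
    exact congrArg Cfg.q h1
  refine ⟨T, ?_, ?_, ?_⟩
  · refine hT.trans ?_
    have h2 : L.length * (4 * t + 2 * L.length + 6) ≤ (t + 1) * (L.length * (4 + 2 * L.length + 6)) := by
      have : 4 * t + 2 * L.length + 6 ≤ (t + 1) * (4 + 2 * L.length + 6) := by nlinarith
      calc L.length * (4 * t + 2 * L.length + 6) ≤ L.length * ((t + 1) * (4 + 2 * L.length + 6)) :=
            Nat.mul_le_mul_left _ this
        _ = _ := by ring
    have h3 : t * (L.length * (4 * t + 2 * L.length + 6)) ≤
        t * ((t + 1) * (L.length * (4 + 2 * L.length + 6))) := Nat.mul_le_mul_left _ h2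
    have hX : 0 ≤ L.length * (4 + 2 * L.length + 6) := Nat.zero_le _
    nlinarith
  · intro h2
    apply Subtype.ext
    rw [hq, h2]
    rfl
  · intro h2
    apply Subtype.ext
    rw [hq, h2]
    rfl

namespace TM

variable {Q Γ : Type} (B : TM Q Γ)

lemma run_of_acc {w : List Bool} {T : ℕ} (h : (B.run w T).q = B.acc) (u : ℕ) :
    (B.run w (T + u)).q = B.acc := by
  have h1 : B.run w (T + u) = B.run w T := by
    induction u with
    | zero => rfl
    | succ u ih =>
      have h2 : B.run w (T + (u + 1)) = B.step (B.run w (T + u)) := Function.iterate_succ_apply' _ _ _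
      rw [h2, ih]
      unfold step
      rw [if_pos (Or.inl h)]
  rw [h1, h]

lemma run_of_rej {w : List Bool} {T : ℕ} (h : (B.run w T).q = B.rej) (u : ℕ) :
    (B.run w (T + u)).q = B.rej := by
  have h1 : B.run w (T + u) = B.run w T := by
    induction u with
    | zero => rfl
    | succ u ih =>
      have h2 : B.run w (T + (u + 1)) = B.step (B.run w (T + u)) := Function.iterate_succ_apply' _ _ _
      rw [h2, ih]
      unfold step
      rw [if_pos (Or.inr h)]
  rw [h1, h]

end TM

/-- A machine with several tapes that decides `k`-WL equivalence in time `O(n ^ e)` gives a machine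
with one tape that decides `k`-WL equivalence in time `O(n ^ (2 * e))`. -/
theorem one_tape_of_multi {τ Q Γ : Type} [Finite τ] [Finite Q] [Finite Γ] (M : MTM τ Q Γ) (k e : ℕ)
    (hd : MDecidesWL k M) (ht : MTimeBigO M e) :
    ∃ (Q' Γ' : Type) (_ : Finite Q') (_ : Finite Γ') (B : TM Q' Γ'),
      DecidesWL k B ∧ TimeBigO B (2 * e) := by
  obtain ⟨Q', Γ', h1, h2, B, c, hB⟩ := exists_one_tape M
  refine ⟨Q', Γ', h1, h2, B, ?_, ?_⟩
  · intro n G H
    constructor
    · intro h
      obtain ⟨t, ht⟩ := (hd n G H).1 h
      obtain ⟨T, _, hT, _⟩ := hB (encPair G H) t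
      exact ⟨T, hT ht⟩
    · intro h
      obtain ⟨t, ht⟩ := (hd n G H).2 h
      obtain ⟨T, _, _, hT⟩ := hB (encPair G H) t
      exact ⟨T, hT ht⟩
  · obtain ⟨C, n₀, hC⟩ := ht
    refine ⟨c * (C + 1) ^ 2, max n₀ 1, ?_⟩
    intro n hn G H
    have hn0 : n₀ ≤ n := le_trans (le_max_left _ _) hn
    have hn1 : 1 ≤ n := le_trans (le_max_right _ _) hn
    obtain ⟨T, hT, hT1, hT2⟩ := hB (encPair G H) (C * n ^ e)
    have hbound : T ≤ c * (C + 1) ^ 2 * n ^ (2 * e) := by
      refine hT.trans ?_
      have h3 : 1 ≤ n ^ e := Nat.one_le_pow _ _ hn1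
      have h4 : C * n ^ e + 1 ≤ (C + 1) * n ^ e := by nlinarith
      calc c * (C * n ^ e + 1) ^ 2 ≤ c * ((C + 1) * n ^ e) ^ 2 :=
            Nat.mul_le_mul_left _ (Nat.pow_le_pow_left h4 2)
        _ = c * (C + 1) ^ 2 * n ^ (2 * e) := by
            rw [mul_pow, ← pow_mul, mul_comm e 2, mul_assoc]
    obtain ⟨u, hu⟩ := Nat.exists_eq_add_of_le hbound
    rcases hC n hn0 G H with h5 | h5
    · left
      rw [hu]
      exact B.run_of_acc (hT1 h5) u
    · right
      rw [hu]
      exact B.run_of_rej (hT2 h5) u

end Vale.Agent.Lib.P310.Mach
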