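import Vale.Agent.Lib.P310.Tab.Rules

/-!
# Machines in normal form: numbered states and symbols
-/

set_option linter.unusedSimpArgs false

namespace Vale.Agent.Lib.P310.Mach

open Tab

/-- Three distinct elements of a finite type can be numbered `0, 1, 2`. -/
lemma exists_equiv3 {X : Type} [Finite X] {x y z : X} (hxy : x ≠ y) (hxz : x ≠ z) (hyz : y ≠ z) :
    ∃ (n : ℕ) (e : X ≃ Fin n), 3 ≤ n ∧ (e x).val = 0 ∧ (e y).val = 1 ∧ (e z).val = 2 := by
  classical
  obtain ⟨n, ⟨f⟩⟩ := Finite.exists_equiv_fin X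
  have hn : 3 ≤ n := by
    have h : Function.Injective (fun i : Fin 3 => f (if i.val = 0 then x else if i.val = 1 then y else z)) := by
      intro i j hij
      have h2 := f.injective hij
      apply Fin.ext
      have hi := i.isLt
      have hj := j.isLt
      by_cases h0 : i.val = 0 <;> by_cases h1 : i.val = 1 <;> by_cases h0' : j.val = 0 <;>
        by_cases h1' : j.val = 1 <;> simp_all <;> omega
    have := Fintype.card_le_of_injective _ h
    simpa using this
  let t0 : Fin n := ⟨0, by omega⟩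
  let t1 : Fin n := ⟨1, by omega⟩
  let t2 : Fin n := ⟨2, by omega⟩
  have h01 : t0 ≠ t1 := by simp [t0, t1, Fin.ext_iff]
  have h02 : t0 ≠ t2 := by simp [t0, t2, Fin.ext_iff]
  have h12 : t1 ≠ t2 := by simp [t1, t2, Fin.ext_iff]
  let f₁ := f.trans (Equiv.swap (f x) t0)
  have hx₁ : f₁ x = t0 := by simp [f₁]
  let f₂ := f₁.trans (Equiv.swap (f₁ y) t1)
  have hy₁ : f₁ y ≠ t0 := fun h => hxy (f₁.injective (hx₁.trans h.symm))
  have hx₂ : f₂ x = t0 := by
    simp only [f₂, Equiv.trans_apply, hx₁]
    exact Equiv.swap_apply_of_ne_of_ne hy₁.symm h01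
  have hy₂ : f₂ y = t1 := by simp [f₂]
  let f₃ := f₂.trans (Equiv.swap (f₂ z) t2)
  have hz₀ : f₂ z ≠ t0 := fun h => hxz (f₂.injective (hx₂.trans h.symm))
  have hz₁ : f₂ z ≠ t1 := fun h => hyz (f₂.injective (hy₂.trans h.symm))
  refine ⟨n, f₃, hn, ?_, ?_, ?_⟩
  · have : f₃ x = t0 := by
      simp only [f₃, Equiv.trans_apply, hx₂]
      exact Equiv.swap_apply_of_ne_of_ne hz₀.symm h02
    rw [this]
  · have : f₃ y = t1 := by
      simp only [f₃, Equiv.trans_apply, hy₂]
      exact Equiv.swap_apply_of_ne_of_ne hz₁.symm h12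
    rw [this]
  · have : f₃ z = t2 := by simp [f₃]
    rw [this]

/-- The machine with renumbered states and symbols. -/
def TM.renumber {Q Γ Q' Γ' : Type} (B : TM Q Γ) (e : Q ≃ Q') (g : Γ ≃ Γ') : TM Q' Γ' where
  blank := g B.blank
  bit b := g (B.bit b)
  start := e B.start
  acc := e B.acc
  rej := e B.rej
  acc_ne_rej := fun h => B.acc_ne_rej (e.injective h)
  δ q x :=
    (e (B.δ (e.symm q) (g.symm x)).1, g (B.δ (e.symm q) (g.symm x)).2.1,
      (B.δ (e.symm q) (g.symm x)).2.2)

lemma TM.renumber_run {Q Γ Q' Γ' : Type} (B : TM Q Γ) (e : Q ≃ Q') (g : Γ ≃ Γ') (w : List Bool)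
    (t : ℕ) :
    ((B.renumber e g).run w t).q = e (B.run w t).q ∧
    ((B.renumber e g).run w t).tape = g ∘ (B.run w t).tape ∧
    ((B.renumber e g).run w t).head = (B.run w t).head := by
  induction t with
  | zero =>
    refine ⟨rfl, ?_, rfl⟩
    funext i
    simp only [TM.run, Function.iterate_zero, id_eq, TM.init, TM.renumber, Function.comp_apply]
    cases w[i]? <;> rfl
  | succ t ih =>
    obtain ⟨h1, h2, h3⟩ := ih
    simp only [TM.run, Function.iterate_succ_apply'] at h1 h2 h3 ⊢
    set c' := (B.renumber e g).step^[t] ((B.renumber e g).init w) with hc'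
    set c := B.step^[t] (B.init w) with hc
    have hhalt : (c'.q = (B.renumber e g).acc ∨ c'.q = (B.renumber e g).rej) ↔
        (c.q = B.acc ∨ c.q = B.rej) := by
      rw [h1]
      simp [TM.renumber]
    have hread : c'.tape c'.head = g (c.tape c.head) := by
      rw [h2, h3]
      rfl
    unfold TM.step
    by_cases hh : c.q = B.acc ∨ c.q = B.rej
    · rw [if_pos hh, if_pos (hhalt.mpr hh)]
      exact ⟨h1, h2, h3⟩
    · rw [if_neg hh, if_neg (fun h => hh (hhalt.mp h))]
      have hd : (B.renumber e g).δ c'.q (c'.tape c'.head) =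
          (e (B.δ c.q (c.tape c.head)).1, g (B.δ c.q (c.tape c.head)).2.1,
            (B.δ c.q (c.tape c.head)).2.2) := by
        simp only [TM.renumber, hread, h1, Equiv.symm_apply_apply]
      refine ⟨?_, ?_, ?_⟩
      · simp only [hd]
      · simp only [hd]
        funext i
        simp only [Function.comp_apply, Function.update_apply, h3]
        split_ifs
        · rfl
        · rw [h2]
          rfl
      · show (if ((B.renumber e g).δ c'.q (c'.tape c'.head)).2.2 = true then c'.head + 1
          else c'.head - 1) = _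
        rw [hd, h3]

/-- Every machine with distinct start, accepting and rejecting states and distinct blank and bits
has a normal form with the same runs. -/
theorem exists_normal {Q Γ : Type} [Finite Q] [Finite Γ] (B : TM Q Γ) (h1 : B.start ≠ B.acc)
    (h2 : B.start ≠ B.rej) (h3 : B.blank ≠ B.bit false) (h4 : B.blank ≠ B.bit true)
    (h5 : B.bit false ≠ B.bit true) :
    ∃ (a b : ℕ) (M : TM (Fin a) (Fin b)), IsNormal M ∧ ∀ w t,
      ((M.run w t).q = M.acc ↔ (B.run w t).q = B.acc) ∧
      ((M.run w t).q = M.rej ↔ (B.run w t).q = B.rej) := by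
  obtain ⟨a, e, ha, he0, he1, he2⟩ := exists_equiv3 h1 h2 B.acc_ne_rej
  obtain ⟨b, g, hb, hg0, hg1, hg2⟩ := exists_equiv3 h3 h4 h5
  refine ⟨a, b, B.renumber e g, ⟨ha, hb, he0, he1, he2, hg0, hg1, hg2⟩, fun w t => ?_⟩
  rw [(TM.renumber_run B e g w t).1]
  simp [TM.renumber]

end Vale.Agent.Lib.P310.Mach
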