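import Vale.Agent.Lib.P310.Mach.Stmt

/-!
# Bounded runs of counter programs and the basic loops
-/

set_option linter.unusedSimpArgs false

namespace Vale.Agent.Lib.P310.Mach

/-- The program reaches `c'` from `c` in at most `t` small steps. -/
def Runs (w : List Bool) (c c' : List Stmt × St) (t : ℕ) : Prop :=
  ∃ t' ≤ t, (sstep w)^[t'] c = c'

namespace Runs

variable {w : List Bool} {c c' c'' : List Stmt × St} {t t' : ℕ}

lemma refl (w : List Bool) (c : List Stmt × St) : Runs w c c 0 := ⟨0, le_rfl, rfl⟩

lemma trans (h : Runs w c c' t) (h' : Runs w c' c'' t') : Runs w c c'' (t + t') := by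
  obtain ⟨a, ha, rfl⟩ := h
  obtain ⟨b, hb, rfl⟩ := h'
  refine ⟨b + a, by omega, ?_⟩
  rw [Function.iterate_add_apply]

lemma mono (h : Runs w c c' t) (ht : t ≤ t') : Runs w c c' t' := by
  obtain ⟨a, ha, rfl⟩ := h
  exact ⟨a, ha.trans ht, rfl⟩

/-- One small step in front of a run. -/
lemma head (h : Runs w (sstep w c) c' t) : Runs w c c' (t + 1) := by
  obtain ⟨a, ha, rfl⟩ := h
  exact ⟨a + 1, by omega, by rw [Function.iterate_succ_apply]⟩

end Runs

@[ext] lemma St.ext' {s s' : St} (h : s.regs = s'.regs) (h' : s.out = s'.out) : s = s' := by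
  cases s
  cases s'
  simp_all

@[simp] lemma St.set_regs (s : St) (r v : ℕ) : (s.set r v).regs = Function.update s.regs r v := rfl
@[simp] lemma St.set_out (s : St) (r v : ℕ) : (s.set r v).out = s.out := rfl

lemma St.set_same_ne (s : St) {r x : ℕ} (v : ℕ) (h : x ≠ r) : (s.set r v).regs x = s.regs x := by
  simp [Function.update_of_ne h]

lemma St.set_same (s : St) (r v : ℕ) : (s.set r v).regs r = v := by simp

variable {w : List Bool} {k : List Stmt} {s : St} {c : List Stmt × St} {t : ℕ}

lemma runs_skip : Runs w (.skip :: k, s) (k, s) 1 := ⟨1, le_rfl, rfl⟩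

lemma runs_inc (r : ℕ) : Runs w (.inc r :: k, s) (k, s.set r (s.regs r + 1)) 1 := ⟨1, le_rfl, rfl⟩

lemma runs_dec (r : ℕ) : Runs w (.dec r :: k, s) (k, s.set r (s.regs r - 1)) 1 := ⟨1, le_rfl, rfl⟩

lemma runs_seq {a b : Stmt} (h : Runs w (a :: b :: k, s) c t) : Runs w (.seq a b :: k, s) c (t + 1) :=
  Runs.head h

lemma runs_ifz_zero {r : ℕ} {a b : Stmt} (hr : s.regs r = 0) (h : Runs w (a :: k, s) c t) :
    Runs w (.ifz r a b :: k, s) c (t + 1) := by
  refine Runs.head ?_
  simpa [sstep, hr] using h

lemma runs_ifz_ne {r : ℕ} {a b : Stmt} (hr : s.regs r ≠ 0) (h : Runs w (b :: k, s) c t) :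
    Runs w (.ifz r a b :: k, s) c (t + 1) := by
  refine Runs.head ?_
  simpa [sstep, hr] using h

lemma runs_loop_zero {r : ℕ} {a : Stmt} (hr : s.regs r = 0) : Runs w (.loop r a :: k, s) (k, s) 1 := by
  refine Runs.head ?_
  simpa [sstep, hr] using Runs.refl w (k, s)

lemma runs_loop_ne {r : ℕ} {a : Stmt} (hr : s.regs r ≠ 0)
    (h : Runs w (a :: .loop r a :: k, s) c t) : Runs w (.loop r a :: k, s) c (t + 1) := by
  refine Runs.head ?_
  simpa [sstep, hr] using h

lemma runs_rd (r d : ℕ) :
    Runs w (.rd r d :: k, s)
      (k, s.set d (s.regs d + if inBit w (s.regs r) = true then 1 else 0)) 1 := by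
  refine Runs.head ?_
  by_cases h : inBit w (s.regs r) = true
  · simpa [sstep, h] using Runs.refl w _
  · have h2 : s.set d (s.regs d) = s := by
      ext1
      · funext x
        by_cases hx : x = d <;> simp [hx]
      · rfl
    simpa [sstep, h, h2] using Runs.refl w _

lemma runs_emit (b : Bool) : Runs w (.emit b :: k, s) (k, ⟨s.regs, s.out ++ [b]⟩) 1 :=
  ⟨1, le_rfl, rfl⟩

/-- Clear a register. -/
def clr (r : ℕ) : Stmt := .loop r (.dec r)

lemma runs_clr (r : ℕ) : ∀ (s : St), Runs w (clr r :: k, s) (k, s.set r 0) (2 * s.regs r + 1) := by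
  intro s
  generalize hv : s.regs r = v
  induction v generalizing s with
  | zero =>
    have h2 : s.set r 0 = s := by
      ext1
      · funext x
        by_cases hx : x = r
        · simp [hx, hv]
        · simp [hx]
      · rfl
    rw [h2]
    exact runs_loop_zero hv
  | succ v ih =>
    have h1 := ih (s.set r (s.regs r - 1)) (by simp [hv])
    have h2 : (s.set r (s.regs r - 1)).set r 0 = s.set r 0 := by
      ext1
      · funext x
        by_cases hx : x = r <;> simp [hx]
      · rfl
    rw [h2] at h1
    exact ((runs_loop_ne (by omega) ((runs_dec r).trans h1)).mono (by omega))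

/-- Add a register to another one and clear it. -/
def mv (r d : ℕ) : Stmt := .loop r (.seq (.dec r) (.inc d))

lemma runs_mv {r d : ℕ} (hrd : r ≠ d) : ∀ (s : St),
    Runs w (mv r d :: k, s) (k, (s.set d (s.regs d + s.regs r)).set r 0) (4 * s.regs r + 1) := by
  intro s
  generalize hv : s.regs r = v
  induction v generalizing s with
  | zero =>
    have h2 : (s.set d (s.regs d + 0)).set r 0 = s := by
      ext1
      · funext x
        by_cases hx : x = r
        · subst hx
          simp [hrd, hv]
        · by_cases hy : x = d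
          · subst hy
            simp [hx]
          · simp [hx, hy]
      · rfl
    rw [h2]
    exact runs_loop_zero hv
  | succ v ih =>
    have h1 := ih ((s.set r (s.regs r - 1)).set d ((s.set r (s.regs r - 1)).regs d + 1))
      (by simp [hv, hrd])
    have h2 : (((s.set r (s.regs r - 1)).set d ((s.set r (s.regs r - 1)).regs d + 1)).set d
        (((s.set r (s.regs r - 1)).set d ((s.set r (s.regs r - 1)).regs d + 1)).regs d + v)).set r 0 =
        (s.set d (s.regs d + (v + 1))).set r 0 := by
      ext1
      · funext x
        by_cases hx : x = r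
        · subst hx
          simp
        · by_cases hy : x = d
          · subst hy
            simp [hx, Ne.symm hrd]
            omega
          · simp [hx, hy]
      · rfl
    rw [h2] at h1
    refine (runs_loop_ne (by omega) (runs_seq ((runs_dec r).trans ((runs_inc d).trans h1)))).mono ?_
    omega

/-- Add a register to another one, with an empty helper register. -/
def cp (r d h : ℕ) : Stmt :=
  .seq (.loop r (.seq (.dec r) (.seq (.inc d) (.inc h)))) (mv h r)

lemma runs_cp_aux {r d h : ℕ} (hrd : r ≠ d) (hrh : r ≠ h) (hdh : d ≠ h) : ∀ (s : St),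
    Runs w (.loop r (.seq (.dec r) (.seq (.inc d) (.inc h))) :: k, s)
      (k, ((s.set d (s.regs d + s.regs r)).set h (s.regs h + s.regs r)).set r 0)
      (6 * s.regs r + 1) := by
  intro s
  generalize hv : s.regs r = v
  induction v generalizing s with
  | zero =>
    have h2 : ((s.set d (s.regs d + 0)).set h (s.regs h + 0)).set r 0 = s := by
      ext1
      · funext x
        by_cases hx : x = r
        · subst hx
          simp [hrd, hrh, hv]
        · by_cases hy : x = d
          · subst hy
            by_cases hz : x = h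
            · exact absurd hz hdh
            · simp [hx, hz]
          · by_cases hz : x = h
            · subst hz
              simp [hx]
            · simp [hx, hy, hz]
      · rfl
    rw [h2]
    exact runs_loop_zero hv
  | succ v ih =>
    set s₁ := s.set r (s.regs r - 1) with hs₁
    set s₂ := s₁.set d (s₁.regs d + 1) with hs₂
    set s₃ := s₂.set h (s₂.regs h + 1) with hs₃
    have h1 := ih s₃ (by simp [hs₃, hs₂, hs₁, hv, hrd, hrh])
    have h2 : ((s₃.set d (s₃.regs d + v)).set h (s₃.regs h + v)).set r 0 =
        ((s.set d (s.regs d + (v + 1))).set h (s.regs h + (v + 1))).set r 0 := by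
      ext1
      · funext x
        by_cases hx : x = r
        · subst hx
          simp
        · by_cases hy : x = d
          · subst hy
            simp [hx, hdh, hs₃, hs₂, hs₁, Ne.symm hrd, Function.update_of_ne hdh]
            omega
          · by_cases hz : x = h
            · subst hz
              simp [hx, hy, hs₃, hs₂, hs₁, Ne.symm hrh, Ne.symm hdh]
              omega
            · simp [hx, hy, hz, hs₃, hs₂, hs₁]
      · rfl
    rw [h2] at h1
    refine (runs_loop_ne (by omega) (runs_seq ((runs_dec r).trans (runs_seq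
      ((runs_inc d).trans ((runs_inc h).trans h1)))))).mono ?_
    omega

/-- Copy: register `d` is increased by register `r`, which is restored; helper `h` must be empty. -/
lemma runs_cp {r d h : ℕ} (hrd : r ≠ d) (hrh : r ≠ h) (hdh : d ≠ h) (s : St) (hs : s.regs h = 0) :
    Runs w (cp r d h :: k, s) (k, s.set d (s.regs d + s.regs r)) (10 * s.regs r + 3) := by
  have h1 := runs_cp_aux (w := w) (k := mv h r :: k) hrd hrh hdh s
  set s₁ := ((s.set d (s.regs d + s.regs r)).set h (s.regs h + s.regs r)).set r 0 with hs₁
  have h2 := runs_mv (w := w) (k := k) (Ne.symm hrh) s₁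
  have h4 : s₁.regs h = s.regs r := by
    simp [hs₁, hrh.symm, hs]
  have h5 : s₁.regs r = 0 := by
    simp [hs₁]
  have h3 : (s₁.set r (s₁.regs r + s₁.regs h)).set h 0 = s.set d (s.regs d + s.regs r) := by
    ext1
    · funext x
      by_cases hx : x = h
      · subst hx
        simp [hs, hdh.symm]
      · by_cases hy : x = r
        · subst hy
          simp [hx, hrd, h4, h5, Ne.symm hrd]
        · simp [hx, hy, hs₁]
    · rfl
  rw [h3, h4] at h2
  refine (runs_seq (h1.trans h2)).mono ?_
  omega

end Vale.Agent.Lib.P310.Mach
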