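import Mathlib.Data.List.Basic
import Mathlib.Logic.Function.Iterate
import Mathlib.Tactic

/-!
# Structured counter programs

Registers are numbered by natural numbers. Besides the counter instructions there is a test of an
input bit (`rd r d` adds one to register `d` if the input bit at the position in register `r` is
true) and an output instruction. The semantics is a small step function on a control list, the
remaining instructions, and a store.
-/

namespace Vale.Agent.Lib.P310.Mach

/-- Structured counter programs. `ifz r a b` runs `a` if register `r` is zero, else `b`; `loop r a`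
runs `a` as long as register `r` is not zero. -/
inductive Stmt : Type
  | skip : Stmt
  | inc (r : ℕ) : Stmt
  | dec (r : ℕ) : Stmt
  | seq (a b : Stmt) : Stmt
  | ifz (r : ℕ) (a b : Stmt) : Stmt
  | loop (r : ℕ) (a : Stmt) : Stmt
  | rd (r d : ℕ) : Stmt
  | emit (b : Bool) : Stmt

/-- The store: the values of the registers and the output written so far. -/
structure St where
  regs : ℕ → ℕ
  out : List Bool

/-- Replace the value of a register. -/
def St.set (s : St) (r v : ℕ) : St := ⟨Function.update s.regs r v, s.out⟩

/-- The input bit at a position, false outside the word. -/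
def inBit (w : List Bool) (i : ℕ) : Bool := w.getD i false

/-- One step of a program on input `w`. -/
def sstep (w : List Bool) : List Stmt × St → List Stmt × St
  | ([], s) => ([], s)
  | (.skip :: k, s) => (k, s)
  | (.inc r :: k, s) => (k, s.set r (s.regs r + 1))
  | (.dec r :: k, s) => (k, s.set r (s.regs r - 1))
  | (.seq a b :: k, s) => (a :: b :: k, s)
  | (.ifz r a b :: k, s) => if s.regs r = 0 then (a :: k, s) else (b :: k, s)
  | (.loop r a :: k, s) => if s.regs r = 0 then (k, s) else (a :: .loop r a :: k, s)
  | (.rd r d :: k, s) => if inBit w (s.regs r) = true then (k, s.set d (s.regs d + 1)) else (k, s)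
  | (.emit b :: k, s) => (k, ⟨s.regs, s.out ++ [b]⟩)

/-- The store at the start on input `w`: register `0` holds the length of the input. -/
def St.init (w : List Bool) : St := ⟨fun r => if r = 0 then w.length else 0, []⟩

/-- All registers of a program are below `K`. -/
def Stmt.Bdd (K : ℕ) : Stmt → Prop
  | .skip => True
  | .inc r => r < K
  | .dec r => r < K
  | .seq a b => a.Bdd K ∧ b.Bdd K
  | .ifz r a b => r < K ∧ a.Bdd K ∧ b.Bdd K
  | .loop r a => r < K ∧ a.Bdd K
  | .rd r d => r < K ∧ d < K
  | .emit _ => True

end Vale.Agent.Lib.P310.Mach
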