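import Vale.Agent.Lib.P310.Mach.TM
import Vale.Agent.Lib.P310.Mach.Stmt

/-!
# Structured counter programs on a one-tape machine, composed with a machine `A`

The registers are unary tracks of the tape: register `r` holds `v` if and only if its track is on
exactly on the cells below `v`. A cell also holds the input letter, the output letter, and a mark
on cell `0`. The track of register `0` is stored with the input presence added modulo two, so that
the initial tape already represents the initial store (register `0` holds the input length). When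
the control list is empty the machine `A` starts on the same tape; it sees a cell of the first
kind as its output letter (or blank).
-/

namespace Vale.Agent.Lib.P310.Mach

namespace TM

variable {Q Γ : Type} (M : TM Q Γ)

/-- A step from a state that is not a halting state. -/
lemma step_of {q : Q} (τ : ℕ → Γ) (h : ℕ) (h₁ : q ≠ M.acc) (h₂ : q ≠ M.rej) :
    M.step ⟨q, τ, h⟩ = ⟨(M.δ q (τ h)).1, Function.update τ h (M.δ q (τ h)).2.1,
      if (M.δ q (τ h)).2.2 then h + 1 else h - 1⟩ := by
  unfold step
  rw [if_neg]
  rintro (h' | h')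
  · exact h₁ h'
  · exact h₂ h'

/-- The configuration `c'` is reached from `c` within `n` steps. -/
def Reach (c c' : Cfg Q Γ) (n : ℕ) : Prop := ∃ m ≤ n, M.step^[m] c = c'

variable {M}

lemma Reach.refl (c : Cfg Q Γ) (n : ℕ) : M.Reach c c n := ⟨0, Nat.zero_le _, rfl⟩

lemma Reach.trans {c c' c'' : Cfg Q Γ} {a b : ℕ} (h₁ : M.Reach c c' a) (h₂ : M.Reach c' c'' b) :
    M.Reach c c'' (a + b) := by
  obtain ⟨m, hm, rfl⟩ := h₁
  obtain ⟨m', hm', rfl⟩ := h₂
  exact ⟨m' + m, by omega, Function.iterate_add_apply _ _ _ _⟩

lemma Reach.mono {c c' : Cfg Q Γ} {a b : ℕ} (h : M.Reach c c' a) (hab : a ≤ b) :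
    M.Reach c c' b := by
  obtain ⟨m, hm, rfl⟩ := h
  exact ⟨m, by omega, rfl⟩

lemma Reach.one {c c' : Cfg Q Γ} (h : M.step c = c') : M.Reach c c' 1 := ⟨1, le_rfl, h⟩

/-- Walking to the right without changing the tape. -/
lemma walk_right {q : Q} (τ : ℕ → Γ) (h m : ℕ) (h₁ : q ≠ M.acc) (h₂ : q ≠ M.rej)
    (H : ∀ i, h ≤ i → i < h + m → M.δ q (τ i) = (q, τ i, true)) :
    M.Reach ⟨q, τ, h⟩ ⟨q, τ, h + m⟩ m := by
  induction m with
  | zero => exact Reach.refl _ _
  | succ m ih =>
    refine (ih fun i hi hi' => H i hi (by omega)).trans (Reach.one ?_)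
    rw [M.step_of τ _ h₁ h₂, H (h + m) (by omega) (by omega)]
    simp [add_assoc]

/-- Walking to the left without changing the tape. -/
lemma walk_left {q : Q} (τ : ℕ → Γ) (h : ℕ) (h₁ : q ≠ M.acc) (h₂ : q ≠ M.rej)
    (H : ∀ i, 0 < i → i ≤ h → M.δ q (τ i) = (q, τ i, false)) :
    M.Reach ⟨q, τ, h⟩ ⟨q, τ, 0⟩ h := by
  induction h with
  | zero => exact Reach.refl _ _
  | succ h ih =>
    have h3 : M.step ⟨q, τ, h + 1⟩ = ⟨q, τ, h⟩ := by
      rw [M.step_of τ _ h₁ h₂, H (h + 1) (by omega) le_rfl]
      simp
    exact ((Reach.one h3).trans (ih fun i hi hi' => H i hi (by omega))).mono (by omega)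

end TM

namespace Sim

/-- A tape symbol of the counter phase: input letter, output letter, tracks and mark. -/
abbrev Sym (K : ℕ) : Type := Option Bool × Option Bool × (Fin (K + 1) → Bool) × Bool

/-- The track of a register. -/
def toF (K r : ℕ) : Fin (K + 1) := ⟨r % (K + 1), Nat.mod_lt _ (Nat.succ_pos _)⟩

variable {K : ℕ}

/-- The value of a track in a cell. -/
def onT (x : Sym K) (f : Fin (K + 1)) : Bool :=
  xor (x.2.2.1 f) (decide (f.val = 0) && x.1.isSome)

/-- Give a track a value in a cell. -/
def setT (x : Sym K) (f : Fin (K + 1)) (b : Bool) : Sym K :=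
  (x.1, x.2.1, Function.update x.2.2.1 f (xor b (decide (f.val = 0) && x.1.isSome)), x.2.2.2)

/-- The phases of the counter part of the machine. -/
inductive Micro (K : ℕ) : Type
  | init
  | ctrl
  | home
  | incR (f : Fin (K + 1))
  | decR (f : Fin (K + 1))
  | decW (f : Fin (K + 1))
  | rdR (f g : Fin (K + 1))
  | homeInc (g : Fin (K + 1))
  | emitR (b : Bool)

instance : Finite (Micro K) := by
  let e : Micro K → Fin 9 × Fin (K + 1) × Fin (K + 1) × Bool := fun m =>
    match m with
    | .init => (0, 0, 0, false)
    | .ctrl => (1, 0, 0, false)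
    | .home => (2, 0, 0, false)
    | .incR f => (3, f, 0, false)
    | .decR f => (4, f, 0, false)
    | .decW f => (5, f, 0, false)
    | .rdR f g => (6, f, g, false)
    | .homeInc g => (7, g, 0, false)
    | .emitR b => (8, 0, 0, b)
  refine Finite.of_injective e ?_
  intro a b hab
  cases a <;> cases b <;> simp_all [e]

variable {Q Γ : Type}

/-- The states of the raw machine. -/
abbrev RQ (K : ℕ) (Q : Type) : Type := (List Stmt × Micro K) ⊕ Q

/-- The transition of the counter phase. -/
def δS (A : TM Q Γ) (k : List Stmt) (m : Micro K) (x : Sym K) :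
    RQ K Q × (Sym K ⊕ Γ) × Bool :=
  match m with
  | .init => (.inl (k, .ctrl), .inl (x.1, x.2.1, x.2.2.1, true), false)
  | .ctrl =>
    match k with
    | [] => (.inr A.start, .inl x, false)
    | .skip :: k' => (.inl (k', .ctrl), .inl x, false)
    | .inc r :: k' => (.inl (k', .incR (toF K r)), .inl x, false)
    | .dec r :: k' =>
      if onT x (toF K r) then (.inl (k', .decR (toF K r)), .inl x, true)
      else (.inl (k', .ctrl), .inl x, false)
    | .seq a b :: k' => (.inl (a :: b :: k', .ctrl), .inl x, false)
    | .ifz r a b :: k' =>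
      if onT x (toF K r) then (.inl (b :: k', .ctrl), .inl x, false)
      else (.inl (a :: k', .ctrl), .inl x, false)
    | .loop r a :: k' =>
      if onT x (toF K r) then (.inl (a :: .loop r a :: k', .ctrl), .inl x, false)
      else (.inl (k', .ctrl), .inl x, false)
    | .rd r d :: k' => (.inl (k', .rdR (toF K r) (toF K d)), .inl x, false)
    | .emit b :: k' => (.inl (k', .emitR b), .inl x, false)
  | .home =>
    if x.2.2.2 then (.inl (k, .ctrl), .inl x, false) else (.inl (k, .home), .inl x, false)
  | .incR f =>
    if onT x f then (.inl (k, .incR f), .inl x, true)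
    else (.inl (k, .home), .inl (setT x f true), false)
  | .decR f =>
    if onT x f then (.inl (k, .decR f), .inl x, true) else (.inl (k, .decW f), .inl x, false)
  | .decW f => (.inl (k, .home), .inl (setT x f false), false)
  | .rdR f g =>
    if onT x f then (.inl (k, .rdR f g), .inl x, true)
    else if x.1 = some true then (.inl (k, .homeInc g), .inl x, false)
    else (.inl (k, .home), .inl x, false)
  | .homeInc g =>
    if x.2.2.2 then (.inl (k, .incR g), .inl x, false) else (.inl (k, .homeInc g), .inl x, false)
  | .emitR b =>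
    if x.2.1.isSome then (.inl (k, .emitR b), .inl x, true)
    else (.inl (k, .home), .inl (x.1, some b, x.2.2.1, x.2.2.2), false)

/-- What `A` sees in a cell. -/
def view (A : TM Q Γ) : Sym K ⊕ Γ → Γ
  | .inl x => x.2.1.elim A.blank A.bit
  | .inr a => a

/-- The raw machine, with infinitely many states. -/
def raw (K : ℕ) (p : Stmt) (A : TM Q Γ) : TM (RQ K Q) (Sym K ⊕ Γ) where
  blank := .inl (none, none, fun _ => false, false)
  bit b := .inl (some b, none, fun _ => false, false)
  start := .inl ([p], .init)
  acc := .inr A.acc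
  rej := .inr A.rej
  acc_ne_rej := fun h => A.acc_ne_rej (Sum.inr.inj h)
  δ q x :=
    match q, x with
    | .inl (k, m), .inl x => δS A k m x
    | .inl q, .inr a => (.inl q, .inr a, true)
    | .inr q, x => (.inr (A.δ q (view A x)).1, .inr (A.δ q (view A x)).2.1, (A.δ q (view A x)).2.2)

/-- The symbol of a cell in the counter phase for a store. -/
def enc (w : List Bool) (s : St) (i : ℕ) : Sym K :=
  (w[i]?, s.out[i]?,
    fun f => xor (decide (i < s.regs f.val)) (decide (f.val = 0) && (w[i]?).isSome), decide (i = 0))

/-- The tape in the counter phase for a store. -/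
def tp (K : ℕ) (Γ : Type) (w : List Bool) (s : St) : ℕ → Sym K ⊕ Γ := fun i => .inl (enc w s i)

lemma onT_enc (w : List Bool) (s : St) (i : ℕ) (f : Fin (K + 1)) :
    onT (enc w s i) f = decide (i < s.regs f.val) := by
  simp only [onT, enc]
  cases decide (i < s.regs f.val) <;> cases (decide (f.val = 0) && (w[i]?).isSome) <;> rfl

lemma toF_val {r : ℕ} (hr : r < K + 1) : (toF K r).val = r := Nat.mod_eq_of_lt hr

lemma onT_enc_r (w : List Bool) (s : St) (i : ℕ) {r : ℕ} (hr : r < K + 1) :
    onT (enc w s i) (toF K r) = decide (i < s.regs r) := by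
  rw [onT_enc, toF_val hr]

/-- Changing the value of a register by turning a cell of its track on or off. -/
lemma update_set (w : List Bool) (s : St) {r : ℕ} (hr : r < K + 1) (j v : ℕ) (b : Bool)
    (hb : b = decide (j < v)) (hv : ∀ i, i ≠ j → (i < v ↔ i < s.regs r)) :
    Function.update (tp K Γ w s) j (.inl (setT (enc w s j) (toF K r) b)) =
      tp K Γ w (s.set r v) := by
  funext i
  by_cases hi : i = j
  · subst hi
    simp only [Function.update_self, tp, setT, enc, St.set, Sum.inl.injEq, Prod.mk.injEq, true_and,
      and_true]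
    funext f
    by_cases hf : f = toF K r
    · subst hf
      have hval : (toF K r).val = r := toF_val hr
      simp only [Function.update_self, hval, hb]
    · have hval : f.val ≠ r := fun h => hf (Fin.ext (by rw [toF_val hr, h]))
      simp only [Function.update_of_ne hf, Function.update_of_ne hval]
  · simp only [Function.update_of_ne hi, tp, enc, St.set, Sum.inl.injEq, Prod.mk.injEq, true_and,
      and_true]
    funext f
    by_cases hval : f.val = r
    · subst hval
      simp only [Function.update_self, decide_eq_decide.mpr (hv i hi)]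
    · simp only [Function.update_of_ne hval]

/-- Nothing changes if a register gets its own value. -/
lemma tp_set_self (w : List Bool) (s : St) (r : ℕ) : tp K Γ w (s.set r (s.regs r)) = tp K Γ w s := by
  have : s.set r (s.regs r) = s := by
    cases s
    simp [St.set]
  rw [this]

variable (K) (p : Stmt) (A : TM Q Γ)

/-- A configuration of the counter phase. -/
abbrev cf (w : List Bool) (k : List Stmt) (m : Micro K) (s : St) (h : ℕ) : Cfg (RQ K Q) (Sym K ⊕ Γ) :=
  ⟨.inl (k, m), tp K Γ w s, h⟩

variable {K}

lemma raw_ne_acc (x : List Stmt × Micro K) : (Sum.inl x : RQ K Q) ≠ (raw K p A).acc := by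
  simp [raw]

lemma raw_ne_rej (x : List Stmt × Micro K) : (Sum.inl x : RQ K Q) ≠ (raw K p A).rej := by
  simp [raw]

/-- One step of the counter phase on the tape of a store. -/
lemma step_enc (w : List Bool) (k : List Stmt) (m : Micro K) (s : St) (h : ℕ) :
    (raw K p A).step (cf K w k m s h) =
      ⟨(δS A k m (enc w s h)).1, Function.update (tp K Γ w s) h (δS A k m (enc w s h)).2.1,
        if (δS A k m (enc w s h)).2.2 then h + 1 else h - 1⟩ := by
  rw [cf, TM.step_of _ _ _ (raw_ne_acc p A _) (raw_ne_rej p A _)]
  rfl

/-- A step that does not write. -/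
lemma step_nw (w : List Bool) (k : List Stmt) (m : Micro K) (s : St) (h : ℕ) {q' : RQ K Q} {d : Bool}
    (H : δS A k m (enc w s h) = (q', .inl (enc w s h), d)) :
    (raw K p A).step (cf K w k m s h) = ⟨q', tp K Γ w s, if d then h + 1 else h - 1⟩ := by
  rw [step_enc, H]
  have : (Sum.inl (enc w s h) : Sym K ⊕ Γ) = tp K Γ w s h := rfl
  simp only [this, Function.update_eq_self]

/-- The way home. -/
lemma home_run (w : List Bool) (k : List Stmt) (s : St) (h : ℕ) :
    (raw K p A).Reach (cf K w k .home s h) (cf K w k .ctrl s 0) (h + 1) := by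
  refine (TM.walk_left (M := raw K p A) _ h (raw_ne_acc p A _) (raw_ne_rej p A _) ?_).trans
    (TM.Reach.one ?_)
  · intro i hi _
    change δS A k .home (enc w s i) = _
    have : (enc w s i : Sym K).2.2.2 = false := by
      simp only [enc]
      exact decide_eq_false (by omega)
    simp only [δS, this, if_false, Bool.false_eq_true]
    rfl
  · have : (enc w s 0 : Sym K).2.2.2 = true := by simp [enc]
    refine (step_nw p A w k .home s 0 (q' := .inl (k, .ctrl)) (d := false) ?_).trans ?_
    · simp only [δS, this, if_true]
    · simp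

/-- The way home before an increment. -/
lemma homeInc_run (w : List Bool) (k : List Stmt) (g : Fin (K + 1)) (s : St) (h : ℕ) :
    (raw K p A).Reach (cf K w k (.homeInc g) s h) (cf K w k (.incR g) s 0) (h + 1) := by
  refine (TM.walk_left (M := raw K p A) _ h (raw_ne_acc p A _) (raw_ne_rej p A _) ?_).trans
    (TM.Reach.one ?_)
  · intro i hi _
    change δS A k (.homeInc g) (enc w s i) = _
    have : (enc w s i : Sym K).2.2.2 = false := by
      simp only [enc]
      exact decide_eq_false (by omega)
    simp only [δS, this, if_false, Bool.false_eq_true]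
    rfl
  · have : (enc w s 0 : Sym K).2.2.2 = true := by simp [enc]
    refine (step_nw p A w k (.homeInc g) s 0 (q' := .inl (k, .incR g)) (d := false) ?_).trans ?_
    · simp only [δS, this, if_true]
    · simp

/-- An increment. -/
lemma inc_run (w : List Bool) (k : List Stmt) (s : St) {r : ℕ} (hr : r < K + 1) :
    (raw K p A).Reach (cf K w k (.incR (toF K r)) s 0)
      (cf K w k .ctrl (s.set r (s.regs r + 1)) 0) (2 * s.regs r + 2) := by
  have h1 : (raw K p A).Reach (cf K w k (.incR (toF K r)) s 0)
      (cf K w k (.incR (toF K r)) s (0 + s.regs r)) (s.regs r) := by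
    refine TM.walk_right (M := raw K p A) _ 0 _ (raw_ne_acc p A _) (raw_ne_rej p A _) ?_
    intro i _ hi
    change δS A k (.incR (toF K r)) (enc w s i) = _
    have : onT (enc w s i : Sym K) (toF K r) = true := by
      rw [onT_enc_r _ _ _ hr]
      exact decide_eq_true (by omega)
    simp only [δS, this, if_true]
    rfl
  have h2 : (raw K p A).step (cf K w k (.incR (toF K r)) s (0 + s.regs r)) =
      cf K w k .home (s.set r (s.regs r + 1)) (s.regs r - 1) := by
    rw [zero_add, step_enc]
    have : onT (enc w s (s.regs r) : Sym K) (toF K r) = false := by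
      rw [onT_enc_r _ _ _ hr]
      exact decide_eq_false (by omega)
    simp only [δS, this, if_false, Bool.false_eq_true]
    rw [update_set w s hr (s.regs r) (s.regs r + 1) true (by simp) (fun i hi => by omega)]
  refine (h1.trans ((TM.Reach.one h2).trans (home_run p A w k _ _))).mono ?_
  omega

/-- The step of a program at cell `0`, for a statement that only changes the control list. -/
lemma ctrl_nw (w : List Bool) (k k' : List Stmt) (s : St)
    (H : δS A k .ctrl (enc w s 0 : Sym K) = (.inl (k', .ctrl), .inl (enc w s 0), false)) :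
    (raw K p A).Reach (cf K w k .ctrl s 0) (cf K w k' .ctrl s 0) 1 := by
  refine TM.Reach.one ((step_nw p A w k .ctrl s 0 H).trans ?_)
  simp

lemma getElem_some_iff_inBit (w : List Bool) (v : ℕ) : w[v]? = some true ↔ inBit w v = true := by
  simp only [inBit, List.getD_eq_getElem?_getD]
  cases w[v]? with
  | none => simp
  | some b => simp

/-- Writing the next output letter. -/
lemma update_emit (w : List Bool) (s : St) (b : Bool) :
    Function.update (tp K Γ w s) s.out.length
      (.inl ((enc w s s.out.length : Sym K).1, some b, (enc w s s.out.length : Sym K).2.2.1,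
        (enc w s s.out.length : Sym K).2.2.2)) = tp K Γ w ⟨s.regs, s.out ++ [b]⟩ := by
  funext i
  by_cases hi : i = s.out.length
  · subst hi
    simp [tp, enc]
  · rw [Function.update_of_ne hi]
    simp only [tp, enc, Sum.inl.injEq, Prod.mk.injEq, true_and, and_true]
    rcases Nat.lt_or_ge i s.out.length with h | h
    · rw [List.getElem?_append_left h]
    · rw [List.getElem?_eq_none h, List.getElem?_eq_none (by simp; omega)]

/-- A decrement of a register with a positive value. -/
lemma dec_run (w : List Bool) (k : List Stmt) (s : St) {r : ℕ} (hr : r < K + 1)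
    (hv : 0 < s.regs r) :
    (raw K p A).Reach (cf K w k (.decR (toF K r)) s 1)
      (cf K w k .ctrl (s.set r (s.regs r - 1)) 0) (2 * s.regs r + 2) := by
  have h1 : (raw K p A).Reach (cf K w k (.decR (toF K r)) s 1)
      (cf K w k (.decR (toF K r)) s (1 + (s.regs r - 1))) (s.regs r - 1) := by
    refine TM.walk_right (M := raw K p A) _ 1 _ (raw_ne_acc p A _) (raw_ne_rej p A _) ?_
    intro i _ hi
    change δS A k (.decR (toF K r)) (enc w s i) = _
    have : onT (enc w s i : Sym K) (toF K r) = true := by
      rw [onT_enc_r _ _ _ hr]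
      exact decide_eq_true (by omega)
    simp only [δS, this, if_true]
    rfl
  have h2 : (raw K p A).step (cf K w k (.decR (toF K r)) s (1 + (s.regs r - 1))) =
      cf K w k (.decW (toF K r)) s (s.regs r - 1) := by
    have h3 : 1 + (s.regs r - 1) = s.regs r := by omega
    rw [h3]
    have : onT (enc w s (s.regs r) : Sym K) (toF K r) = false := by
      rw [onT_enc_r _ _ _ hr]
      exact decide_eq_false (by omega)
    refine (step_nw p A w k _ s _ (q' := .inl (k, .decW (toF K r))) (d := false) ?_).trans ?_
    · simp only [δS, this, if_false, Bool.false_eq_true]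
    · simp
  have h3 : (raw K p A).step (cf K w k (.decW (toF K r)) s (s.regs r - 1)) =
      cf K w k .home (s.set r (s.regs r - 1)) (s.regs r - 1 - 1) := by
    rw [step_enc]
    simp only [δS]
    rw [update_set w s hr (s.regs r - 1) (s.regs r - 1) false (by simp)
      (fun i hi => by omega)]
    rfl
  refine (h1.trans ((TM.Reach.one h2).trans ((TM.Reach.one h3).trans
    (home_run p A w k _ _)))).mono ?_
  omega

/-- Walking along a track for a read. -/
lemma rd_walk (w : List Bool) (k : List Stmt) (s : St) {r : ℕ} (hr : r < K + 1)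
    (g : Fin (K + 1)) :
    (raw K p A).Reach (cf K w k (.rdR (toF K r) g) s 0)
      (cf K w k (.rdR (toF K r) g) s (0 + s.regs r)) (s.regs r) := by
  refine TM.walk_right (M := raw K p A) _ 0 _ (raw_ne_acc p A _) (raw_ne_rej p A _) ?_
  intro i _ hi
  change δS A k (.rdR (toF K r) g) (enc w s i) = _
  have : onT (enc w s i : Sym K) (toF K r) = true := by
    rw [onT_enc_r _ _ _ hr]
    exact decide_eq_true (by omega)
  simp only [δS, this, if_true]
  rfl

/-- One small step of a program is simulated. -/
lemma sim_step (w : List Bool) (k : List Stmt) (s : St) (X : ℕ)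
    (hX : ∀ r, r < K + 1 → s.regs r ≤ X) (hO : s.out.length ≤ X)
    (hok : ∀ a ∈ k, a.Bdd (K + 1)) :
    (raw K p A).Reach (cf K w k .ctrl s 0)
      (cf K w (sstep w (k, s)).1 .ctrl (sstep w (k, s)).2 0) (4 * X + 10) := by
  match k, hok with
  | [], _ => exact TM.Reach.refl _ _
  | .skip :: k', _ =>
    exact (ctrl_nw p A w _ k' s (by simp only [δS])).mono (by omega)
  | .seq a b :: k', _ =>
    exact (ctrl_nw p A w _ (a :: b :: k') s (by simp only [δS])).mono (by omega)
  | .ifz r a b :: k', hok =>
    have hr : r < K + 1 := (hok (.ifz r a b) (by simp)).1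
    by_cases h0 : s.regs r = 0
    · have : onT (enc w s 0 : Sym K) (toF K r) = false := by
        rw [onT_enc_r _ _ _ hr]
        exact decide_eq_false (by omega)
      simp only [sstep, h0, if_true]
      exact (ctrl_nw p A w _ (a :: k') s (by simp only [δS, this, if_false,
        Bool.false_eq_true])).mono (by omega)
    · have : onT (enc w s 0 : Sym K) (toF K r) = true := by
        rw [onT_enc_r _ _ _ hr]
        exact decide_eq_true (by omega)
      simp only [sstep, h0, if_false]
      exact (ctrl_nw p A w _ (b :: k') s (by simp only [δS, this, if_true])).mono (by omega)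
  | .loop r a :: k', hok =>
    have hr : r < K + 1 := (hok (.loop r a) (by simp)).1
    by_cases h0 : s.regs r = 0
    · have : onT (enc w s 0 : Sym K) (toF K r) = false := by
        rw [onT_enc_r _ _ _ hr]
        exact decide_eq_false (by omega)
      simp only [sstep, h0, if_true]
      exact (ctrl_nw p A w _ k' s (by simp only [δS, this, if_false,
        Bool.false_eq_true])).mono (by omega)
    · have : onT (enc w s 0 : Sym K) (toF K r) = true := by
        rw [onT_enc_r _ _ _ hr]
        exact decide_eq_true (by omega)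
      simp only [sstep, h0, if_false]
      exact (ctrl_nw p A w _ (a :: .loop r a :: k') s (by simp only [δS, this,
        if_true])).mono (by omega)
  | .inc r :: k', hok =>
    have hr : r < K + 1 := hok (.inc r) (by simp)
    have h1 : (raw K p A).step (cf K w (.inc r :: k') .ctrl s 0) =
        cf K w k' (.incR (toF K r)) s 0 := by
      refine (step_nw p A w _ .ctrl s 0 (q' := .inl (k', .incR (toF K r))) (d := false) ?_).trans ?_
      · simp only [δS]
      · simp
    exact ((TM.Reach.one h1).trans (inc_run p A w k' s hr)).mono (by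
      have := hX r hr
      omega)
  | .dec r :: k', hok =>
    have hr : r < K + 1 := hok (.dec r) (by simp)
    by_cases h0 : s.regs r = 0
    · have : onT (enc w s 0 : Sym K) (toF K r) = false := by
        rw [onT_enc_r _ _ _ hr]
        exact decide_eq_false (by omega)
      have h2 : tp K Γ w (s.set r (s.regs r - 1)) = tp K Γ w s := by
        have h3 : s.regs r - 1 = s.regs r := by omega
        rw [h3, tp_set_self]
      simp only [sstep, cf, h2]
      exact (ctrl_nw p A w _ k' s (by simp only [δS, this, if_false,
        Bool.false_eq_true])).mono (by omega)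
    · have : onT (enc w s 0 : Sym K) (toF K r) = true := by
        rw [onT_enc_r _ _ _ hr]
        exact decide_eq_true (by omega)
      have h1 : (raw K p A).step (cf K w (.dec r :: k') .ctrl s 0) =
          cf K w k' (.decR (toF K r)) s 1 := by
        refine (step_nw p A w _ .ctrl s 0 (q' := .inl (k', .decR (toF K r))) (d := true) ?_).trans ?_
        · simp only [δS, this, if_true]
        · simp
      exact ((TM.Reach.one h1).trans (dec_run p A w k' s hr (by omega))).mono (by
        have := hX r hr
        omega)
  | .rd r d :: k', hok =>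
    have hr : r < K + 1 := (hok (.rd r d) (by simp)).1
    have hd : d < K + 1 := (hok (.rd r d) (by simp)).2
    have h1 : (raw K p A).step (cf K w (.rd r d :: k') .ctrl s 0) =
        cf K w k' (.rdR (toF K r) (toF K d)) s 0 := by
      refine (step_nw p A w _ .ctrl s 0 (q' := .inl (k', .rdR (toF K r) (toF K d))) (d := false)
        ?_).trans ?_
      · simp only [δS]
      · simp
    have hoff : onT (enc w s (s.regs r) : Sym K) (toF K r) = false := by
      rw [onT_enc_r _ _ _ hr]
      exact decide_eq_false (by omega)
    have hvr := hX r hr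
    have hvd := hX d hd
    by_cases hb : inBit w (s.regs r) = true
    · have hb' : (enc w s (s.regs r) : Sym K).1 = some true := (getElem_some_iff_inBit _ _).mpr hb
      have h2 : (raw K p A).step (cf K w k' (.rdR (toF K r) (toF K d)) s (0 + s.regs r)) =
          cf K w k' (.homeInc (toF K d)) s (s.regs r - 1) := by
        rw [zero_add]
        refine (step_nw p A w _ _ s _ (q' := .inl (k', .homeInc (toF K d))) (d := false) ?_).trans ?_
        · simp only [δS, hoff, hb', if_false, Bool.false_eq_true, if_true]
        · simp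
      simp only [sstep, hb, if_true]
      exact ((TM.Reach.one h1).trans ((rd_walk p A w k' s hr _).trans ((TM.Reach.one h2).trans
        ((homeInc_run p A w k' _ s _).trans (inc_run p A w k' s hd))))).mono (by omega)
    · have hb' : (enc w s (s.regs r) : Sym K).1 ≠ some true :=
        fun h => hb ((getElem_some_iff_inBit _ _).mp h)
      have h2 : (raw K p A).step (cf K w k' (.rdR (toF K r) (toF K d)) s (0 + s.regs r)) =
          cf K w k' .home s (s.regs r - 1) := by
        rw [zero_add]
        refine (step_nw p A w _ _ s _ (q' := .inl (k', .home)) (d := false) ?_).trans ?_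
        · simp only [δS, hoff, hb', if_false, Bool.false_eq_true]
        · simp
      simp only [sstep, hb]
      exact ((TM.Reach.one h1).trans ((rd_walk p A w k' s hr _).trans ((TM.Reach.one h2).trans
        (home_run p A w k' s _)))).mono (by omega)
  | .emit b :: k', _ =>
    have h1 : (raw K p A).step (cf K w (.emit b :: k') .ctrl s 0) =
        cf K w k' (.emitR b) s 0 := by
      refine (step_nw p A w _ .ctrl s 0 (q' := .inl (k', .emitR b)) (d := false) ?_).trans ?_
      · simp only [δS]
      · simp
    have h2 : (raw K p A).Reach (cf K w k' (.emitR b) s 0)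
        (cf K w k' (.emitR b) s (0 + s.out.length)) s.out.length := by
      refine TM.walk_right (M := raw K p A) _ 0 _ (raw_ne_acc p A _) (raw_ne_rej p A _) ?_
      intro i _ hi
      change δS A k' (.emitR b) (enc w s i) = _
      have : (enc w s i : Sym K).2.1.isSome = true := by
        simp only [enc]
        rw [List.getElem?_eq_getElem (by omega)]
        rfl
      simp only [δS, this, if_true]
      rfl
    have h3 : (raw K p A).step (cf K w k' (.emitR b) s (0 + s.out.length)) =
        cf K w k' .home ⟨s.regs, s.out ++ [b]⟩ (s.out.length - 1) := by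
      rw [zero_add, step_enc]
      have : (enc w s s.out.length : Sym K).2.1.isSome = false := by
        simp only [enc]
        rw [List.getElem?_eq_none (by omega)]
        rfl
      simp only [δS, this, if_false, Bool.false_eq_true]
      rw [update_emit]
    exact ((TM.Reach.one h1).trans (h2.trans ((TM.Reach.one h3).trans
      (home_run p A w k' _ _)))).mono (by omega)

/-- The invariants of a run of a program. -/
lemma run_inv (hp : p.Bdd (K + 1)) (w : List Bool) (j : ℕ) (k : List Stmt) (s : St)
    (H : (sstep w)^[j] ([p], St.init w) = (k, s)) :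
    (∀ a ∈ k, a.Bdd (K + 1)) ∧ (∀ r, s.regs r ≤ w.length + j) ∧ s.out.length ≤ j := by
  induction j generalizing k s with
  | zero =>
    simp only [Function.iterate_zero, id_eq, Prod.mk.injEq] at H
    obtain ⟨rfl, rfl⟩ := H
    refine ⟨by simpa using hp, fun r => ?_, by simp [St.init]⟩
    simp only [St.init]
    split_ifs <;> omega
  | succ j ih =>
    rw [Function.iterate_succ_apply'] at H
    rcases h0 : (sstep w)^[j] ([p], St.init w) with ⟨k0, s0⟩
    obtain ⟨h1, h2, h3⟩ := ih k0 s0 h0
    rw [h0] at H
    have hs : ∀ (r v : ℕ), v ≤ w.length + (j + 1) → ∀ r', (s0.set r v).regs r' ≤ w.length + (j + 1) := by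
      intro r v hv r'
      simp only [St.set]
      by_cases h : r' = r
      · subst h
        simpa using hv
      · rw [Function.update_of_ne h]
        have := h2 r'
        omega
    match k0, h1, H with
    | [], _, H =>
      simp only [sstep, Prod.mk.injEq] at H
      obtain ⟨rfl, rfl⟩ := H
      exact ⟨by simp, fun r => by have := h2 r; omega, by omega⟩
    | .skip :: k', h1, H =>
      simp only [sstep, Prod.mk.injEq] at H
      obtain ⟨rfl, rfl⟩ := H
      exact ⟨fun a ha => h1 a (by simp [ha]), fun r => by have := h2 r; omega, by omega⟩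
    | .inc r :: k', h1, H =>
      simp only [sstep, Prod.mk.injEq] at H
      obtain ⟨rfl, rfl⟩ := H
      exact ⟨fun a ha => h1 a (by simp [ha]), hs r _ (by have := h2 r; omega), by
        simpa [St.set] using by omega⟩
    | .dec r :: k', h1, H =>
      simp only [sstep, Prod.mk.injEq] at H
      obtain ⟨rfl, rfl⟩ := H
      exact ⟨fun a ha => h1 a (by simp [ha]), hs r _ (by have := h2 r; omega), by
        simpa [St.set] using by omega⟩
    | .seq a b :: k', h1, H =>
      simp only [sstep, Prod.mk.injEq] at H
      obtain ⟨rfl, rfl⟩ := H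
      have h4 := h1 (.seq a b) (by simp)
      refine ⟨fun c hc => ?_, fun r => by have := h2 r; omega, by omega⟩
      simp only [List.mem_cons] at hc
      rcases hc with rfl | rfl | hc
      · exact h4.1
      · exact h4.2
      · exact h1 c (by simp [hc])
    | .ifz r a b :: k', h1, H =>
      have h4 := h1 (.ifz r a b) (by simp)
      simp only [sstep] at H
      split_ifs at H
      · simp only [Prod.mk.injEq] at H
        obtain ⟨rfl, rfl⟩ := H
        refine ⟨fun c hc => ?_, fun r => by have := h2 r; omega, by omega⟩
        simp only [List.mem_cons] at hc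
        rcases hc with rfl | hc
        · exact h4.2.1
        · exact h1 c (by simp [hc])
      · simp only [Prod.mk.injEq] at H
        obtain ⟨rfl, rfl⟩ := H
        refine ⟨fun c hc => ?_, fun r => by have := h2 r; omega, by omega⟩
        simp only [List.mem_cons] at hc
        rcases hc with rfl | hc
        · exact h4.2.2
        · exact h1 c (by simp [hc])
    | .loop r a :: k', h1, H =>
      have h4 := h1 (.loop r a) (by simp)
      simp only [sstep] at H
      split_ifs at H
      · simp only [Prod.mk.injEq] at H
        obtain ⟨rfl, rfl⟩ := H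
        exact ⟨fun c hc => h1 c (by simp [hc]), fun r => by have := h2 r; omega, by omega⟩
      · simp only [Prod.mk.injEq] at H
        obtain ⟨rfl, rfl⟩ := H
        refine ⟨fun c hc => ?_, fun r => by have := h2 r; omega, by omega⟩
        simp only [List.mem_cons] at hc
        rcases hc with rfl | rfl | hc
        · exact h4.2
        · exact h4
        · exact h1 c (by simp [hc])
    | .rd r d :: k', h1, H =>
      simp only [sstep] at H
      split_ifs at H
      · simp only [Prod.mk.injEq] at H
        obtain ⟨rfl, rfl⟩ := H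
        exact ⟨fun c hc => h1 c (by simp [hc]), hs d _ (by have := h2 d; omega), by
          simpa [St.set] using by omega⟩
      · simp only [Prod.mk.injEq] at H
        obtain ⟨rfl, rfl⟩ := H
        exact ⟨fun c hc => h1 c (by simp [hc]), fun r => by have := h2 r; omega, by omega⟩
    | .emit b :: k', h1, H =>
      simp only [sstep, Prod.mk.injEq] at H
      obtain ⟨rfl, rfl⟩ := H
      refine ⟨fun c hc => h1 c (by simp [hc]), fun r => by have := h2 r; simp only; omega, ?_⟩
      simp only [List.length_append, List.length_cons, List.length_nil]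
      omega

/-- The whole counter phase. -/
lemma sim_iter (hp : p.Bdd (K + 1)) (w : List Bool) (j : ℕ) (k : List Stmt) (s : St)
    (H : (sstep w)^[j] ([p], St.init w) = (k, s)) :
    (raw K p A).Reach (cf K w [p] .ctrl (St.init w) 0) (cf K w k .ctrl s 0)
      (j * (4 * (w.length + j) + 10)) := by
  induction j generalizing k s with
  | zero =>
    simp only [Function.iterate_zero, id_eq, Prod.mk.injEq] at H
    obtain ⟨rfl, rfl⟩ := H
    exact TM.Reach.refl _ _
  | succ j ih =>
    rw [Function.iterate_succ_apply'] at H
    rcases h0 : (sstep w)^[j] ([p], St.init w) with ⟨k0, s0⟩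
    obtain ⟨h1, h2, h3⟩ := run_inv p hp w j k0 s0 h0
    rw [h0] at H
    have h4 := sim_step p A w k0 s0 (w.length + j) (fun r _ => h2 r) (by omega) h1
    rw [H] at h4
    refine ((ih k0 s0 h0).trans h4).mono ?_
    nlinarith

/-- The start of the machine: the mark is set. -/
lemma init_step (w : List Bool) :
    (raw K p A).step ((raw K p A).init w) = cf K w [p] .ctrl (St.init w) 0 := by
  have h0 : (raw K p A).init w = ⟨.inl ([p], .init), fun i => (w[i]?).elim (raw K p A).blank
      (raw K p A).bit, 0⟩ := rfl
  rw [h0, TM.step_of _ _ _ (raw_ne_acc p A _) (raw_ne_rej p A _)]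
  have h1 : (w[0]?).elim (raw K p A).blank (raw K p A).bit =
      .inl ((w[0]?), none, fun _ => false, false) := by
    cases w[0]? <;> rfl
  simp only [h1]
  simp only [raw, δS, cf, zero_tsub, if_false, Bool.false_eq_true, Cfg.mk.injEq, true_and, and_true]
  funext i
  by_cases hi : i = 0
  · subst hi
    rw [Function.update_self]
    simp only [tp, enc, St.init, Sum.inl.injEq, Prod.mk.injEq, true_and]
    refine ⟨by simp, ?_, by simp⟩
    funext f
    by_cases hf : f.val = 0
    · cases w <;> simp [hf]
    · simp [hf]
  · rw [Function.update_of_ne hi]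
    have h2 : (w[i]?).elim (Sum.inl (none, none, fun _ => false, false) : Sym K ⊕ Γ)
        (fun b => Sum.inl (some b, none, fun _ => false, false)) =
        .inl ((w[i]?), none, fun _ => false, false) := by
      cases w[i]? <;> rfl
    rw [h2]
    simp only [tp, enc, St.init, Sum.inl.injEq, Prod.mk.injEq, true_and]
    refine ⟨by simp, ?_, by simp [hi]⟩
    funext f
    by_cases hf : f.val = 0
    · simp only [hf, if_true, decide_true, Bool.true_and]
      by_cases hw : i < w.length
      · rw [List.getElem?_eq_getElem hw]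
        simp [hw]
      · rw [List.getElem?_eq_none (by omega)]
        simp [hw]
    · simp [hf]

/-- One step of the machine `A` inside the raw machine. -/
lemma A_step (c : Cfg Q Γ) (τ : ℕ → Sym K ⊕ Γ) (hτ : ∀ i, view A (τ i) = c.tape i) :
    ∃ τ', (raw K p A).step ⟨.inr c.q, τ, c.head⟩ = ⟨.inr (A.step c).q, τ', (A.step c).head⟩ ∧
      ∀ i, view A (τ' i) = (A.step c).tape i := by
  by_cases hh : c.q = A.acc ∨ c.q = A.rej
  · have h1 : (raw K p A).step ⟨.inr c.q, τ, c.head⟩ = ⟨.inr c.q, τ, c.head⟩ := by
      unfold TM.step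
      rw [if_pos]
      rcases hh with h | h
      · exact Or.inl (by simp [raw, h])
      · exact Or.inr (by simp [raw, h])
    have h2 : A.step c = c := by
      unfold TM.step
      rw [if_pos hh]
    exact ⟨τ, by rw [h1, h2], by rwa [h2]⟩
  · have hn1 : (Sum.inr c.q : RQ K Q) ≠ (raw K p A).acc := by
      simp only [raw]
      intro h
      exact hh (Or.inl (Sum.inr.inj h))
    have hn2 : (Sum.inr c.q : RQ K Q) ≠ (raw K p A).rej := by
      simp only [raw]
      intro h
      exact hh (Or.inr (Sum.inr.inj h))
    have h2 : A.step c = ⟨(A.δ c.q (c.tape c.head)).1,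
        Function.update c.tape c.head (A.δ c.q (c.tape c.head)).2.1,
        if (A.δ c.q (c.tape c.head)).2.2 then c.head + 1 else c.head - 1⟩ := by
      unfold TM.step
      rw [if_neg hh]
    refine ⟨Function.update τ c.head (.inr (A.δ c.q (c.tape c.head)).2.1), ?_, ?_⟩
    · rw [TM.step_of _ _ _ hn1 hn2, h2]
      have h3 : (raw K p A).δ (.inr c.q) (τ c.head) = (.inr (A.δ c.q (c.tape c.head)).1,
          .inr (A.δ c.q (c.tape c.head)).2.1, (A.δ c.q (c.tape c.head)).2.2) := by
        change (_, _, _) = _
        rw [hτ]
      rw [h3]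
    · intro i
      rw [h2]
      by_cases hi : i = c.head
      · subst hi
        simp [view]
      · simp only [Function.update_of_ne hi]
        exact hτ i

/-- The runs of `A` inside the raw machine. -/
lemma A_iter (c : Cfg Q Γ) (τ : ℕ → Sym K ⊕ Γ) (hτ : ∀ i, view A (τ i) = c.tape i) (u : ℕ) :
    ∃ τ', (raw K p A).step^[u] ⟨.inr c.q, τ, c.head⟩ =
        ⟨.inr (A.step^[u] c).q, τ', (A.step^[u] c).head⟩ ∧
      ∀ i, view A (τ' i) = (A.step^[u] c).tape i := by
  induction u with
  | zero => exact ⟨τ, rfl, hτ⟩
  | succ u ih =>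
    obtain ⟨τ', h1, h2⟩ := ih
    obtain ⟨τ'', h3, h4⟩ := A_step p A _ τ' h2
    refine ⟨τ'', ?_, ?_⟩
    · rw [Function.iterate_succ_apply', h1, h3, Function.iterate_succ_apply']
    · rw [Function.iterate_succ_apply']
      exact h4

/-- The main statement for the raw machine. -/
lemma raw_main (hp : p.Bdd (K + 1)) (w : List Bool) (t : ℕ) (s' : St)
    (H : (sstep w)^[t] ([p], St.init w) = ([], s')) :
    ∃ T ≤ 20 * (t + w.length + 1) ^ 2, ∀ u, ((raw K p A).run w (T + u)).q = .inr (A.run s'.out u).q := by
  obtain ⟨m, hm, h1⟩ := sim_iter p A hp w t [] s' H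
  have h2 : (raw K p A).step (cf K w [] .ctrl s' 0) = ⟨.inr A.start, tp K Γ w s', 0⟩ := by
    refine (step_nw p A w [] .ctrl s' 0 (q' := .inr A.start) (d := false) ?_).trans ?_
    · simp only [δS]
    · simp
  have h3 : (raw K p A).step^[1 + (m + 1)] ((raw K p A).init w) = ⟨.inr A.start, tp K Γ w s', 0⟩ := by
    rw [show 1 + (m + 1) = (1 + m) + 1 from rfl, Function.iterate_succ_apply',
      add_comm 1 m, Function.iterate_succ_apply, init_step, h1, h2]
  refine ⟨1 + (m + 1), ?_, fun u => ?_⟩
  · have : t * (4 * (w.length + t) + 10) + 2 ≤ 20 * (t + w.length + 1) ^ 2 := by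
      nlinarith [Nat.zero_le t, Nat.zero_le w.length, Nat.zero_le (t * w.length)]
    omega
  · have h4 : ∀ i, view A (tp K Γ w s' i) = (A.init s'.out).tape i := by
      intro i
      rfl
    obtain ⟨τ', h5, _⟩ := A_iter p A (A.init s'.out) (tp K Γ w s') h4 u
    have h6 : (raw K p A).run w (1 + (m + 1) + u) = (raw K p A).step^[u]
        ⟨.inr A.start, tp K Γ w s', 0⟩ := by
      rw [TM.run, add_comm (1 + (m + 1)) u, Function.iterate_add_apply, h3]
    rw [h6]
    exact congrArg Cfg.q h5

/-! ### Finitely many control lists -/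

/-- The control lists reached in one step. -/
def succs : List Stmt → Set (List Stmt)
  | [] => ∅
  | .skip :: k => {k}
  | .inc _ :: k => {k}
  | .dec _ :: k => {k}
  | .rd _ _ :: k => {k}
  | .emit _ :: k => {k}
  | .seq a b :: k => {a :: b :: k}
  | .ifz _ a b :: k => {a :: k, b :: k}
  | .loop r a :: k => {k, a :: .loop r a :: k}

/-- The control lists of a statement followed by `k`. -/
def cl : Stmt → List Stmt → Set (List Stmt)
  | .skip, k => {.skip :: k}
  | .inc r, k => {.inc r :: k}
  | .dec r, k => {.dec r :: k}
  | .rd r d, k => {.rd r d :: k}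
  | .emit b, k => {.emit b :: k}
  | .seq a b, k => {.seq a b :: k} ∪ cl a (b :: k) ∪ cl b k
  | .ifz r a b, k => {.ifz r a b :: k} ∪ cl a k ∪ cl b k
  | .loop r a, k => {.loop r a :: k} ∪ cl a (.loop r a :: k)

lemma start_mem (s : Stmt) (k : List Stmt) : s :: k ∈ cl s k := by
  cases s <;> simp [cl]

lemma cl_succ (s : Stmt) (k l l' : List Stmt) (hl : l ∈ cl s k) (hl' : l' ∈ succs l) :
    l' ∈ cl s k ∨ l' = k := by
  induction s generalizing k with
  | skip =>
    simp only [cl, Set.mem_singleton_iff] at hl
    subst hl
    exact Or.inr hl'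
  | inc r =>
    simp only [cl, Set.mem_singleton_iff] at hl
    subst hl
    exact Or.inr hl'
  | dec r =>
    simp only [cl, Set.mem_singleton_iff] at hl
    subst hl
    exact Or.inr hl'
  | rd r d =>
    simp only [cl, Set.mem_singleton_iff] at hl
    subst hl
    exact Or.inr hl'
  | emit b =>
    simp only [cl, Set.mem_singleton_iff] at hl
    subst hl
    exact Or.inr hl'
  | seq a b iha ihb =>
    simp only [cl, Set.mem_union, Set.mem_singleton_iff] at hl ⊢
    rcases hl with (rfl | hl) | hl
    · simp only [succs, Set.mem_singleton_iff] at hl'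
      subst hl'
      exact Or.inl (Or.inl (Or.inr (start_mem _ _)))
    · rcases iha _ hl with h | h
      · exact Or.inl (Or.inl (Or.inr h))
      · subst h
        exact Or.inl (Or.inr (start_mem _ _))
    · rcases ihb _ hl with h | h
      · exact Or.inl (Or.inr h)
      · exact Or.inr h
  | ifz r a b iha ihb =>
    simp only [cl, Set.mem_union, Set.mem_singleton_iff] at hl ⊢
    rcases hl with (rfl | hl) | hl
    · simp only [succs, Set.mem_insert_iff, Set.mem_singleton_iff] at hl'
      rcases hl' with rfl | rfl
      · exact Or.inl (Or.inl (Or.inr (start_mem _ _)))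
      · exact Or.inl (Or.inr (start_mem _ _))
    · rcases iha _ hl with h | h
      · exact Or.inl (Or.inl (Or.inr h))
      · exact Or.inr h
    · rcases ihb _ hl with h | h
      · exact Or.inl (Or.inr h)
      · exact Or.inr h
  | loop r a iha =>
    simp only [cl, Set.mem_union, Set.mem_singleton_iff] at hl ⊢
    rcases hl with rfl | hl
    · simp only [succs, Set.mem_insert_iff, Set.mem_singleton_iff] at hl'
      rcases hl' with rfl | rfl
      · exact Or.inr rfl
      · exact Or.inl (Or.inr (start_mem _ _))
    · rcases iha _ hl with h | h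
      · exact Or.inl (Or.inr h)
      · subst h
        exact Or.inl (Or.inl rfl)

lemma cl_finite (s : Stmt) (k : List Stmt) : (cl s k).Finite := by
  induction s generalizing k with
  | skip => exact Set.finite_singleton _
  | inc r => exact Set.finite_singleton _
  | dec r => exact Set.finite_singleton _
  | rd r d => exact Set.finite_singleton _
  | emit b => exact Set.finite_singleton _
  | seq a b iha ihb => exact ((Set.finite_singleton _).union (iha _)).union (ihb _)
  | ifz r a b iha ihb => exact ((Set.finite_singleton _).union (iha _)).union (ihb _)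
  | loop r a iha => exact (Set.finite_singleton _).union (iha _)

/-- The control lists of a program. -/
def KS (p : Stmt) : Set (List Stmt) := cl p [] ∪ {[]}

lemma KS_finite (p : Stmt) : (KS p).Finite := (cl_finite p []).union (Set.finite_singleton _)

lemma KS_succ (p : Stmt) {l l' : List Stmt} (hl : l ∈ KS p) (hl' : l' ∈ succs l) : l' ∈ KS p := by
  rcases hl with hl | hl
  · rcases cl_succ p [] l l' hl hl' with h | h
    · exact Or.inl h
    · exact Or.inr h
  · rw [Set.mem_singleton_iff] at hl
    subst hl
    simp [succs] at hl'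

/-- The transitions of the counter part change the control list only to a successor. -/
lemma δS_succ (k : List Stmt) (m : Micro K) (x : Sym K) :
    (∃ m', (δS A k m x).1 = .inl (k, m')) ∨ (∃ k' m', k' ∈ succs k ∧ (δS A k m x).1 = .inl (k', m')) ∨
      ∃ q, (δS A k m x).1 = .inr q := by
  cases m with
  | init => exact Or.inl ⟨_, rfl⟩
  | home =>
    simp only [δS]
    split_ifs <;> exact Or.inl ⟨_, rfl⟩
  | incR f =>
    simp only [δS]
    split_ifs <;> exact Or.inl ⟨_, rfl⟩
  | decR f =>
    simp only [δS]
    split_ifs <;> exact Or.inl ⟨_, rfl⟩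
  | decW f => exact Or.inl ⟨_, rfl⟩
  | rdR f g =>
    simp only [δS]
    split_ifs <;> exact Or.inl ⟨_, rfl⟩
  | homeInc g =>
    simp only [δS]
    split_ifs <;> exact Or.inl ⟨_, rfl⟩
  | emitR b =>
    simp only [δS]
    split_ifs <;> exact Or.inl ⟨_, rfl⟩
  | ctrl =>
    match k with
    | [] => exact Or.inr (Or.inr ⟨_, rfl⟩)
    | .skip :: k' => exact Or.inr (Or.inl ⟨k', _, by simp [succs], rfl⟩)
    | .inc r :: k' => exact Or.inr (Or.inl ⟨k', _, by simp [succs], rfl⟩)
    | .dec r :: k' =>
      simp only [δS]
      split_ifs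
      · exact Or.inr (Or.inl ⟨k', _, by simp [succs], rfl⟩)
      · exact Or.inr (Or.inl ⟨k', _, by simp [succs], rfl⟩)
    | .seq a b :: k' => exact Or.inr (Or.inl ⟨_, _, by simp [succs], rfl⟩)
    | .ifz r a b :: k' =>
      simp only [δS]
      split_ifs
      · exact Or.inr (Or.inl ⟨b :: k', _, by simp [succs], rfl⟩)
      · exact Or.inr (Or.inl ⟨a :: k', _, by simp [succs], rfl⟩)
    | .loop r a :: k' =>
      simp only [δS]
      split_ifs
      · exact Or.inr (Or.inl ⟨a :: .loop r a :: k', _, by simp [succs], rfl⟩)
      · exact Or.inr (Or.inl ⟨k', _, by simp [succs], rfl⟩)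
    | .rd r d :: k' => exact Or.inr (Or.inl ⟨k', _, by simp [succs], rfl⟩)
    | .emit b :: k' => exact Or.inr (Or.inl ⟨k', _, by simp [succs], rfl⟩)

variable (K Q) in
/-- The states used. -/
def SS (p : Stmt) : Set (RQ K Q) :=
  (Sum.inl '' (KS p ×ˢ Set.univ)) ∪ (Sum.inr '' Set.univ)

lemma SS_finite [Finite Q] (p : Stmt) : (SS K Q p).Finite :=
  (((KS_finite p).prod Set.finite_univ).image _).union (Set.finite_univ.image _)

lemma SS_inl {k : List Stmt} {m : Micro K} (h : k ∈ KS p) : (Sum.inl (k, m) : RQ K Q) ∈ SS K Q p :=
  Or.inl ⟨(k, m), ⟨h, Set.mem_univ _⟩, rfl⟩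

lemma SS_inr (q : Q) : (Sum.inr q : RQ K Q) ∈ SS K Q p :=
  Or.inr ⟨q, Set.mem_univ _, rfl⟩

lemma SS_closed : ∀ q ∈ SS K Q p, ∀ x, ((raw K p A).δ q x).1 ∈ SS K Q p := by
  intro q hq x
  rcases hq with ⟨⟨k, m⟩, ⟨hk, _⟩, rfl⟩ | ⟨q, _, rfl⟩
  · cases x with
    | inl y =>
      change (δS A k m y).1 ∈ _
      rcases δS_succ A k m y with ⟨m', h⟩ | ⟨k', m', hk', h⟩ | ⟨q, h⟩
      · rw [h]
        exact SS_inl p hk
      · rw [h]
        exact SS_inl p (KS_succ p hk hk')
      · rw [h]
        exact SS_inr p q
    | inr a => exact SS_inl p hk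
  · exact SS_inr p _

lemma start_KS : [p] ∈ KS p := Or.inl (start_mem p [])

end Sim

namespace TM

variable {R Γ : Type} (M : TM R Γ)

/-- The machine on a set of states closed under the transitions. -/
def restrict (S : Set R) (hs : M.start ∈ S) (ha : M.acc ∈ S) (hr : M.rej ∈ S)
    (hc : ∀ q ∈ S, ∀ x, (M.δ q x).1 ∈ S) : TM S Γ where
  blank := M.blank
  bit := M.bit
  start := ⟨M.start, hs⟩
  acc := ⟨M.acc, ha⟩
  rej := ⟨M.rej, hr⟩
  acc_ne_rej := fun h => M.acc_ne_rej (congrArg Subtype.val h)
  δ q x := (⟨(M.δ q.1 x).1, hc q.1 q.2 x⟩, (M.δ q.1 x).2.1, (M.δ q.1 x).2.2)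

variable {M}
variable {S : Set R} {hs : M.start ∈ S} {ha : M.acc ∈ S} {hr : M.rej ∈ S}
  {hc : ∀ q ∈ S, ∀ x, (M.δ q x).1 ∈ S}

/-- The configuration of the original machine. -/
def outCfg (c : Cfg S Γ) : Cfg R Γ := ⟨c.q.1, c.tape, c.head⟩

lemma step_restrict (c : Cfg S Γ) :
    outCfg ((M.restrict S hs ha hr hc).step c) = M.step (outCfg c) := by
  by_cases h : c.q = (M.restrict S hs ha hr hc).acc ∨ c.q = (M.restrict S hs ha hr hc).rej
  · have h' : (outCfg c).q = M.acc ∨ (outCfg c).q = M.rej := by
      rcases h with h | h
      · exact Or.inl (congrArg Subtype.val h)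
      · exact Or.inr (congrArg Subtype.val h)
    unfold step
    rw [if_pos h, if_pos h']
  · have h' : ¬ ((outCfg c).q = M.acc ∨ (outCfg c).q = M.rej) := by
      rintro (h' | h')
      · exact h (Or.inl (Subtype.ext h'))
      · exact h (Or.inr (Subtype.ext h'))
    unfold step
    rw [if_neg h, if_neg h']
    rfl

lemma run_restrict (w : List Bool) (t : ℕ) :
    outCfg ((M.restrict S hs ha hr hc).run w t) = M.run w t := by
  induction t with
  | zero => rfl
  | succ t ih =>
    simp only [run, Function.iterate_succ_apply'] at ih ⊢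
    rw [step_restrict, ih]

end TM

namespace Sim

lemma exists_bdd (p : Stmt) : ∃ K, p.Bdd (K + 1) := by
  have mono : ∀ (a : Stmt) (K K' : ℕ), K ≤ K' → a.Bdd K → a.Bdd K' := by
    intro a
    induction a with
    | skip => intro _ _ _ _; trivial
    | emit b => intro _ _ _ _; trivial
    | inc r => intro K K' h h'; exact lt_of_lt_of_le h' h
    | dec r => intro K K' h h'; exact lt_of_lt_of_le h' h
    | rd r d => intro K K' h h'; exact ⟨lt_of_lt_of_le h'.1 h, lt_of_lt_of_le h'.2 h⟩
    | seq a b iha ihb => intro K K' h h'; exact ⟨iha _ _ h h'.1, ihb _ _ h h'.2⟩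
    | ifz r a b iha ihb =>
      intro K K' h h'
      exact ⟨lt_of_lt_of_le h'.1 h, iha _ _ h h'.2.1, ihb _ _ h h'.2.2⟩
    | loop r a iha => intro K K' h h'; exact ⟨lt_of_lt_of_le h'.1 h, iha _ _ h h'.2⟩
  induction p with
  | skip => exact ⟨0, trivial⟩
  | emit b => exact ⟨0, trivial⟩
  | inc r => exact ⟨r, Nat.lt_succ_self r⟩
  | dec r => exact ⟨r, Nat.lt_succ_self r⟩
  | rd r d =>
    refine ⟨max r d, ?_, ?_⟩ <;> simp only [Nat.lt_succ_iff] <;> simp
  | seq a b iha ihb =>
    obtain ⟨K₁, h₁⟩ := iha
    obtain ⟨K₂, h₂⟩ := ihb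
    exact ⟨max K₁ K₂, mono _ _ _ (by omega) h₁, mono _ _ _ (by omega) h₂⟩
  | ifz r a b iha ihb =>
    obtain ⟨K₁, h₁⟩ := iha
    obtain ⟨K₂, h₂⟩ := ihb
    exact ⟨max r (max K₁ K₂), by omega, mono _ _ _ (by omega) h₁, mono _ _ _ (by omega) h₂⟩
  | loop r a iha =>
    obtain ⟨K₁, h₁⟩ := iha
    exact ⟨max r K₁, by omega, mono _ _ _ (by omega) h₁⟩

end Sim

/-- A program followed by a machine `A` on the output of the program, as one machine: if the program
stops after `t` small steps with output `s'.out`, then after a time quadratic in `t` and the input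
length the machine behaves like `A` on that output. -/
theorem exists_composed (p : Stmt) (Q Γ : Type) [Finite Q] [Finite Γ] (A : TM Q Γ) :
    ∃ (Q' Γ' : Type) (_ : Finite Q') (_ : Finite Γ') (B : TM Q' Γ') (c : ℕ),
      B.start ≠ B.acc ∧ B.start ≠ B.rej ∧ B.blank ≠ B.bit false ∧ B.blank ≠ B.bit true ∧
        B.bit false ≠ B.bit true ∧
      ∀ (w : List Bool) (t : ℕ) (s' : St), (sstep w)^[t] ([p], St.init w) = ([], s') →
        ∃ T ≤ c * (t + w.length + 1) ^ 2, ∀ u,
          ((A.run s'.out u).q = A.acc → (B.run w (T + u)).q = B.acc) ∧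
          ((A.run s'.out u).q = A.rej → (B.run w (T + u)).q = B.rej) := by
  obtain ⟨K, hK⟩ := Sim.exists_bdd p
  have hs : (Sim.raw K p A).start ∈ Sim.SS K Q p := Sim.SS_inl p (Sim.start_KS p)
  have ha : (Sim.raw K p A).acc ∈ Sim.SS K Q p := Sim.SS_inr p _
  have hr : (Sim.raw K p A).rej ∈ Sim.SS K Q p := Sim.SS_inr p _
  have hfin : Finite ↥(Sim.SS K Q p) := (Sim.SS_finite p).to_subtype
  refine ⟨_, _, hfin, inferInstance,
    (Sim.raw K p A).restrict (Sim.SS K Q p) hs ha hr (Sim.SS_closed p A), 20, ?_, ?_, ?_, ?_, ?_, ?_⟩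
  · intro h
    have := congrArg Subtype.val h
    simp [TM.restrict, Sim.raw] at this
  · intro h
    have := congrArg Subtype.val h
    simp [TM.restrict, Sim.raw] at this
  · simp [TM.restrict, Sim.raw]
  · simp [TM.restrict, Sim.raw]
  · simp [TM.restrict, Sim.raw]
  · intro w t s' H
    obtain ⟨T, hT, h⟩ := Sim.raw_main p A hK w t s' H
    refine ⟨T, hT, fun u => ?_⟩
    have h1 : (((Sim.raw K p A).restrict (Sim.SS K Q p) hs ha hr (Sim.SS_closed p A)).run w
        (T + u)).q.1 = .inr (A.run s'.out u).q := by
      rw [← h u, ← TM.run_restrict (hs := hs) (ha := ha) (hr := hr) (hc := Sim.SS_closed p A)]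
      rfl
    constructor
    · intro h2
      apply Subtype.ext
      rw [h1, h2]
      rfl
    · intro h2
      apply Subtype.ext
      rw [h1, h2]
      rfl

end Vale.Agent.Lib.P310.Mach
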