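import Vale.Agent.Lib.P310.WL

/-!
# The machine model

A deterministic Turing machine with one tape, infinite to the right. The tape alphabet and the
state set are arbitrary types (finite in all statements). A left move at cell `0` stays at cell `0`.
The machine starts in state `start` with the input bits in cells `0, 1, ...`, all other cells blank
and the head on cell `0`, and it stops as soon as its state is `acc` or `rej`.

An input to a decision procedure for `k`-WL equivalence is a pair of graphs on `Fin n`, each given
by its adjacency matrix, written row by row.
-/

namespace Vale.Agent.Lib.P310.Mach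

/-- A deterministic one-tape Turing machine: the transition function gives the new state, the symbol
written and the direction of the move (`true` is right, `false` is left). -/
structure TM (Q Γ : Type) where
  blank : Γ
  bit : Bool → Γ
  start : Q
  acc : Q
  rej : Q
  acc_ne_rej : acc ≠ rej
  δ : Q → Γ → Q × Γ × Bool

/-- A configuration: state, tape contents and head position. -/
structure Cfg (Q Γ : Type) where
  q : Q
  tape : ℕ → Γ
  head : ℕ

namespace TM

variable {Q Γ : Type} (M : TM Q Γ)

open Classical in
/-- One step of the machine; a configuration in state `acc` or `rej` does not change any more. -/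
noncomputable def step (c : Cfg Q Γ) : Cfg Q Γ :=
  if c.q = M.acc ∨ c.q = M.rej then c
  else
    ⟨(M.δ c.q (c.tape c.head)).1, Function.update c.tape c.head (M.δ c.q (c.tape c.head)).2.1,
      if (M.δ c.q (c.tape c.head)).2.2 then c.head + 1 else c.head - 1⟩

/-- The initial configuration on an input word. -/
def init (w : List Bool) : Cfg Q Γ :=
  ⟨M.start, fun i => (w[i]?).elim M.blank M.bit, 0⟩

/-- The configuration after `t` steps on input `w`. -/
noncomputable def run (w : List Bool) (t : ℕ) : Cfg Q Γ := (M.step)^[t] (M.init w)

/-- The machine has stopped on input `w` after at most `t` steps. -/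
def HaltsWithin (w : List Bool) (t : ℕ) : Prop :=
  (M.run w t).q = M.acc ∨ (M.run w t).q = M.rej

/-- The machine decides a property of words: on every word it stops, in state `acc` if the word
has the property and in state `rej` otherwise. -/
def DecidesOn {ι : Type} (enc : ι → List Bool) (P : ι → Prop) : Prop :=
  ∀ x, (P x → ∃ t, (M.run (enc x) t).q = M.acc) ∧ (¬ P x → ∃ t, (M.run (enc x) t).q = M.rej)

end TM

open Classical in
/-- The adjacency matrix of a graph on `Fin n`, row by row. -/
noncomputable def adjBits {n : ℕ} (G : SimpleGraph (Fin n)) : List Bool :=
  (List.finRange n).flatMap fun i => (List.finRange n).map fun j => decide (G.Adj i j)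

/-- The input word for a pair of graphs on `Fin n`: the two adjacency matrices. -/
noncomputable def encPair {n : ℕ} (G H : SimpleGraph (Fin n)) : List Bool :=
  adjBits G ++ adjBits H

/-- The machine decides `k`-WL equivalence of pairs of graphs with the same number of vertices. -/
def DecidesWL {Q Γ : Type} (k : ℕ) (M : TM Q Γ) : Prop :=
  ∀ (n : ℕ) (G H : SimpleGraph (Fin n)),
    (WLEquiv k G H → ∃ t, (M.run (encPair G H) t).q = M.acc) ∧
      (¬ WLEquiv k G H → ∃ t, (M.run (encPair G H) t).q = M.rej)

/-- The running time of the machine is at most `C * n ^ e` on all pairs of graphs with `n ≥ n₀`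
vertices. -/
def TimeBigO {Q Γ : Type} (M : TM Q Γ) (e : ℕ) : Prop :=
  ∃ C n₀ : ℕ, ∀ n, n₀ ≤ n → ∀ G H : SimpleGraph (Fin n),
    M.HaltsWithin (encPair G H) (C * n ^ e)

end Vale.Agent.Lib.P310.Mach
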