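import Vale.Agent.Lib.P310.Mach.Runs

/-!
# Terms: a small functional language over the natural numbers

A term may read the input (its length and its bits), parameters, and variables in an environment.
`iter n c a b` is capped iteration: the accumulator starts with `min a c`, and `n` times it is
replaced by `min (b i acc) c`, where the body `b` sees the environment `i :: acc :: env`.
`app b a₁ a₂ a₃ a₄` runs the body `b` in the new environment `[a₁, a₂, a₃, a₄]`.
-/

set_option linter.unusedSimpArgs false

namespace Vale.Agent.Lib.P310.Mach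

/-- Terms. The constructor `iter` is capped iteration, and `app` a call of a closed body. -/
inductive Tm : Type
  | var (i : ℕ) : Tm
  | lit (n : ℕ) : Tm
  | par (i : ℕ) : Tm
  | len : Tm
  | inp (a : Tm) : Tm
  | add (a b : Tm) : Tm
  | sub (a b : Tm) : Tm
  | mul (a b : Tm) : Tm
  | ite (c a b : Tm) : Tm
  | iter (n c a b : Tm) : Tm
  | app (b a₁ a₂ a₃ a₄ : Tm) : Tm

/-- The accumulator of capped iteration. -/
def recVal (f : ℕ → ℕ → ℕ) (c a : ℕ) : ℕ → ℕ
  | 0 => min a c
  | i + 1 => min (f i (recVal f c a i)) c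

/-- The value of a term, given the parameters `π`, the input `w` and an environment. -/
def eval (π : ℕ → ℕ) (w : List Bool) : Tm → List ℕ → ℕ
  | .var i, env => env.getD i 0
  | .lit n, _ => n
  | .par i, _ => π i
  | .len, _ => w.length
  | .inp a, env => if inBit w (eval π w a env) = true then 1 else 0
  | .add a b, env => eval π w a env + eval π w b env
  | .sub a b, env => eval π w a env - eval π w b env
  | .mul a b, env => eval π w a env * eval π w b env
  | .ite c a b, env => if eval π w c env = 0 then eval π w b env else eval π w a env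
  | .iter n c a b, env =>
      recVal (fun i acc => eval π w b (i :: acc :: env)) (eval π w c env) (eval π w a env)
        (eval π w n env)
  | .app b a₁ a₂ a₃ a₄, env =>
      eval π w b [eval π w a₁ env, eval π w a₂ env, eval π w a₃ env, eval π w a₄ env]

/-- Increase a register by a constant. -/
def incs (f : ℕ) : ℕ → Stmt
  | 0 => .skip
  | n + 1 => .seq (.inc f) (incs f n)

/-- Register `d` is increased by the minimum of registers `x` and `c`, register `x` is cleared;
`y` and `t` are empty helpers. -/
def minTo (x c d y t : ℕ) : Stmt :=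
  .seq (cp c y t) (.seq (.loop x (.seq (.dec x) (.ifz y .skip (.seq (.dec y) (.inc d))))) (clr y))

/-- The program that computes a term into register `f`; the registers from `f` on are empty
before and those above `f` are empty after; the variables live in the registers `ctx`. -/
def compile (π : ℕ → ℕ) : Tm → List ℕ → ℕ → Stmt
  | .var i, ctx, f =>
      match ctx[i]? with
      | some r => cp r f (f + 1)
      | none => .skip
  | .lit n, _, f => incs f n
  | .par i, _, f => incs f (π i)
  | .len, _, f => cp 0 f (f + 1)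
  | .inp a, ctx, f =>
      .seq (compile π a ctx f) (.seq (.rd f (f + 1)) (.seq (clr f) (mv (f + 1) f)))
  | .add a b, ctx, f => .seq (compile π a ctx f) (.seq (compile π b ctx (f + 1)) (mv (f + 1) f))
  | .sub a b, ctx, f =>
      .seq (compile π a ctx f) (.seq (compile π b ctx (f + 1))
        (.loop (f + 1) (.seq (.dec (f + 1)) (.dec f))))
  | .mul a b, ctx, f =>
      .seq (compile π a ctx (f + 1)) (.seq (compile π b ctx (f + 2))
        (.seq (.loop (f + 1) (.seq (.dec (f + 1)) (cp (f + 2) f (f + 3)))) (clr (f + 2))))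
  | .ite c a b, ctx, f =>
      .seq (compile π c ctx f) (.ifz f (compile π b ctx f) (.seq (clr f) (compile π a ctx f)))
  | .iter n c a b, ctx, f =>
      .seq (compile π n ctx (f + 1)) (.seq (compile π c ctx (f + 3)) (.seq (compile π a ctx (f + 4))
        (.seq (minTo (f + 4) (f + 3) f (f + 5) (f + 6))
          (.seq (.loop (f + 1) (.seq (.dec (f + 1)) (.seq (compile π b ((f + 2) :: f :: ctx) (f + 4))
              (.seq (clr f) (.seq (minTo (f + 4) (f + 3) f (f + 5) (f + 6)) (.inc (f + 2)))))))
            (.seq (clr (f + 2)) (clr (f + 3)))))))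
  | .app b a₁ a₂ a₃ a₄, ctx, f =>
      .seq (compile π a₁ ctx f) (.seq (compile π a₂ ctx (f + 1)) (.seq (compile π a₃ ctx (f + 2))
        (.seq (compile π a₄ ctx (f + 3)) (.seq (compile π b [f, f + 1, f + 2, f + 3] (f + 4))
          (.seq (clr f) (.seq (clr (f + 1)) (.seq (clr (f + 2)) (.seq (clr (f + 3))
            (mv (f + 4) f)))))))))

/-- An upper bound on the number of small steps of the compiled program of a term. -/
def ops (π : ℕ → ℕ) (w : List Bool) : Tm → List ℕ → ℕ
  | .var i, env => 10 * env.getD i 0 + 5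
  | .lit n, _ => 2 * n + 2
  | .par i, _ => 2 * π i + 2
  | .len, _ => 10 * w.length + 5
  | .inp a, env => ops π w a env + 2 * eval π w a env + 20
  | .add a b, env => ops π w a env + ops π w b env + 4 * eval π w b env + 10
  | .sub a b, env => ops π w a env + ops π w b env + 4 * eval π w b env + 10
  | .mul a b, env =>
      ops π w a env + ops π w b env + eval π w a env * (10 * eval π w b env + 10) +
        2 * eval π w b env + 20
  | .ite c a b, env =>
      ops π w c env + (if eval π w c env = 0 then ops π w b env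
        else ops π w a env + 2 * eval π w c env) + 10
  | .iter n c a b, env =>
      ops π w n env + ops π w c env + ops π w a env + 40 * eval π w c env + 40 * eval π w a env +
        2 * eval π w n env + 100 +
        ∑ i ∈ Finset.range (eval π w n env),
          (ops π w b (i :: recVal (fun i acc => eval π w b (i :: acc :: env)) (eval π w c env)
              (eval π w a env) i :: env) +
            10 * eval π w b (i :: recVal (fun i acc => eval π w b (i :: acc :: env)) (eval π w c env)
              (eval π w a env) i :: env) + 40 * eval π w c env + 40)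
  | .app b a₁ a₂ a₃ a₄, env =>
      ops π w a₁ env + ops π w a₂ env + ops π w a₃ env + ops π w a₄ env +
        ops π w b [eval π w a₁ env, eval π w a₂ env, eval π w a₃ env, eval π w a₄ env] +
        2 * eval π w a₁ env + 2 * eval π w a₂ env + 2 * eval π w a₃ env + 2 * eval π w a₄ env +
        4 * eval π w b [eval π w a₁ env, eval π w a₂ env, eval π w a₃ env, eval π w a₄ env] + 30

variable {w : List Bool} {k : List Stmt}

/-- The conditions on the store before the compiled program of a term. -/
structure Good (w : List Bool) (ctx : List ℕ) (f : ℕ) (s : St) : Prop where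
  lt : ∀ r ∈ ctx, r < f
  pos : 0 < f
  reg0 : s.regs 0 = w.length
  zero : ∀ r, f ≤ r → s.regs r = 0

lemma St.set_eq_self {s : St} {r v : ℕ} (h : s.regs r = v) : s.set r v = s := by
  ext1
  · funext x
    by_cases hx : x = r
    · subst hx
      simp [h]
    · simp [hx]
  · rfl

lemma St.set_set (s : St) (r a b : ℕ) : (s.set r a).set r b = s.set r b := by
  ext1
  · funext x
    by_cases hx : x = r <;> simp [hx]
  · rfl

lemma St.set_comm (s : St) {r r' : ℕ} (h : r ≠ r') (a b : ℕ) :
    (s.set r a).set r' b = (s.set r' b).set r a := by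
  ext1
  · funext x
    by_cases hx : x = r
    · subst hx
      simp [h]
    · by_cases hy : x = r'
      · subst hy
        simp [hx]
      · simp [hx, hy]
  · rfl

lemma map_set_of_lt {ctx : List ℕ} {f : ℕ} (h : ∀ r ∈ ctx, r < f) (s : St) (v : ℕ) {g : ℕ}
    (hg : f ≤ g) : ctx.map (s.set g v).regs = ctx.map s.regs := by
  refine List.map_congr_left fun r hr => ?_
  have := h r hr
  simp [Function.update_of_ne (show r ≠ g by omega)]

lemma Good.up {ctx : List ℕ} {f : ℕ} {s : St} (h : Good w ctx f s) (v : ℕ) :
    Good w ctx (f + 1) (s.set f v) where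
  lt r hr := by
    have := h.lt r hr
    omega
  pos := by omega
  reg0 := by
    have := h.pos
    rw [St.set_same_ne _ _ (by omega)]
    exact h.reg0
  zero r hr := by
    rw [St.set_same_ne _ _ (by omega)]
    exact h.zero r (by omega)

lemma Good.mono {ctx : List ℕ} {f g : ℕ} {s : St} (h : Good w ctx f s) (hg : f ≤ g) :
    Good w ctx g s where
  lt r hr := by
    have := h.lt r hr
    omega
  pos := by
    have := h.pos
    omega
  reg0 := h.reg0
  zero r hr := h.zero r (by omega)

lemma Good.set_lt {ctx : List ℕ} {f g x v : ℕ} {s : St} (h : Good w ctx f s) (hx : f ≤ x)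
    (hg : x < g) : Good w ctx g (s.set x v) where
  lt r hr := by
    have := h.lt r hr
    omega
  pos := by
    have := h.pos
    omega
  reg0 := by
    have := h.pos
    rw [St.set_same_ne _ _ (by omega)]
    exact h.reg0
  zero r hr := by
    rw [St.set_same_ne _ _ (by omega)]
    exact h.zero r (by omega)

lemma runs_incs (f : ℕ) : ∀ (n : ℕ) (s : St),
    Runs w (incs f n :: k, s) (k, s.set f (s.regs f + n)) (2 * n + 1)
  | 0, s => by
    rw [Nat.add_zero, St.set_eq_self rfl]
    exact runs_skip
  | n + 1, s => by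
    have h := runs_incs f n (s.set f (s.regs f + 1))
    have h2 : (s.set f (s.regs f + 1)).set f ((s.set f (s.regs f + 1)).regs f + n) =
        s.set f (s.regs f + (n + 1)) := by
      rw [St.set_set]
      congr 1
      simp
      omega
    rw [h2] at h
    exact (runs_seq ((runs_inc f).trans h)).mono (by omega)

lemma runs_subloop {r d : ℕ} (hrd : r ≠ d) : ∀ (s : St),
    Runs w (.loop r (.seq (.dec r) (.dec d)) :: k, s)
      (k, (s.set d (s.regs d - s.regs r)).set r 0) (4 * s.regs r + 1) := by
  intro s
  generalize hv : s.regs r = v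
  induction v generalizing s with
  | zero =>
    have h2 : (s.set d (s.regs d - 0)).set r 0 = s := by
      rw [Nat.sub_zero, St.set_eq_self rfl, St.set_eq_self hv]
    rw [h2]
    exact runs_loop_zero hv
  | succ v ih =>
    set s₁ := s.set r (s.regs r - 1) with hs₁
    set s₂ := s₁.set d (s₁.regs d - 1) with hs₂
    have h1 := ih s₂ (by simp [hs₂, hs₁, hv, hrd])
    have h2 : (s₂.set d (s₂.regs d - v)).set r 0 = (s.set d (s.regs d - (v + 1))).set r 0 := by
      have h3 : s₂.regs d - v = s.regs d - (v + 1) := by
        simp [hs₂, hs₁, Ne.symm hrd]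
        omega
      rw [h3, hs₂, St.set_set, hs₁, St.set_comm _ hrd, St.set_set]
    rw [h2] at h1
    exact (runs_loop_ne (by omega) (runs_seq ((runs_dec r).trans ((runs_dec d).trans h1)))).mono
      (by omega)

lemma runs_mulloop {r b d h : ℕ} (hrd : r ≠ d) (hrb : r ≠ b) (hrh : r ≠ h) (hbd : b ≠ d)
    (hbh : b ≠ h) (hdh : d ≠ h) : ∀ (s : St), s.regs h = 0 →
    Runs w (.loop r (.seq (.dec r) (cp b d h)) :: k, s)
      (k, (s.set d (s.regs d + s.regs r * s.regs b)).set r 0)
      (s.regs r * (10 * s.regs b + 10) + 1) := by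
  intro s hs
  generalize hv : s.regs r = v
  induction v generalizing s with
  | zero =>
    have h2 : (s.set d (s.regs d + 0 * s.regs b)).set r 0 = s := by
      rw [Nat.zero_mul, Nat.add_zero, St.set_eq_self rfl, St.set_eq_self hv]
    rw [h2]
    exact (runs_loop_zero hv).mono (by simp)
  | succ v ih =>
    set s₁ := s.set r (s.regs r - 1) with hs₁
    have hb1 : s₁.regs b = s.regs b := by simp [hs₁, Ne.symm hrb]
    have hh1 : s₁.regs h = 0 := by simp [hs₁, Ne.symm hrh, hs]
    have hd1 : s₁.regs d = s.regs d := by simp [hs₁, Ne.symm hrd]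
    have c1 := runs_cp (w := w) (k := .loop r (.seq (.dec r) (cp b d h)) :: k) hbd hbh hdh s₁ hh1
    set s₂ := s₁.set d (s₁.regs d + s₁.regs b) with hs₂
    have h1 := ih s₂ (by simp [hs₂, Function.update_of_ne hdh.symm, hh1])
      (by simp [hs₂, hs₁, Function.update_of_ne hrd, hv])
    have hb2 : s₂.regs b = s.regs b := by simp [hs₂, Function.update_of_ne hbd, hb1]
    have hd2 : s₂.regs d = s.regs d + s.regs b := by simp [hs₂, hd1, hb1]
    have h2 : (s₂.set d (s₂.regs d + v * s₂.regs b)).set r 0 =
        (s.set d (s.regs d + (v + 1) * s.regs b)).set r 0 := by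
      have h3 : s₂.regs d + v * s₂.regs b = s.regs d + (v + 1) * s.regs b := by
        rw [hd2, hb2]
        ring
      rw [h3, hs₂, St.set_set, hs₁, St.set_comm _ hrd, St.set_set]
    rw [h2, hb2] at h1
    rw [hb1] at c1
    refine (runs_loop_ne (by omega) (runs_seq ((runs_dec r).trans (c1.trans h1)))).mono ?_
    have h9 : (v + 1) * (10 * s.regs b + 10) = v * (10 * s.regs b + 10) + (10 * s.regs b + 10) :=
      Nat.succ_mul _ _
    omega

lemma runs_minloop {x y d : ℕ} (hxy : x ≠ y) (hxd : x ≠ d) (hyd : y ≠ d) : ∀ (s : St),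
    Runs w (.loop x (.seq (.dec x) (.ifz y .skip (.seq (.dec y) (.inc d)))) :: k, s)
      (k, ((s.set d (s.regs d + min (s.regs x) (s.regs y))).set y (s.regs y - s.regs x)).set x 0)
      (7 * s.regs x + 1) := by
  intro s
  generalize hv : s.regs x = v
  induction v generalizing s with
  | zero =>
    have h2 : ((s.set d (s.regs d + min 0 (s.regs y))).set y (s.regs y - 0)).set x 0 = s := by
      ext1
      · funext z
        simp only [St.set_regs, Function.update_apply]
        split_ifs <;> simp_all
      · rfl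
    rw [h2]
    exact runs_loop_zero hv
  | succ v ih =>
    set s₁ := s.set x (s.regs x - 1) with hs₁
    by_cases hy : s.regs y = 0
    · have h1 := ih s₁ (by simp [hs₁, hv])
      have hy1 : s₁.regs y = 0 := by simp [hs₁, Ne.symm hxy, hy]
      have h2 : ((s₁.set d (s₁.regs d + min v (s₁.regs y))).set y (s₁.regs y - v)).set x 0 =
          ((s.set d (s.regs d + min (v + 1) (s.regs y))).set y (s.regs y - (v + 1))).set x 0 := by
        ext1
        · funext z
          simp only [St.set_regs, Function.update_apply, hs₁]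
          split_ifs <;> simp_all
        · rfl
      rw [h2] at h1
      refine (runs_loop_ne (by omega) (runs_seq ((runs_dec x).trans
        ((runs_ifz_zero hy1 runs_skip).trans h1)))).mono (by omega)
    · set s₂ := s₁.set y (s₁.regs y - 1) with hs₂
      set s₃ := s₂.set d (s₂.regs d + 1) with hs₃
      have h1 := ih s₃ (by simp [hs₃, hs₂, hs₁, hv, hxy, hxd])
      have hy1 : s₁.regs y ≠ 0 := by simpa [hs₁, Ne.symm hxy] using hy
      have h2 : ((s₃.set d (s₃.regs d + min v (s₃.regs y))).set y (s₃.regs y - v)).set x 0 =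
          ((s.set d (s.regs d + min (v + 1) (s.regs y))).set y (s.regs y - (v + 1))).set x 0 := by
        have h4 : s₃.regs y = s.regs y - 1 := by
          simp [hs₃, hs₂, hs₁, hyd, Function.update_of_ne hxy.symm]
        have h5 : s₃.regs d = s.regs d + 1 := by
          simp [hs₃, hs₂, hs₁, Function.update_of_ne hyd.symm, Function.update_of_ne hxd.symm]
        rw [h4, h5]
        have h6 : s.regs d + 1 + min v (s.regs y - 1) = s.regs d + min (v + 1) (s.regs y) := by
          omega
        have h7 : s.regs y - 1 - v = s.regs y - (v + 1) := by omega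
        rw [h6, h7]
        ext1
        · funext z
          simp only [St.set_regs, Function.update_apply, hs₃, hs₂, hs₁]
          split_ifs <;> simp_all
        · rfl
      rw [h2] at h1
      refine (runs_loop_ne (by omega) (runs_seq ((runs_dec x).trans
        ((runs_ifz_ne hy1 (runs_seq ((runs_dec y).trans ((runs_inc d).trans h1)))).trans
          (Runs.refl w _))))).mono (by omega)

lemma runs_minTo {x c d y t : ℕ} (hxc : x ≠ c) (hxd : x ≠ d) (hxy : x ≠ y)
    (hcd : c ≠ d) (hcy : c ≠ y) (hct : c ≠ t) (hdy : d ≠ y) (hyt : y ≠ t) (s : St)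
    (hy : s.regs y = 0) (ht : s.regs t = 0) :
    Runs w (minTo x c d y t :: k, s)
      (k, (s.set d (s.regs d + min (s.regs x) (s.regs c))).set x 0)
      (7 * s.regs x + 12 * s.regs c + 10) := by
  set s₁ := s.set y (s.regs y + s.regs c) with hs₁
  have h1 : Runs w (cp c y t :: (.seq (.loop x (.seq (.dec x) (.ifz y .skip (.seq (.dec y) (.inc d)))))
      (clr y)) :: k, s) (_ :: k, s₁) _ := runs_cp hcy hct hyt s ht
  have hy1 : s₁.regs y = s.regs c := by simp [hs₁, hy]
  have hx1 : s₁.regs x = s.regs x := by simp [hs₁, Function.update_of_ne hxy]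
  have hd1 : s₁.regs d = s.regs d := by simp [hs₁, Function.update_of_ne hdy]
  have h2 := runs_minloop (w := w) (k := clr y :: k) hxy hxd hdy.symm s₁
  set s₂ := ((s₁.set d (s₁.regs d + min (s₁.regs x) (s₁.regs y))).set y
    (s₁.regs y - s₁.regs x)).set x 0 with hs₂
  have h3 := runs_clr (w := w) (k := k) y s₂
  have h4 : s₂.set y 0 = (s.set d (s.regs d + min (s.regs x) (s.regs c))).set x 0 := by
    rw [hs₂, hx1, hy1, hd1]
    ext1
    · funext z
      simp only [St.set_regs, Function.update_apply, hs₁]
      split_ifs <;> simp_all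
    · rfl
  have h5 : s₂.regs y = s.regs c - s.regs x := by
    simp [hs₂, Function.update_of_ne hxy.symm, hx1, hy1]
  rw [h4, h5] at h3
  refine (runs_seq (h1.trans (runs_seq (h2.trans h3)))).mono ?_
  rw [hx1]
  omega

lemma Runs.fin {c : List Stmt × St} {s' s'' : St} {t t' : ℕ} (h : Runs w c (k, s') t) (he : s' = s'')
    (ht : t ≤ t') : Runs w c (k, s'') t' := by
  subst he
  exact h.mono ht

lemma recVal_le (f : ℕ → ℕ → ℕ) (c a : ℕ) : ∀ i, recVal f c a i ≤ c
  | 0 => Nat.min_le_right _ _
  | _ + 1 => Nat.min_le_right _ _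

lemma getD_map_of_getElem? {ctx : List ℕ} {i r : ℕ} (h : ctx[i]? = some r) (g : ℕ → ℕ) :
    (ctx.map g).getD i 0 = g r := by
  simp [List.getD_eq_getElem?_getD, h]

lemma getD_map_of_none {ctx : List ℕ} {i : ℕ} (h : ctx[i]? = none) (g : ℕ → ℕ) :
    (ctx.map g).getD i 0 = 0 := by
  simp [List.getD_eq_getElem?_getD, h]

variable {π : ℕ → ℕ}

lemma iter_state (s : St) (f a a' nvi i cv b x : ℕ) (hz4 : s.regs (f + 4) = 0) (hx : x = i + 1) :
    (((((((((s.set f a).set (f + 1) nvi).set (f + 2) i).set (f + 3) cv).set (f + 1) (nvi - 1)).set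
      (f + 4) b).set f 0).set f a').set (f + 4) 0).set (f + 2) x =
    (((s.set f a').set (f + 1) (nvi - 1)).set (f + 2) (i + 1)).set (f + 3) cv := by
  subst hx
  ext1
  · funext z
    simp only [St.set_regs, Function.update_apply]
    split_ifs <;> simp_all
  · rfl

/-- One round of the loop of capped iteration. -/
lemma iter_round {b : Tm} {ctx : List ℕ} {f : ℕ} {s : St} {nv cv : ℕ} {K : List Stmt}
    (ih : ∀ (ctx : List ℕ) (f : ℕ) (s : St) (k : List Stmt), Good w ctx f s →
      Runs w (compile π b ctx f :: k, s)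
        (k, s.set f (eval π w b (ctx.map s.regs))) (ops π w b (ctx.map s.regs)))
    (h : Good w ctx f s) {acc : ℕ → ℕ} (hacc : ∀ i, acc (i + 1) =
      min (eval π w b (i :: acc i :: ctx.map s.regs)) cv) (hle : ∀ i, acc i ≤ cv)
    (σ : ℕ → St)
    (hσ : ∀ i, σ i = (((s.set f (acc i)).set (f + 1) (nv - i)).set (f + 2) i).set (f + 3) cv)
    (i : ℕ) (hi : i < nv) :
    Runs w (.loop (f + 1) (.seq (.dec (f + 1)) (.seq (compile π b ((f + 2) :: f :: ctx) (f + 4))
        (.seq (clr f) (.seq (minTo (f + 4) (f + 3) f (f + 5) (f + 6)) (.inc (f + 2)))))) :: K, σ i)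
      (.loop (f + 1) (.seq (.dec (f + 1)) (.seq (compile π b ((f + 2) :: f :: ctx) (f + 4))
        (.seq (clr f) (.seq (minTo (f + 4) (f + 3) f (f + 5) (f + 6)) (.inc (f + 2)))))) :: K, σ (i + 1))
      (ops π w b (i :: acc i :: ctx.map s.regs) + 10 * eval π w b (i :: acc i :: ctx.map s.regs) +
        40 * cv + 40) := by
  have hf := h.pos
  have hz : ∀ r, f ≤ r → s.regs r = 0 := h.zero
  have e0 : (σ i).regs (f + 1) = nv - i := by simp [hσ]
  have hdec := runs_dec (w := w) (k := .seq (compile π b ((f + 2) :: f :: ctx) (f + 4))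
        (.seq (clr f) (.seq (minTo (f + 4) (f + 3) f (f + 5) (f + 6)) (.inc (f + 2)))) ::
      .loop (f + 1) (.seq (.dec (f + 1)) (.seq (compile π b ((f + 2) :: f :: ctx) (f + 4))
        (.seq (clr f) (.seq (minTo (f + 4) (f + 3) f (f + 5) (f + 6)) (.inc (f + 2)))))) :: K)
      (s := σ i) (f + 1)
  rw [e0] at hdec
  set s₁ := (σ i).set (f + 1) (nv - i - 1) with hs₁
  have hσ1 : ∀ r, r < f → s₁.regs r = s.regs r := by
    intro r hr
    simp [hs₁, hσ, Function.update_apply, show r ≠ f by omega, show r ≠ f + 1 by omega,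
      show r ≠ f + 2 by omega, show r ≠ f + 3 by omega]
  have hg : Good w ((f + 2) :: f :: ctx) (f + 4) s₁ := by
    refine ⟨?_, by omega, ?_, ?_⟩
    · intro r hr
      simp only [List.mem_cons] at hr
      rcases hr with rfl | rfl | hr
      · omega
      · omega
      · have := h.lt r hr
        omega
    · rw [hσ1 0 hf]
      exact h.reg0
    · intro r hr
      simp [hs₁, hσ, Function.update_apply, show r ≠ f by omega, show r ≠ f + 1 by omega,
        show r ≠ f + 2 by omega, show r ≠ f + 3 by omega, hz r (by omega)]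
  have henv : ((f + 2) :: f :: ctx).map s₁.regs = i :: acc i :: ctx.map s.regs := by
    simp only [List.map_cons, List.cons.injEq]
    refine ⟨by simp [hs₁, hσ], by simp [hs₁, hσ], ?_⟩
    refine List.map_congr_left fun r hr => hσ1 r (h.lt r hr)
  have h1 := ih ((f + 2) :: f :: ctx) (f + 4) s₁
    (.seq (clr f) (.seq (minTo (f + 4) (f + 3) f (f + 5) (f + 6)) (.inc (f + 2))) ::
      .loop (f + 1) (.seq (.dec (f + 1)) (.seq (compile π b ((f + 2) :: f :: ctx) (f + 4))
        (.seq (clr f) (.seq (minTo (f + 4) (f + 3) f (f + 5) (f + 6)) (.inc (f + 2)))))) :: K) hg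
  rw [henv] at h1
  set bv := eval π w b (i :: acc i :: ctx.map s.regs) with hbv
  set s₂ := s₁.set (f + 4) bv with hs₂
  have h2 := runs_clr (w := w) (k := .seq (minTo (f + 4) (f + 3) f (f + 5) (f + 6)) (.inc (f + 2)) ::
      .loop (f + 1) (.seq (.dec (f + 1)) (.seq (compile π b ((f + 2) :: f :: ctx) (f + 4))
        (.seq (clr f) (.seq (minTo (f + 4) (f + 3) f (f + 5) (f + 6)) (.inc (f + 2)))))) :: K) f s₂
  set s₃ := s₂.set f 0 with hs₃
  have h3 := runs_minTo (w := w) (k := .inc (f + 2) ::
      .loop (f + 1) (.seq (.dec (f + 1)) (.seq (compile π b ((f + 2) :: f :: ctx) (f + 4))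
        (.seq (clr f) (.seq (minTo (f + 4) (f + 3) f (f + 5) (f + 6)) (.inc (f + 2)))))) :: K)
    (x := f + 4) (c := f + 3) (d := f) (y := f + 5) (t := f + 6) (by omega) (by omega) (by omega)
    (by omega) (by omega) (by omega) (by omega) (by omega) s₃
    (by simp [hs₃, hs₂, hs₁, hσ, Function.update_apply, hz (f + 5) (by omega)])
    (by simp [hs₃, hs₂, hs₁, hσ, Function.update_apply, hz (f + 6) (by omega)])
  have hv4 : s₃.regs (f + 4) = bv := by simp [hs₃, hs₂]
  have hv3 : s₃.regs (f + 3) = cv := by simp [hs₃, hs₂, hs₁, hσ]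
  have hv0 : s₃.regs f = 0 := by simp [hs₃]
  have hvf : s₂.regs f = acc i := by
    simp [hs₂, hs₁, hσ]
  rw [hv4, hv3, hv0] at h3
  have hfin : ((s₃.set f (0 + min bv cv)).set (f + 4) 0).set (f + 2)
      (((s₃.set f (0 + min bv cv)).set (f + 4) 0).regs (f + 2) + 1) = σ (i + 1) := by
    have h7 := hacc i
    have h8 : nv - (i + 1) = nv - i - 1 := by omega
    rw [hσ (i + 1), h7, h8, hs₃, hs₂, hs₁, hσ i, Nat.zero_add, ← hbv]
    refine iter_state s f (acc i) (min bv cv) (nv - i) i cv bv _ (hz _ (by omega)) ?_
    simp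
  refine Runs.fin (runs_loop_ne ?_ (runs_seq (hdec.trans (runs_seq (h1.trans
    (runs_seq (h2.trans (runs_seq (h3.trans (runs_inc (f + 2)))))))))))
    hfin ?_
  · simp [hσ]
    omega
  · rw [hvf]
    have := hle i
    omega

/-- The compiled program of a term computes its value within `ops` small steps. -/
theorem compile_spec (π : ℕ → ℕ) (w : List Bool) : ∀ (e : Tm) (ctx : List ℕ) (f : ℕ) (s : St)
    (k : List Stmt), Good w ctx f s →
    Runs w (compile π e ctx f :: k, s)
      (k, s.set f (eval π w e (ctx.map s.regs))) (ops π w e (ctx.map s.regs)) := by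
  intro e
  induction e with
  | var i =>
    intro ctx f s k h
    have hf0 := h.zero f le_rfl
    have hf1 := h.zero (f + 1) (by omega)
    simp only [compile, eval, ops]
    cases hc : ctx[i]? with
    | none =>
      simp only [getD_map_of_none hc]
      rw [St.set_eq_self hf0]
      exact runs_skip.mono (by omega)
    | some r =>
      have hr : r < f := h.lt r (List.mem_of_getElem? hc)
      simp only [getD_map_of_getElem? hc]
      have := runs_cp (w := w) (k := k) (show r ≠ f by omega) (show r ≠ f + 1 by omega)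
        (show f ≠ f + 1 by omega) s hf1
      rw [hf0, Nat.zero_add] at this
      exact this.mono (by omega)
  | lit n =>
    intro ctx f s k h
    have hf0 := h.zero f le_rfl
    have := runs_incs (w := w) (k := k) f n s
    rw [hf0, Nat.zero_add] at this
    simp only [compile, eval, ops]
    exact this.mono (by omega)
  | par i =>
    intro ctx f s k h
    have hf0 := h.zero f le_rfl
    have := runs_incs (w := w) (k := k) f (π i) s
    rw [hf0, Nat.zero_add] at this
    simp only [compile, eval, ops]
    exact this.mono (by omega)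
  | len =>
    intro ctx f s k h
    have hf0 := h.zero f le_rfl
    have hf1 := h.zero (f + 1) (by omega)
    have hp := h.pos
    have := runs_cp (w := w) (k := k) (show 0 ≠ f by omega) (show 0 ≠ f + 1 by omega)
      (show f ≠ f + 1 by omega) s hf1
    rw [hf0, Nat.zero_add, h.reg0] at this
    simp only [compile, eval, ops]
    exact this.mono (by omega)
  | inp a ih =>
    intro ctx f s k h
    have hf0 := h.zero f le_rfl
    have hf1 := h.zero (f + 1) (by omega)
    simp only [compile, eval, ops]
    set env := ctx.map s.regs with henv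
    have h1 := ih ctx f s (.seq (.rd f (f + 1)) (.seq (clr f) (mv (f + 1) f)) :: k) h
    rw [← henv] at h1
    set va := eval π w a env with hva
    set s₁ := s.set f va with hs₁
    have h2 := runs_rd (w := w) (k := .seq (clr f) (mv (f + 1) f) :: k) (s := s₁) f (f + 1)
    have e1 : s₁.regs f = va := by simp [hs₁]
    have e2 : s₁.regs (f + 1) = 0 := by simp [hs₁, hf1]
    rw [e1, e2, Nat.zero_add] at h2
    set b : ℕ := if inBit w va = true then 1 else 0 with hb
    set s₂ := s₁.set (f + 1) b with hs₂
    have h3 := runs_clr (w := w) (k := mv (f + 1) f :: k) f s₂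
    have e3 : s₂.regs f = va := by simp [hs₂, e1]
    rw [e3] at h3
    set s₃ := s₂.set f 0 with hs₃
    have h4 := runs_mv (w := w) (k := k) (show f + 1 ≠ f by omega) s₃
    have e4 : s₃.regs (f + 1) = b := by simp [hs₃, hs₂]
    have e5 : s₃.regs f = 0 := by simp [hs₃]
    rw [e4, e5, Nat.zero_add] at h4
    refine Runs.fin (runs_seq (h1.trans (runs_seq (h2.trans (runs_seq (h3.trans h4)))))) ?_ ?_
    · ext1
      · funext z
        simp only [St.set_regs, Function.update_apply, hs₃, hs₂, hs₁]
        split_ifs <;> simp_all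
      · rfl
    · have : b ≤ 1 := by rw [hb]; split_ifs <;> omega
      omega
  | add a b iha ihb =>
    intro ctx f s k h
    have hf1 := h.zero (f + 1) (by omega)
    have hf0 := h.zero f le_rfl
    simp only [compile, eval, ops]
    set env := ctx.map s.regs with henv
    have h1 := iha ctx f s (.seq (compile π b ctx (f + 1)) (mv (f + 1) f) :: k) h
    rw [← henv] at h1
    set va := eval π w a env with hva
    set s₁ := s.set f va with hs₁
    have h2 := ihb ctx (f + 1) s₁ (mv (f + 1) f :: k) (h.up va)
    rw [show ctx.map s₁.regs = env from map_set_of_lt h.lt s va le_rfl] at h2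
    set vb := eval π w b env with hvb
    set s₂ := s₁.set (f + 1) vb with hs₂
    have h3 := runs_mv (w := w) (k := k) (show f + 1 ≠ f by omega) s₂
    have e1 : s₂.regs (f + 1) = vb := by simp [hs₂]
    have e2 : s₂.regs f = va := by simp [hs₂, hs₁]
    rw [e1, e2] at h3
    refine Runs.fin (runs_seq (h1.trans (runs_seq (h2.trans h3)))) ?_ ?_
    · ext1
      · funext z
        simp only [St.set_regs, Function.update_apply, hs₂, hs₁]
        split_ifs <;> simp_all
      · rfl
    · omega
  | sub a b iha ihb =>
    intro ctx f s k h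
    have hf1 := h.zero (f + 1) (by omega)
    have hf0 := h.zero f le_rfl
    simp only [compile, eval, ops]
    set env := ctx.map s.regs with henv
    have h1 := iha ctx f s (.seq (compile π b ctx (f + 1))
      (.loop (f + 1) (.seq (.dec (f + 1)) (.dec f))) :: k) h
    rw [← henv] at h1
    set va := eval π w a env with hva
    set s₁ := s.set f va with hs₁
    have h2 := ihb ctx (f + 1) s₁ (.loop (f + 1) (.seq (.dec (f + 1)) (.dec f)) :: k) (h.up va)
    rw [show ctx.map s₁.regs = env from map_set_of_lt h.lt s va le_rfl] at h2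
    set vb := eval π w b env with hvb
    set s₂ := s₁.set (f + 1) vb with hs₂
    have h3 := runs_subloop (w := w) (k := k) (show f + 1 ≠ f by omega) s₂
    have e1 : s₂.regs (f + 1) = vb := by simp [hs₂]
    have e2 : s₂.regs f = va := by simp [hs₂, hs₁]
    rw [e1, e2] at h3
    refine Runs.fin (runs_seq (h1.trans (runs_seq (h2.trans h3)))) ?_ ?_
    · ext1
      · funext z
        simp only [St.set_regs, Function.update_apply, hs₂, hs₁]
        split_ifs <;> simp_all
      · rfl
    · omega
  | mul a b iha ihb =>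
    intro ctx f s k h
    have hf0 := h.zero f le_rfl
    have hf1 := h.zero (f + 1) (by omega)
    have hf2 := h.zero (f + 2) (by omega)
    have hf3 := h.zero (f + 3) (by omega)
    simp only [compile, eval, ops]
    set env := ctx.map s.regs with henv
    have h1 := iha ctx (f + 1) s (.seq (compile π b ctx (f + 2))
      (.seq (.loop (f + 1) (.seq (.dec (f + 1)) (cp (f + 2) f (f + 3)))) (clr (f + 2))) :: k)
      (h.mono (by omega))
    rw [← henv] at h1
    set va := eval π w a env with hva
    set s₁ := s.set (f + 1) va with hs₁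
    have hg : Good w ctx (f + 2) s₁ := (h.mono (by omega)).up va
    have h2 := ihb ctx (f + 2) s₁
      (.seq (.loop (f + 1) (.seq (.dec (f + 1)) (cp (f + 2) f (f + 3)))) (clr (f + 2)) :: k) hg
    rw [show ctx.map s₁.regs = env from map_set_of_lt h.lt s va (by omega)] at h2
    set vb := eval π w b env with hvb
    set s₂ := s₁.set (f + 2) vb with hs₂
    have h3 := runs_mulloop (w := w) (k := clr (f + 2) :: k) (r := f + 1) (b := f + 2) (d := f)
      (h := f + 3) (by omega) (by omega) (by omega) (by omega) (by omega) (by omega) s₂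
      (by simp [hs₂, hs₁, hf3])
    have e1 : s₂.regs (f + 1) = va := by simp [hs₂, hs₁]
    have e2 : s₂.regs (f + 2) = vb := by simp [hs₂]
    have e3 : s₂.regs f = 0 := by simp [hs₂, hs₁, hf0]
    rw [e1, e2, e3, Nat.zero_add] at h3
    set s₃ := (s₂.set f (va * vb)).set (f + 1) 0 with hs₃
    have h4 := runs_clr (w := w) (k := k) (f + 2) s₃
    have e4 : s₃.regs (f + 2) = vb := by simp [hs₃, e2]
    rw [e4] at h4
    refine Runs.fin (runs_seq (h1.trans (runs_seq (h2.trans (runs_seq (h3.trans h4)))))) ?_ ?_
    · ext1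
      · funext z
        simp only [St.set_regs, Function.update_apply, hs₃, hs₂, hs₁]
        split_ifs <;> simp_all
      · rfl
    · omega
  | ite c a b ihc iha ihb =>
    intro ctx f s k h
    have hf0 := h.zero f le_rfl
    simp only [compile, eval, ops]
    set env := ctx.map s.regs with henv
    have h1 := ihc ctx f s (.ifz f (compile π b ctx f) (.seq (clr f) (compile π a ctx f)) :: k) h
    rw [← henv] at h1
    set vc := eval π w c env with hvc
    set s₁ := s.set f vc with hs₁
    have e1 : s₁.regs f = vc := by simp [hs₁]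
    by_cases hz : vc = 0
    · have h0 : s₁ = s := by
        rw [hs₁, hz]
        exact St.set_eq_self hf0
      rw [if_pos hz, if_pos hz]
      rw [h0] at h1
      have h2 := ihb ctx f s k h
      rw [← henv] at h2
      refine (runs_seq (h1.trans (runs_ifz_zero (by rw [hf0]) h2))).mono ?_
      omega
    · rw [if_neg hz, if_neg hz]
      have h2 := runs_clr (w := w) (k := compile π a ctx f :: k) f s₁
      rw [e1] at h2
      have h3 : s₁.set f 0 = s := by
        rw [hs₁, St.set_set]
        exact St.set_eq_self hf0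
      rw [h3] at h2
      have h4 := iha ctx f s k h
      rw [← henv] at h4
      refine (runs_seq (h1.trans (runs_ifz_ne (by rw [e1]; exact hz) (runs_seq (h2.trans h4))))).mono ?_
      omega
  | iter n c a b ihn ihc iha ihb =>
    intro ctx f s k h
    have hz : ∀ r, f ≤ r → s.regs r = 0 := h.zero
    have hp := h.pos
    simp only [compile, eval, ops]
    set env := ctx.map s.regs with henv
    set L : Stmt := .loop (f + 1) (.seq (.dec (f + 1)) (.seq (compile π b ((f + 2) :: f :: ctx) (f + 4))
      (.seq (clr f) (.seq (minTo (f + 4) (f + 3) f (f + 5) (f + 6)) (.inc (f + 2)))))) with hL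
    have h1 := ihn ctx (f + 1) s (.seq (compile π c ctx (f + 3)) (.seq (compile π a ctx (f + 4))
      (.seq (minTo (f + 4) (f + 3) f (f + 5) (f + 6)) (.seq L (.seq (clr (f + 2)) (clr (f + 3)))))) ::
        k) (h.mono (by omega))
    rw [← henv] at h1
    set nv := eval π w n env with hnv
    set s₁ := s.set (f + 1) nv with hs₁
    have hg₂ : Good w ctx (f + 3) s₁ := h.set_lt (by omega) (by omega)
    have h2 := ihc ctx (f + 3) s₁ (.seq (compile π a ctx (f + 4))
      (.seq (minTo (f + 4) (f + 3) f (f + 5) (f + 6)) (.seq L (.seq (clr (f + 2)) (clr (f + 3))))) :: k)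
      hg₂
    rw [show ctx.map s₁.regs = env from map_set_of_lt h.lt s nv (by omega)] at h2
    set cv := eval π w c env with hcv
    set s₂ := s₁.set (f + 3) cv with hs₂
    have hg₃ : Good w ctx (f + 4) s₂ := hg₂.set_lt (by omega) (by omega)
    have henv₂ : ctx.map s₂.regs = env := by
      rw [hs₂, map_set_of_lt hg₂.lt s₁ cv le_rfl, hs₁, map_set_of_lt h.lt s nv (by omega)]
    have h3 := iha ctx (f + 4) s₂
      (.seq (minTo (f + 4) (f + 3) f (f + 5) (f + 6)) (.seq L (.seq (clr (f + 2)) (clr (f + 3)))) :: k)
      hg₃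
    rw [henv₂] at h3
    set av := eval π w a env with hav
    set s₃ := s₂.set (f + 4) av with hs₃
    have h4 := runs_minTo (w := w) (k := .seq L (.seq (clr (f + 2)) (clr (f + 3))) :: k)
      (x := f + 4) (c := f + 3) (d := f) (y := f + 5) (t := f + 6) (by omega) (by omega) (by omega)
      (by omega) (by omega) (by omega) (by omega) (by omega) s₃
      (by simp [hs₃, hs₂, hs₁, Function.update_apply, hz (f + 5) (by omega)])
      (by simp [hs₃, hs₂, hs₁, Function.update_apply, hz (f + 6) (by omega)])
    have e4 : s₃.regs (f + 4) = av := by simp [hs₃]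
    have e3 : s₃.regs (f + 3) = cv := by simp [hs₃, hs₂]
    have e0 : s₃.regs f = 0 := by simp [hs₃, hs₂, hs₁, hz f le_rfl]
    rw [e4, e3, e0, Nat.zero_add] at h4
    set acc : ℕ → ℕ := fun i => recVal (fun i acc => eval π w b (i :: acc :: env)) cv av i with hacc
    set σ : ℕ → St := fun i =>
      (((s.set f (acc i)).set (f + 1) (nv - i)).set (f + 2) i).set (f + 3) cv with hσ
    have hs₄ : (s₃.set f (min av cv)).set (f + 4) 0 = σ 0 := by
      have h9 : acc 0 = min av cv := rfl
      have h10 := hz (f + 2) (by omega)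
      have h11 := hz (f + 4) (by omega)
      simp only [hσ, h9, Nat.sub_zero, hs₃, hs₂, hs₁]
      ext1
      · funext z
        simp only [St.set_regs, Function.update_apply]
        split_ifs <;> simp_all
      · rfl
    rw [hs₄] at h4
    have hround : ∀ i, i < nv → Runs w (L :: .seq (clr (f + 2)) (clr (f + 3)) :: k, σ i)
        (L :: .seq (clr (f + 2)) (clr (f + 3)) :: k, σ (i + 1))
        (ops π w b (i :: acc i :: env) + 10 * eval π w b (i :: acc i :: env) + 40 * cv + 40) :=
      fun i hi => iter_round ihb h (acc := acc) (cv := cv) (fun _ => rfl) (recVal_le _ _ _) σ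
        (fun _ => rfl) i hi
    have hall : ∀ i, i ≤ nv → Runs w (L :: .seq (clr (f + 2)) (clr (f + 3)) :: k, σ 0)
        (L :: .seq (clr (f + 2)) (clr (f + 3)) :: k, σ i)
        (∑ j ∈ Finset.range i, (ops π w b (j :: acc j :: env) +
          10 * eval π w b (j :: acc j :: env) + 40 * cv + 40)) := by
      intro i
      induction i with
      | zero => intro _; exact Runs.refl _ _
      | succ i ih =>
        intro hi
        rw [Finset.sum_range_succ]
        exact (ih (by omega)).trans (hround i (by omega))
    have hexit : Runs w (L :: .seq (clr (f + 2)) (clr (f + 3)) :: k, σ nv)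
        (.seq (clr (f + 2)) (clr (f + 3)) :: k, σ nv) 1 :=
      runs_loop_zero (by simp [hσ])
    have h5 := runs_clr (w := w) (k := clr (f + 3) :: k) (f + 2) (σ nv)
    have h6 := runs_clr (w := w) (k := k) (f + 3) ((σ nv).set (f + 2) 0)
    have e5 : (σ nv).regs (f + 2) = nv := by simp [hσ]
    have e6 : ((σ nv).set (f + 2) 0).regs (f + 3) = cv := by simp [hσ]
    rw [e5] at h5
    rw [e6] at h6
    have hfin : ((σ nv).set (f + 2) 0).set (f + 3) 0 = s.set f (acc nv) := by
      have h10 := hz (f + 1) (by omega)
      have h11 := hz (f + 2) (by omega)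
      have h12 := hz (f + 3) (by omega)
      simp only [hσ, Nat.sub_self]
      ext1
      · funext z
        simp only [St.set_regs, Function.update_apply]
        split_ifs <;> simp_all
      · rfl
    refine Runs.fin (runs_seq (h1.trans (runs_seq (h2.trans (runs_seq (h3.trans (runs_seq (h4.trans
      (runs_seq (((hall nv le_rfl).trans hexit).trans (runs_seq (h5.trans h6)))))))))))) hfin ?_
    have h13 : eval π w b = eval π w b := rfl
    simp only [hacc]
    omega
  | app b a₁ a₂ a₃ a₄ ihb ih₁ ih₂ ih₃ ih₄ =>
    intro ctx f s k h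
    have hz : ∀ r, f ≤ r → s.regs r = 0 := h.zero
    have hp := h.pos
    simp only [compile, eval, ops]
    set env := ctx.map s.regs with henv
    have h1 := ih₁ ctx f s (.seq (compile π a₂ ctx (f + 1)) (.seq (compile π a₃ ctx (f + 2))
        (.seq (compile π a₄ ctx (f + 3)) (.seq (compile π b [f, f + 1, f + 2, f + 3] (f + 4))
          (.seq (clr f) (.seq (clr (f + 1)) (.seq (clr (f + 2)) (.seq (clr (f + 3))
            (mv (f + 4) f)))))))) :: k) h
    rw [← henv] at h1
    set v₁ := eval π w a₁ env with hv₁
    set s₁ := s.set f v₁ with hs₁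
    have hg₁ : Good w ctx (f + 1) s₁ := h.up v₁
    have henv₁ : ctx.map s₁.regs = env := map_set_of_lt h.lt s v₁ le_rfl
    have h2 := ih₂ ctx (f + 1) s₁ (.seq (compile π a₃ ctx (f + 2))
        (.seq (compile π a₄ ctx (f + 3)) (.seq (compile π b [f, f + 1, f + 2, f + 3] (f + 4))
          (.seq (clr f) (.seq (clr (f + 1)) (.seq (clr (f + 2)) (.seq (clr (f + 3))
            (mv (f + 4) f))))))) :: k) hg₁
    rw [henv₁] at h2
    set v₂ := eval π w a₂ env with hv₂
    set s₂ := s₁.set (f + 1) v₂ with hs₂
    have hg₂ : Good w ctx (f + 2) s₂ := hg₁.up v₂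
    have henv₂ : ctx.map s₂.regs = env := by
      rw [hs₂, map_set_of_lt hg₁.lt s₁ v₂ le_rfl, henv₁]
    have h3 := ih₃ ctx (f + 2) s₂
        (.seq (compile π a₄ ctx (f + 3)) (.seq (compile π b [f, f + 1, f + 2, f + 3] (f + 4))
          (.seq (clr f) (.seq (clr (f + 1)) (.seq (clr (f + 2)) (.seq (clr (f + 3))
            (mv (f + 4) f)))))) :: k) hg₂
    rw [henv₂] at h3
    set v₃ := eval π w a₃ env with hv₃
    set s₃ := s₂.set (f + 2) v₃ with hs₃
    have hg₃ : Good w ctx (f + 3) s₃ := hg₂.up v₃
    have henv₃ : ctx.map s₃.regs = env := by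
      rw [hs₃, map_set_of_lt hg₂.lt s₂ v₃ le_rfl, henv₂]
    have h4 := ih₄ ctx (f + 3) s₃
        (.seq (compile π b [f, f + 1, f + 2, f + 3] (f + 4))
          (.seq (clr f) (.seq (clr (f + 1)) (.seq (clr (f + 2)) (.seq (clr (f + 3))
            (mv (f + 4) f))))) :: k) hg₃
    rw [henv₃] at h4
    set v₄ := eval π w a₄ env with hv₄
    set s₄ := s₃.set (f + 3) v₄ with hs₄
    have hg₄ : Good w [f, f + 1, f + 2, f + 3] (f + 4) s₄ := by
      have hg := hg₃.up v₄
      refine ⟨?_, hg.pos, hg.reg0, hg.zero⟩
      intro r hr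
      simp only [List.mem_cons, List.not_mem_nil, or_false] at hr
      omega
    have henv₄ : [f, f + 1, f + 2, f + 3].map s₄.regs = [v₁, v₂, v₃, v₄] := by
      simp [hs₄, hs₃, hs₂, hs₁]
    have h5 := ihb [f, f + 1, f + 2, f + 3] (f + 4) s₄
          (.seq (clr f) (.seq (clr (f + 1)) (.seq (clr (f + 2)) (.seq (clr (f + 3))
            (mv (f + 4) f)))) :: k) hg₄
    rw [henv₄] at h5
    set vb := eval π w b [v₁, v₂, v₃, v₄] with hvb
    set s₅ := s₄.set (f + 4) vb with hs₅
    have h6 := runs_clr (w := w) (k := .seq (clr (f + 1)) (.seq (clr (f + 2)) (.seq (clr (f + 3))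
            (mv (f + 4) f))) :: k) f s₅
    have e1 : s₅.regs f = v₁ := by simp [hs₅, hs₄, hs₃, hs₂, hs₁]
    rw [e1] at h6
    set s₆ := s₅.set f 0 with hs₆
    have h7 := runs_clr (w := w) (k := .seq (clr (f + 2)) (.seq (clr (f + 3))
            (mv (f + 4) f)) :: k) (f + 1) s₆
    have e2 : s₆.regs (f + 1) = v₂ := by simp [hs₆, hs₅, hs₄, hs₃, hs₂, hs₁]
    rw [e2] at h7
    set s₇ := s₆.set (f + 1) 0 with hs₇
    have h8 := runs_clr (w := w) (k := .seq (clr (f + 3)) (mv (f + 4) f) :: k) (f + 2) s₇
    have e3 : s₇.regs (f + 2) = v₃ := by simp [hs₇, hs₆, hs₅, hs₄, hs₃, hs₂, hs₁]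
    rw [e3] at h8
    set s₈ := s₇.set (f + 2) 0 with hs₈
    have h9 := runs_clr (w := w) (k := mv (f + 4) f :: k) (f + 3) s₈
    have e4 : s₈.regs (f + 3) = v₄ := by simp [hs₈, hs₇, hs₆, hs₅, hs₄]
    rw [e4] at h9
    set s₉ := s₈.set (f + 3) 0 with hs₉
    have h10 := runs_mv (w := w) (k := k) (show f + 4 ≠ f by omega) s₉
    have e5 : s₉.regs (f + 4) = vb := by simp [hs₉, hs₈, hs₇, hs₆, hs₅]
    have e6 : s₉.regs f = 0 := by simp [hs₉, hs₈, hs₇, hs₆]
    rw [e5, e6, Nat.zero_add] at h10
    have hfin : (s₉.set f vb).set (f + 4) 0 = s.set f vb := by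
      have z1 := hz (f + 1) (by omega)
      have z2 := hz (f + 2) (by omega)
      have z3 := hz (f + 3) (by omega)
      have z4 := hz (f + 4) (by omega)
      simp only [hs₉, hs₈, hs₇, hs₆, hs₅, hs₄, hs₃, hs₂, hs₁]
      clear h1 h2 h3 h4 h5 h6 h7 h8 h9 h10 e1 e2 e3 e4 e5 e6 henv₄ hg₄ henv₃ hg₃ henv₂ hg₂ henv₁ hg₁
      ext1
      · funext z
        simp only [St.set_regs, Function.update_apply]
        split_ifs <;> simp_all
      · rfl
    refine Runs.fin (runs_seq (h1.trans (runs_seq (h2.trans (runs_seq (h3.trans (runs_seq (h4.trans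
      (runs_seq (h5.trans (runs_seq (h6.trans (runs_seq (h7.trans (runs_seq (h8.trans (runs_seq
        (h9.trans h10)))))))))))))))))) hfin ?_
    omega

end Vale.Agent.Lib.P310.Mach
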